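import Vale.Agent.P371.Point

open Matrix Filter Topology Set MeasureTheory
open scoped Matrix.Norms.L2Operator MatrixOrder ComplexOrder

set_option linter.unusedSectionVars false

namespace Vale.Agent.P371

variable {n : Type} [Fintype n] [DecidableEq n]

lemma le_norm_smul {A : Matrix n n ℂ} (hA : A.IsHermitian) : A ≤ ‖A‖ • (1 : Matrix n n ℂ) := by
  have := hA.isSelfAdjoint.le_algebraMap_norm_self
  rwa [Algebra.algebraMap_eq_smul_one] at this

lemma spec_abs_le {A : Matrix n n ℂ} (hA : A.IsHermitian) {s : ℝ} (hs : s ∈ spectrum ℝ A) :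
    |s| ≤ ‖A‖ := by
  have := norm_apply_le_norm_cfc (fun s : ℝ => s) A hs (contOn_spec _ _) hA
  rwa [cfc_id'' hA] at this

lemma exists_smul_le {A : Matrix n n ℂ} (hA : A.PosDef) :
    ∃ c : ℝ, 0 < c ∧ c • (1 : Matrix n n ℂ) ≤ A := by
  obtain ⟨U, l, h⟩ := exists_spec hA.1
  have hl := h.pos hA
  have p : 0 ≤ ∑ i, (l i)⁻¹ := Finset.sum_nonneg fun i _ => (inv_pos.mpr (hl i)).le
  refine ⟨(∑ i, (l i)⁻¹ + 1)⁻¹, by positivity, ?_⟩
  conv_rhs => rw [← cfc_id'' hA.1]
  rw [← cfc_const' hA.1]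
  refine cfc_le' fun s hs => ?_
  obtain ⟨i, rfl⟩ := h.surj s hs
  have := Finset.single_le_sum (fun i _ => (inv_pos.mpr (hl i)).le) (Finset.mem_univ i)
  rw [inv_le_comm₀ (by positivity) (hl i)]; linarith

lemma posDef_of_smul_le {A : Matrix n n ℂ} {c : ℝ} (hc : 0 < c)
    (h : c • (1 : Matrix n n ℂ) ≤ A) : A.PosDef := by
  have h1 : (c • (1 : Matrix n n ℂ)).PosDef := PosDef.one.smul hc
  have := h1.add_posSemidef (le_iff.mp h)
  rwa [add_sub_cancel] at this

lemma rt_mul_pos {P A : Matrix n n ℂ} (hP : P.PosSemidef) (h1 : rt P = 1) (hA : A.PosDef) :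
    0 < rt (P * A) := by
  obtain ⟨c, hc, h⟩ := exists_smul_le hA
  have := rt_mul_mono hP h
  rw [Matrix.mul_smul, Matrix.mul_one, rt_smul, h1] at this
  linarith

lemma rt_mul_le {P A : Matrix n n ℂ} (hP : P.PosSemidef) (h1 : rt P = 1) {c : ℝ}
    (h : A ≤ c • (1 : Matrix n n ℂ)) : rt (P * A) ≤ c := by
  have := rt_mul_mono hP h
  rwa [Matrix.mul_smul, Matrix.mul_one, rt_smul, h1, mul_one] at this

lemma eventually_posDef {X : Type*} {l : Filter X} {A : X → Matrix n n ℂ} {A₀ : Matrix n n ℂ}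
    (hA : Tendsto A l (𝓝 A₀)) (h₀ : A₀.PosDef) (hh : ∀ᶠ x in l, (A x).IsHermitian) :
    ∀ᶠ x in l, (A x).PosDef := by
  obtain ⟨c, hc, h⟩ := exists_smul_le h₀
  filter_upwards [hh, Metric.tendsto_nhds.mp hA (c / 2) (by positivity)] with x hx hd
  refine posDef_of_smul_le (c := c / 2) (by positivity) ?_
  have h1 := le_norm_smul (h₀.1.sub hx)
  rw [dist_comm, dist_eq_norm] at hd
  have h2 : ‖A₀ - A x‖ • (1 : Matrix n n ℂ) ≤ (c / 2) • 1 :=
    smul_le_smul_of_nonneg_right hd.le zero_le_one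
  have h3 : c • (1 : Matrix n n ℂ) = (c / 2) • 1 + (c / 2) • 1 := by
    rw [← add_smul]; congr 1; ring
  have := h.trans (sub_le_iff_le_add.mp (h1.trans h2))
  rw [h3] at this
  exact le_of_add_le_add_left this

lemma pos_of_cfc_posDef {f : ℝ → ℝ} {A : Matrix n n ℂ} (hA : A.IsHermitian)
    (h : (cfc f A).PosDef) : ∀ s ∈ spectrum ℝ A, 0 < f s :=
  (cfc_isStrictlyPositive_iff f A (contOn_spec f A) hA).mp (isStrictlyPositive_iff_posDef.mpr h)

lemma pj_psd (U : Matrix n n ℂ) (j : n) : (pj U j).PosSemidef := by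
  refine PosSemidef.mul_mul_conjTranspose_same (A := dg (Pi.single j 1)) ?_ U
  refine PosSemidef.diagonal fun i => ?_
  by_cases h : i = j <;> simp [h]

lemma Spec.rt_pj {A U : Matrix n n ℂ} {l : n → ℝ} (h : Spec A U l) (j : n) :
    rt (pj U j) = 1 := by
  rw [pj, dgL_apply, rt_comm, ← Matrix.mul_assoc, h.h2, Matrix.one_mul, ← Matrix.mul_one (dg _),
    rt_dg_mul]
  simp

lemma cfc_mul_of_eigen {A P : Matrix n n ℂ} (hA : A.IsHermitian) {c : ℝ} (h : A * P = c • P)
    (f : ℝ → ℝ) : cfc f A * P = f c • P := by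
  have e2 : cfc (dslope f c) A * (A - c • 1) = cfc f A - f c • 1 := by
    conv_lhs => rw [← cfc_const' hA, show A - cfc (fun _ => c) A
      = cfc (fun s => s) A - cfc (fun _ => c) A by rw [cfc_id'' hA]]
    rw [← cfc_const' hA, cfc_sub', cfc_sub', cfc_mul']
    congr 1; ext s
    have := sub_smul_dslope f c s
    rw [smul_eq_mul] at this; rw [← this]; ring
  have := congrArg (· * P) e2
  simp only [Matrix.mul_assoc, Matrix.sub_mul, h, Matrix.smul_mul, Matrix.one_mul, sub_self,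
    Matrix.mul_zero] at this
  exact (sub_eq_zero.mp this.symm)

/-- first-touch argument -/
lemma barrier {a b : ℝ} {A A' : ℝ → Matrix n n ℂ}
    (hd : ∀ x ∈ Icc a b, HasDerivWithinAt A (A' x) (Icc a b) x)
    (hh : ∀ x ∈ Icc a b, (A x).IsHermitian) (ha : (A a).PosDef)
    (H : ∀ x ∈ Icc a b, ∀ P : Matrix n n ℂ, P.PosSemidef → rt P = 1 → A x * P = 0 →
      0 < rt (P * A' x)) : ∀ x ∈ Icc a b, (A x).PosDef := by
  by_contra hc
  push Not at hc
  have hcl : IsClosed {x ∈ Icc a b | ¬ (A x).PosDef} := by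
    refine isClosed_iff_frequently.mpr fun x hx => ?_
    have hx' : x ∈ Icc a b := isClosed_Icc.closure_subset
      (mem_closure_iff_frequently.mpr (hx.mono fun y hy => hy.1))
    refine ⟨hx', fun hp => ?_⟩
    have := eventually_posDef (hd x hx').continuousWithinAt.tendsto hp
      (eventually_nhdsWithin_of_forall hh)
    rw [eventually_nhdsWithin_iff] at this
    obtain ⟨y, hy1, hy2⟩ := (hx.and_eventually this).exists
    exact hy1.2 (hy2 hy1.1)
  obtain ⟨x, hx, hmin⟩ := (isCompact_Icc.of_isClosed_subset hcl fun x hx => hx.1).exists_isMinOn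
    hc continuousOn_id
  have hax : a < x := lt_of_le_of_ne hx.1.1 fun e => hx.2 (e ▸ ha)
  have hlt : ∀ y ∈ Ico a x, (A y).PosDef := fun y hy => by
    by_contra hn
    exact absurd (hmin (⟨⟨hy.1, hy.2.le.trans hx.1.2⟩, hn⟩ : y ∈ {x ∈ Icc a b | ¬ (A x).PosDef}))
      (not_le.mpr hy.2)
  have hsub : Ico a x ⊆ Icc a b \ {x} := fun y hy =>
    ⟨⟨hy.1, hy.2.le.trans hx.1.2⟩, hy.2.ne⟩
  have hne : (𝓝[Ico a x] x).NeBot := by
    rw [nhdsWithin_Ico_eq_nhdsLT hax]; infer_instance
  have hps : 0 ≤ A x := ge_of_tendsto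
    ((hd x hx.1).continuousWithinAt.tendsto.mono_left
      (nhdsWithin_mono _ (hsub.trans sdiff_subset)))
    (eventually_nhdsWithin_of_forall fun y hy => nonneg_iff_posSemidef.mpr (hlt y hy).posSemidef)
  obtain ⟨U, l, h⟩ := exists_spec (hh x hx.1)
  obtain ⟨j, hj⟩ : ∃ j, l j = 0 := by
    by_contra hn
    push Not at hn
    refine hx.2 ?_
    rw [← cfc_id'' h.herm]
    refine cfc_posDef h.herm fun s hs => ?_
    obtain ⟨i, rfl⟩ := h.surj s hs
    exact lt_of_le_of_ne (h.nonneg (nonneg_iff_posSemidef.mp hps) i) (hn i).symm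
  have e : A x * pj U j = 0 := by
    have := h.fc_pj (fun s => s) j
    rwa [cfc_id'' h.herm, hj, zero_smul] at this
  have hpos := H x hx.1 _ (pj_psd U j) (h.rt_pj j) e
  have d : HasDerivWithinAt (fun y => rt (pj U j * A y)) (rt (pj U j * A' x)) (Icc a b) x := by
    have := (rtL (n := n)).hasFDerivAt.comp_hasDerivWithinAt x ((hd x hx.1).const_mul (pj U j))
    exact this
  have := le_of_tendsto ((hasDerivWithinAt_iff_tendsto_slope.mp d).mono_left
    (nhdsWithin_mono _ hsub)) (b := 0) (eventually_nhdsWithin_of_forall fun y hy => by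
      rw [slope_def_field, rt_comm _ (A x), e, rt_zero, sub_zero]
      exact div_nonpos_of_nonneg_of_nonpos (rt_mul_pos (pj_psd U j) (h.rt_pj j) (hlt y hy)).le
        (by linarith [hy.2]))
  linarith

lemma barrier' {a b : ℝ} {A A' : ℝ → Matrix n n ℂ}
    (hd : ∀ x ∈ Icc a b, HasDerivWithinAt A (A' x) (Icc a b) x)
    (hh : ∀ x ∈ Icc a b, (A x).IsHermitian) (hb : (A b).PosDef)
    (H : ∀ x ∈ Icc a b, ∀ P : Matrix n n ℂ, P.PosSemidef → rt P = 1 → A x * P = 0 →
      rt (P * A' x) < 0) : ∀ x ∈ Icc a b, (A x).PosDef := by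
  have m : ∀ x ∈ Icc a b, a + b - x ∈ Icc a b := fun x hx =>
    ⟨by linarith [hx.2], by linarith [hx.1]⟩
  have := barrier (a := a) (b := b) (A := fun x => A (a + b - x))
    (A' := fun x => (-1 : ℝ) • A' (a + b - x))
    (fun x hx => (hd _ (m x hx)).scomp x ((hasDerivWithinAt_id x _).const_sub (a + b)) m)
    (fun x hx => hh _ (m x hx)) (by simpa using hb) (fun x hx P h1 h2 h3 => by
      have := H _ (m x hx) P h1 h2 h3
      rw [Matrix.mul_smul, rt_smul]; linarith)
  intro x hx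
  simpa using this _ (m x hx)

noncomputable def tsq (k s : ℝ) : ℝ := (max (-k) (min s k)) ^ 2

/-- invariance for the truncated Riccati equation -/
lemma riccati_adm {a b k : ℝ} {κ : Matrix n n ℂ} {U V : ℝ → Matrix n n ℂ} (hκ : κ.PosDef)
    (hk : ∀ s ∈ spectrum ℝ κ, s < k)
    (hd : ∀ x ∈ Icc a b, HasDerivWithinAt U (κ * κ - cfc (tsq k) (U x) - V x) (Icc a b) x)
    (hh : ∀ x ∈ Icc a b, (U x).IsHermitian) (hV : ∀ x ∈ Icc a b, (V x).PosSemidef)
    (h₁ : U a = κ) (h₂ : U b = -κ) (hk0 : 0 < k) :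
    ∀ x ∈ Icc a b, cfc (tsq k) (U x) = U x * U x ∧ Adm κ (U x) := by
  have one_h : (k • (1 : Matrix n n ℂ)).IsHermitian := (PosDef.one.smul hk0).1
  have p1 : (k • (1 : Matrix n n ℂ) - κ).PosDef := by
    have : k • (1 : Matrix n n ℂ) - κ = cfc (fun s => k - s) κ := by
      rw [← cfc_sub', cfc_const' hκ.1, cfc_id'' hκ.1]
    rw [this]; exact cfc_posDef hκ.1 fun s hs => by linarith [hk s hs]
  have p2 : ((k ^ 2) • (1 : Matrix n n ℂ) - κ * κ).PosDef := by
    have : (k ^ 2) • (1 : Matrix n n ℂ) - κ * κ = cfc (fun s => k ^ 2 - s * s) κ := by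
      rw [← cfc_sub', ← cfc_mul', cfc_const' hκ.1, cfc_id'' hκ.1]
    rw [this]
    exact cfc_posDef hκ.1 fun s hs => by nlinarith [hk s hs, spectrum_pos_of_posDef hκ hs]
  have b1 := barrier (A := fun x => k • 1 - U x) (fun x hx => (hd x hx).const_sub _)
    (fun x hx => one_h.sub (hh x hx)) (by simpa [h₁] using p1) (fun x hx P hP h1 h0 => by
      rw [Matrix.sub_mul, sub_eq_zero, Matrix.smul_mul, Matrix.one_mul] at h0
      have e := cfc_mul_of_eigen (hh x hx) h0.symm (tsq k)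
      have e' : tsq k k = k ^ 2 := by rw [tsq, min_self, max_eq_right (by linarith)]
      have q1 := rt_mul_pos hP h1 p2
      have q2 := rt_mul_nonneg hP (hV x hx)
      simp only [Matrix.mul_sub, Matrix.mul_neg, rt_neg, rt_sub, Matrix.mul_smul, Matrix.mul_one,
        rt_smul] at q1 ⊢
      rw [rt_comm P (cfc _ _), e, e', rt_smul]; linarith)
  have b2 := barrier' (A := fun x => k • 1 + U x) (fun x hx => (hd x hx).const_add _)
    (fun x hx => one_h.add (hh x hx)) (by simpa [h₂, ← sub_eq_add_neg] using p1)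
    (fun x hx P hP h1 h0 => by
      rw [Matrix.add_mul, add_eq_zero_iff_neg_eq, Matrix.smul_mul, Matrix.one_mul, ← neg_smul] at h0
      have e := cfc_mul_of_eigen (hh x hx) h0.symm (tsq k)
      have e' : tsq k (-k) = k ^ 2 := by
        rw [tsq, min_eq_left (by linarith), max_self, neg_sq]
      have q1 := rt_mul_pos hP h1 p2
      have q2 := rt_mul_nonneg hP (hV x hx)
      simp only [Matrix.mul_sub, rt_sub, Matrix.mul_smul, Matrix.mul_one, rt_smul] at q1 ⊢
      rw [rt_comm P (cfc _ _), e, e', rt_smul]; linarith)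
  have sq : ∀ x ∈ Icc a b, cfc (tsq k) (U x) = U x * U x := fun x hx => by
    have hU := hh x hx
    have c1 := b1 x hx
    have c2 := b2 x hx
    rw [show k • (1 : Matrix n n ℂ) - U x = cfc (fun s => k - s) (U x) by
      rw [← cfc_sub', cfc_const' hU, cfc_id'' hU]] at c1
    rw [show k • (1 : Matrix n n ℂ) + U x = cfc (fun s => k + s) (U x) by
      rw [← cfc_add', cfc_const' hU, cfc_id'' hU]] at c2
    conv_rhs => rw [← cfc_id'' hU, cfc_mul']
    refine cfc_congr fun s hs => ?_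
    have := pos_of_cfc_posDef hU c1 s hs
    have := pos_of_cfc_posDef hU c2 s hs
    simp only [tsq]
    rw [min_eq_left (by linarith), max_eq_right (by linarith), sq]
  refine fun x hx => ⟨sq x hx, fun t ht => ?_⟩
  have hL := Lam_herm κ t
  have p3 : (Lam κ t - κ).PosDef := by
    have : Lam κ t - κ = cfc (fun s : ℝ => √(t + s ^ 2) - s) κ := by
      rw [← cfc_sub', cfc_id'' hκ.1, Lam]
    rw [this]; exact cfc_posDef hκ.1 fun s _ => sub_pos.mpr (lt_sqrt_aux ht)
  have key : ∀ x ∈ Icc a b, ∀ P : Matrix n n ℂ, P.PosSemidef → rt P = 1 → ∀ σ : ℝ, σ * σ = 1 →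
      U x * P = σ • (Lam κ t * P) → rt (P * (κ * κ - cfc (tsq k) (U x) - V x)) < 0 := by
    intro x hx P hP h1 σ hσ h0
    have h0' : P * U x = σ • (P * Lam κ t) := by
      have := congrArg conjTranspose h0
      rwa [conjTranspose_mul, conjTranspose_smul, conjTranspose_mul, hP.1.eq, (hh x hx).eq, hL.eq,
        star_trivial] at this
    have e : rt (P * (U x * U x)) = rt (P * (κ * κ)) + t := by
      rw [← Matrix.mul_assoc, h0', Matrix.smul_mul, rt_smul, Matrix.mul_assoc, rt_comm,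
        Matrix.mul_assoc, h0, Matrix.mul_smul, rt_smul, ← mul_assoc, hσ, one_mul,
        ← Matrix.mul_assoc, Lam_sq hκ.1 ht.le, rt_comm, Matrix.mul_add, rt_add, Matrix.mul_smul,
        Matrix.mul_one, rt_smul, h1, mul_one]
    have q2 := rt_mul_nonneg hP (hV x hx)
    rw [sq x hx, Matrix.mul_sub, Matrix.mul_sub, rt_sub, rt_sub, e]; linarith
  constructor
  · exact barrier' (A := fun x => Lam κ t + U x) (fun x hx => (hd x hx).const_add _)
      (fun x hx => hL.add (hh x hx)) (by simpa [h₂, ← sub_eq_add_neg] using p3)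
      (fun x hx P hP h1 h0 => key x hx P hP h1 (-1) (by norm_num) (by
        rw [Matrix.add_mul, add_eq_zero_iff_neg_eq] at h0
        rw [← h0]; simp)) x hx
  · exact barrier (A := fun x => Lam κ t - U x) (fun x hx => (hd x hx).const_sub _)
      (fun x hx => hL.sub (hh x hx)) (by simpa [h₁] using p3)
      (fun x hx P hP h1 h0 => by
        rw [Matrix.sub_mul, sub_eq_zero] at h0
        have := key x hx P hP h1 1 (by norm_num) (by rw [← h0]; simp)
        rw [Matrix.mul_neg, rt_neg]; linarith) x hx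

end Vale.Agent.P371
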