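import Mathlib

/-! Brouwer's fixed point theorem for bounded maps (Milnor-Rogers proof). -/

namespace Vale.Agent.P371

open Polynomial MeasureTheory Metric Set

namespace Brw

variable {E : Type*} [NormedAddCommGroup E]

section
variable [NormedSpace ℝ E] [FiniteDimensional ℝ E]

lemma det_poly (A : E →L[ℝ] E) : ∃ q : ℝ[X], q.natDegree ≤ Module.finrank ℝ E ∧
    ∀ t : ℝ, q.eval t = (ContinuousLinearMap.id ℝ E + t • A).det := by
  let b := Module.finBasis ℝ E
  let M := LinearMap.toMatrix b b (A : E →ₗ[ℝ] E)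
  refine ⟨Matrix.det ((X : ℝ[X]) • M.map C + (1 : Matrix _ _ ℝ).map C), ?_, fun t => ?_⟩
  · simpa using natDegree_det_X_add_C_le M 1
  · rw [← coe_evalRingHom, RingHom.map_det, ContinuousLinearMap.det, ← LinearMap.det_toMatrix b]
    congr 1
    ext i j
    simp [M, Matrix.one_apply, add_comm, apply_ite]
    ring

lemma det_interp (A : E →L[ℝ] E) (t : ℝ) : (ContinuousLinearMap.id ℝ E + t • A).det =
    ∑ i ∈ Finset.range (Module.finrank ℝ E + 1), (ContinuousLinearMap.id ℝ E + (i : ℝ) • A).det *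
      (Lagrange.basis (Finset.range (Module.finrank ℝ E + 1)) (fun i : ℕ => (i : ℝ)) i).eval t := by
  obtain ⟨q, hq, h⟩ := det_poly A
  have e := Lagrange.eq_interpolate (s := Finset.range (Module.finrank ℝ E + 1))
    (v := fun i : ℕ => (i : ℝ)) (f := q) (fun a _ b _ h => Nat.cast_injective h)
    (lt_of_le_of_lt degree_le_natDegree (by
      rw [Finset.card_range]; exact_mod_cast Nat.lt_succ_of_le hq))
  rw [← h, e, Lagrange.interpolate_apply, eval_finsetSum]
  simp only [eval_mul, eval_C, h]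

end

variable [InnerProductSpace ℝ E] [FiniteDimensional ℝ E]

lemma det_zero {r : E → E} (hr : Differentiable ℝ r) {R : ℝ} (hR : 0 < R) (hn : ∀ x, ‖r x‖ = R)
    (x : E) : (fderiv ℝ r x).det = 0 := by
  by_contra h
  have hs : Function.Surjective (fderiv ℝ r x) :=
    (LinearMap.equivOfDetNeZero (fderiv ℝ r x : E →ₗ[ℝ] E) h).surjective
  obtain ⟨v, hv⟩ := hs (r x)
  have h1 := ((hr x).hasFDerivAt).norm_sq
  have h2 : (fun y => ‖r y‖ ^ 2) = fun _ => R ^ 2 := by funext y; rw [hn]
  rw [h2] at h1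
  have h3 := congrArg (fun L => L v) (h1.unique (hasFDerivAt_const _ _))
  simp [hv, hn] at h3
  exact hR.ne' h3

lemma image_ball {r : E → E} (hc : Continuous r) {R L t : ℝ} (hR : 0 < R) (hn : ∀ x, ‖r x‖ = R)
    (hs : ∀ x, ‖x‖ = R → r x = x) (ht : 0 < t) (ht1 : t < 1) (hL : 0 ≤ L) (htL : t * L < 1)
    (hk : ∀ x ∈ ball (0 : E) R, ∀ y ∈ ball (0 : E) R,
      ‖(r x - x) - (r y - y)‖ ≤ L * ‖x - y‖) :
    InjOn (fun x => x + t • (r x - x)) (ball 0 R) ∧
      (fun x => x + t • (r x - x)) '' ball 0 R = ball 0 R := by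
  have key : ∀ x ∈ ball (0 : E) R, ∀ y ∈ ball (0 : E) R,
      ‖(x + t • (r x - x)) - (y + t • (r y - y)) - (x - y)‖ ≤ t * L * ‖x - y‖ := by
    intro x hx y hy
    have : (x + t • (r x - x)) - (y + t • (r y - y)) - (x - y) = t • ((r x - x) - (r y - y)) := by
      module
    rw [this, norm_smul, Real.norm_of_nonneg ht.le, mul_assoc]
    exact mul_le_mul_of_nonneg_left (hk x hx y hy) ht.le
  have hsub : (fun x => x + t • (r x - x)) '' ball 0 R ⊆ ball 0 R := by
    rintro _ ⟨x, hx, rfl⟩
    rw [mem_ball_zero_iff] at hx ⊢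
    have : x + t • (r x - x) = (1 - t) • x + t • r x := by module
    beta_reduce
    rw [this]
    refine (norm_add_le _ _).trans_lt ?_
    rw [norm_smul, norm_smul, Real.norm_of_nonneg ht.le, Real.norm_of_nonneg (by linarith), hn]
    nlinarith
  refine ⟨fun x hx y hy h => ?_, hsub.antisymm ?_⟩
  · have h1 := key x hx y hy
    beta_reduce at h
    rw [h, sub_self, zero_sub, norm_neg] at h1
    have : ‖x - y‖ = 0 := by nlinarith [norm_nonneg (x - y)]
    exact sub_eq_zero.1 (norm_eq_zero.1 this)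
  · have hA : ApproximatesLinearOn (fun x => x + t • (r x - x)) (ContinuousLinearMap.id ℝ E)
        (ball 0 R) ⟨t * L, by positivity⟩ := fun x hx y hy => key x hx y hy
    have ho := hA.open_image ⟨id, 1, by simp, by simp⟩ isOpen_ball (Or.inr (by
      rw [inv_one]; exact htL))
    have hcl : IsClosed ((fun x => x + t • (r x - x)) '' closedBall 0 R) :=
      ((isCompact_closedBall 0 R).image (by fun_prop)).isClosed
    refine IsPreconnected.subset_left_of_subset_union ho hcl.isOpen_compl
      (disjoint_compl_right.mono_left (image_mono ball_subset_closedBall)) (fun y hy => ?_)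
      ⟨_, hsub ⟨0, mem_ball_self hR, rfl⟩, ⟨0, mem_ball_self hR, rfl⟩⟩
      (convex_ball 0 R).isPreconnected
    by_cases h : y ∈ (fun x => x + t • (r x - x)) '' closedBall 0 R
    · obtain ⟨x, hx, rfl⟩ := h
      rw [mem_closedBall_zero_iff] at hx
      rcases hx.lt_or_eq with h1 | h1
      · exact Or.inl ⟨x, mem_ball_zero_iff.2 h1, rfl⟩
      · simp [hs x h1, h1] at hy
    · exact Or.inr h

theorem no_retraction {r : E → E} (hr : ContDiff ℝ 1 r) {R : ℝ} (hR : 0 < R)
    (hn : ∀ x, ‖r x‖ = R) (hs : ∀ x, ‖x‖ = R → r x = x) : False := by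
  borelize E
  have hd : Differentiable ℝ r := hr.differentiable (by norm_num)
  set A : E → E →L[ℝ] E := fun x => fderiv ℝ r x - ContinuousLinearMap.id ℝ E with hA
  have hAc : Continuous A := (hr.continuous_fderiv (by norm_num)).sub continuous_const
  have hk : ∀ x, HasFDerivAt (fun x => r x - x) (A x) x :=
    fun x => (hd x).hasFDerivAt.sub (hasFDerivAt_id x)
  obtain ⟨L, hL⟩ := (isCompact_closedBall (0 : E) R).exists_bound_of_continuousOn hAc.continuousOn
  have hL0 : 0 ≤ L := (norm_nonneg _).trans (hL 0 (mem_closedBall_self hR.le))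
  have hlip : ∀ x ∈ ball (0 : E) R, ∀ y ∈ ball (0 : E) R,
      ‖(r x - x) - (r y - y)‖ ≤ L * ‖x - y‖ := fun x hx y hy =>
    (convex_ball (0 : E) R).norm_image_sub_le_of_norm_hasFDerivWithin_le
      (fun z _ => (hk z).hasFDerivWithinAt) (fun z hz => hL z (ball_subset_closedBall hz)) hy hx
  let μ : Measure E := Measure.addHaar
  let F : ℝ → ℝ := fun t => ∫ x in ball (0 : E) R, (ContinuousLinearMap.id ℝ E + t • A x).det ∂μ
  have hint : ∀ t : ℝ, IntegrableOn (fun x => (ContinuousLinearMap.id ℝ E + t • A x).det)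
      (ball (0 : E) R) μ := fun t =>
    ((ContinuousLinearMap.continuous_det.comp (by fun_prop)).continuousOn.integrableOn_compact
      (isCompact_closedBall (0 : E) R)).mono_set ball_subset_closedBall
  let P : ℝ[X] := ∑ i ∈ Finset.range (Module.finrank ℝ E + 1), C (F i) *
    Lagrange.basis (Finset.range (Module.finrank ℝ E + 1)) (fun i : ℕ => (i : ℝ)) i
  have hP : ∀ t, P.eval t = F t := by
    intro t
    simp only [P, F, eval_finsetSum, eval_mul, eval_C]
    simp_rw [← integral_mul_const]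
    rw [← integral_finsetSum _ (fun (i : ℕ) _ => (hint i).mul_const _)]
    exact integral_congr_ae (Filter.Eventually.of_forall fun x => (det_interp _ _).symm)
  obtain ⟨η, hη, hdet⟩ : ∃ η > 0, ∀ B : E →L[ℝ] E,
      ‖B - ContinuousLinearMap.id ℝ E‖ < η → 0 < B.det := by
    have : ∀ᶠ B in nhds (ContinuousLinearMap.id ℝ E), 0 < B.det :=
      ContinuousLinearMap.continuous_det.continuousAt.eventually (lt_mem_nhds (by
        simp [ContinuousLinearMap.det]))
    obtain ⟨η, hη, h⟩ := Metric.eventually_nhds_iff.1 this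
    exact ⟨η, hη, fun B hB => h (by rwa [dist_eq_norm])⟩
  have hsmall : ∀ t ∈ Ioo (0 : ℝ) (min η 1 / (L + 1)), F t = μ.real (ball 0 R) := by
    intro t ht
    have h1 : t * (L + 1) < min η 1 := (lt_div_iff₀ (by linarith)).1 ht.2
    have h2 := min_le_left η 1
    have h3 := min_le_right η 1
    have h0 := ht.1
    have h4 : 0 ≤ t * L := by positivity
    obtain ⟨hi, hb⟩ := image_ball hr.continuous hR hn hs ht.1 (by nlinarith) hL0 (by nlinarith) hlip
    have h5 := integral_image_eq_integral_abs_det_fderiv_smul μ measurableSet_ball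
      (f := fun x => x + t • (r x - x)) (f' := fun x => ContinuousLinearMap.id ℝ E + t • A x)
      (fun x _ => ((hasFDerivAt_id x).add ((hk x).const_smul t)).hasFDerivWithinAt) hi
      (fun _ => (1 : ℝ))
    rw [hb] at h5
    simp only [integral_const, smul_eq_mul, mul_one, measureReal_restrict_apply_univ] at h5
    rw [h5]
    refine setIntegral_congr_fun measurableSet_ball (fun x hx => (abs_of_pos (hdet _ ?_)).symm)
    rw [add_sub_cancel_left, norm_smul, Real.norm_of_nonneg h0.le]
    have := mul_le_mul_of_nonneg_left (hL x (ball_subset_closedBall hx)) h0.le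
    nlinarith
  have hPC : P = C (μ.real (ball 0 R)) := by
    refine eq_of_infinite_eval_eq _ _ ((Ioo_infinite (a := (0 : ℝ)) (b := min η 1 / (L + 1))
      (by positivity)).mono (fun t ht => ?_))
    simp [hP, hsmall t ht]
  have h1 : F 1 = 0 := by
    simp [F, hA, det_zero hd hR hn]
  have h2 := hP 1
  rw [hPC, eval_C, h1] at h2
  have h3 : 0 < μ.real (ball (0 : E) R) :=
    ENNReal.toReal_pos (measure_ball_pos μ _ hR).ne' measure_ball_lt_top.ne
  exact h3.ne' h2

theorem fixed_inner (g : E → E) (hg : Continuous g) (C : ℝ) (hC : ∀ x, ‖g x‖ ≤ C) :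
    ∃ x, g x = x := by
  by_contra hno
  push Not at hno
  have hC0 : 0 ≤ C := (norm_nonneg _).trans (hC 0)
  let g₁ : E → E := fun x => max 0 (min 1 (C + 1 - ‖x‖)) • g x
  have hg₁ : Continuous g₁ := by fun_prop
  have hne : ∀ x, g₁ x ≠ x := by
    intro x h
    have h1 : ‖x‖ ≤ C := by
      rw [← h, norm_smul, Real.norm_of_nonneg (le_max_left _ _)]
      have : max 0 (min 1 (C + 1 - ‖x‖)) ≤ 1 := max_le zero_le_one (min_le_left _ _)
      nlinarith [hC x, norm_nonneg (g x)]
    apply hno x
    rw [← h]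
    simp only [g₁] at h ⊢
    rw [min_eq_left (by linarith), max_eq_right zero_le_one, one_smul] at h ⊢
    exact absurd h (hno x)
  obtain ⟨h, hh, happ, hsupp⟩ := hg₁.exists_contDiff_approx 1 (ε := fun x => ‖x - g₁ x‖)
    (by fun_prop) (fun x => norm_pos_iff.2 (sub_ne_zero.2 (hne x).symm))
  have hφ : ∀ x, x - h x ≠ 0 := by
    intro x hx
    have := happ x
    rw [← sub_eq_zero.1 hx, dist_eq_norm] at this
    exact lt_irrefl _ this
  have hφc : ContDiff ℝ 1 fun x => x - h x := contDiff_id.sub hh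
  refine no_retraction (r := fun x => ((C + 1) / ‖x - h x‖) • (x - h x)) (R := C + 1)
    ((contDiff_const.div (hφc.norm ℝ hφ) (fun x => norm_ne_zero_iff.2 (hφ x))).smul hφc)
    (by linarith) (fun x => ?_) (fun x hx => ?_)
  · rw [norm_smul, Real.norm_of_nonneg (by positivity), div_mul_cancel₀ _
      (norm_ne_zero_iff.2 (hφ x))]
  · have : h x = 0 := by
      by_contra h0
      apply hsupp h0
      simp [g₁, hx]
    rw [this, sub_zero, hx, div_self (by linarith), one_smul]

end Brw

/-- Brouwer's fixed point theorem: a bounded continuous self-map of a finite-dimensional real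
normed space has a fixed point. -/
theorem exists_fixed_of_bounded {E : Type*} [NormedAddCommGroup E] [NormedSpace ℝ E]
    [FiniteDimensional ℝ E] (g : E → E) (hg : Continuous g) (C : ℝ) (hC : ∀ x, ‖g x‖ ≤ C) :
    ∃ x, g x = x := by
  let e := toEuclidean (E := E)
  obtain ⟨y, hy⟩ := Brw.fixed_inner (fun y => e (g (e.symm y))) (by fun_prop)
    (‖e.toContinuousLinearMap‖ * C) (fun y => (e.toContinuousLinearMap.le_opNorm _).trans
      (mul_le_mul_of_nonneg_left (hC _) (norm_nonneg _)))
  exact ⟨e.symm y, by rw [← e.symm_apply_apply (g _), hy]⟩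

end Vale.Agent.P371
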