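import Vale.Agent.P371.Point

open Matrix Filter Topology Set MeasureTheory
open scoped Matrix.Norms.L2Operator MatrixOrder ComplexOrder

set_option linter.unusedSectionVars false

namespace Vale.Agent.P371

variable {n : Type} [Fintype n] [DecidableEq n]

noncomputable def gt (κ u : Matrix n n ℂ) (t : ℝ) : ℝ :=
  rt (cfc xlx (Lam κ t + u)) - rt (cfc xlx (Lam κ t - u)) - (2 + Real.log t) * rt u

lemma hasDerivAt_gt {κ : Matrix n n ℂ} {U : ℝ → Matrix n n ℂ} {U' : Matrix n n ℂ} {x t : ℝ}
    (ht : 0 < t) (hU : HasDerivAt U U' x) (ha : ∀ᶠ y in 𝓝 x, Adm κ (U y)) :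
    HasDerivAt (fun y => gt κ (U y) t) (rt (Lt κ (U x) t * U')) x := by
  have hx : ∀ s : ℝ, 0 < s → HasDerivAt xlx (Real.log s + 1) s := fun s hs =>
    Real.hasDerivAt_mul_log hs.ne'
  have d1 := hasDerivAt_rt_cfc hx (hU.const_add (Lam κ t)) (ha.mono fun y hy => (hy t ht).1)
  have d2 := hasDerivAt_rt_cfc hx (hU.const_sub (Lam κ t)) (ha.mono fun y hy => (hy t ht).2)
  have d3 := (rtL.hasFDerivAt.comp_hasDerivAt x hU).const_mul (2 + Real.log t)
  refine HasDerivAt.congr_deriv ((d1.sub d2).sub d3) ?_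
  have h := ha.self_of_nhds t ht
  rw [← cfc_add', ← cfc_add', cfc_const' h.1.1, cfc_const' h.2.1, Lt]
  simp only [Matrix.add_mul, Matrix.sub_mul, Matrix.smul_mul, Matrix.one_mul, Matrix.mul_neg,
    rt_add, rt_sub, rt_neg, rt_smul, rtL_apply]
  ring

lemma gt_ends {κ W : Matrix n n ℂ} {k : n → ℝ} (h : Spec κ W k) (t : ℝ) :
    gt κ κ t - gt κ (-κ) t = ∑ i, (gs t (k i) (k i) - gs t (k i) (-k i)) := by
  have e1 : Lam κ t + κ = cfc (fun s : ℝ => √(t + s ^ 2) + s) κ := by
    rw [← cfc_add', cfc_id'' h.herm, Lam]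
  have e2 : Lam κ t - κ = cfc (fun s : ℝ => √(t + s ^ 2) - s) κ := by
    rw [← cfc_sub', cfc_id'' h.herm, Lam]
  have e3 : rt κ = ∑ i, k i := by rw [← h.rt_fc fun s => s, cfc_id'' h.herm]
  simp only [gt, gs, ← sub_eq_add_neg, sub_neg_eq_add, rt_neg, e1, e2, cfc_cfc _ _ h.herm, h.rt_fc,
    e3, Finset.mul_sum, mul_neg, ← Finset.sum_neg_distrib, ← Finset.sum_sub_distrib]

lemma swap_of_continuousOn {F : ℝ → ℝ → ℝ} {a b c d : ℝ} (hab : a ≤ b) (hcd : c ≤ d)
    (hF : ContinuousOn (Function.uncurry F) (Icc a b ×ˢ Icc c d)) :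
    IntervalIntegrable (fun x => ∫ y in c..d, F x y) volume a b ∧
    ∫ x in a..b, ∫ y in c..d, F x y = ∫ y in c..d, ∫ x in a..b, F x y := by
  have hint : Integrable (Function.uncurry F)
      ((volume.restrict (Ioc a b)).prod (volume.restrict (Ioc c d))) := by
    rw [Measure.prod_restrict]
    exact (hF.integrableOn_compact (isCompact_Icc.prod isCompact_Icc)).mono_set
      (prod_mono Ioc_subset_Icc_self Ioc_subset_Icc_self)
  simp only [intervalIntegral.integral_of_le hab, intervalIntegral.integral_of_le hcd]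
  exact ⟨(intervalIntegrable_iff_integrableOn_Ioc_of_le hab).mpr hint.integral_prod_left,
    integral_integral_swap hint⟩

/-- The calibration theorem for the matrix Riccati equation. -/
theorem calib {κ : Matrix n n ℂ} (hκ : κ.PosDef) {a b : ℝ} (hab : a ≤ b)
    {U V : ℝ → Matrix n n ℂ} (hU : ContinuousOn U (Icc a b)) (hV : ContinuousOn V (Icc a b))
    (hd : ∀ x ∈ Ioo a b, HasDerivAt U (κ * κ - U x * U x - V x) x)
    (hVp : ∀ x ∈ Icc a b, (V x).PosSemidef) (ha : ∀ x ∈ Icc a b, Adm κ (U x))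
    (h₁ : U a = κ) (h₂ : U b = -κ) {ν : ℝ} (h0 : 0 < ν) (h1 : ν < 1) :
    beta ν * rt (cfc (fun s : ℝ => s ^ (2 * ν + 1)) κ)
      ≤ (ν / (ν + 1)) ^ ν / (ν + 1) * ∫ x in a..b, rt (cfc (fun s : ℝ => s ^ (ν + 1)) (V x)) := by
  obtain ⟨W, k, h⟩ := exists_spec hκ.1
  have hk := h.pos hκ
  obtain ⟨K, hK⟩ := om_le hκ.1 h0
  set c := (ν / (ν + 1)) ^ ν / (ν + 1)
  set F : ℝ → ℝ → ℝ := fun x t => rt (Lt κ (U x) t * (V x - (κ * κ - U x * U x))) with hF
  have cF : ∀ {X : Type} [TopologicalSpace X] {T : Set X} {x t : X → ℝ}, ContinuousOn x T →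
      ContinuousOn t T → (∀ p ∈ T, x p ∈ Icc a b) → (∀ p ∈ T, 0 < t p) →
      ContinuousOn (fun p => F (x p) (t p)) T := by
    intro X _ T x t hx ht hx' ht'
    have cU := hU.comp hx hx'
    exact continuous_rt.comp_continuousOn ((continuousOn_Lt hκ.1 cU ht ht'
      fun p hp => ha _ (hx' p hp)).mul ((hV.comp hx hx').sub (continuousOn_const.sub (cU.mul cU))))
  have hlog : ContinuousOn xlx (Ioi 0) := Real.continuous_mul_log.continuousOn
  have ftc : ∀ t, 0 < t → ∫ x in a..b, F x t = ∑ i, (gs t (k i) (k i) - gs t (k i) (-k i)) := by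
    intro t ht
    have c1 : ContinuousOn (fun y => -gt κ (U y) t) (Icc a b) :=
      (((continuous_rt.comp_continuousOn (continuousOn_cfc_pos hlog (continuousOn_const.add hU)
        fun x hx => (ha x hx t ht).1)).sub (continuous_rt.comp_continuousOn
        (continuousOn_cfc_pos hlog (continuousOn_const.sub hU) fun x hx => (ha x hx t ht).2))).sub
        (continuousOn_const.mul (continuous_rt.comp_continuousOn hU))).neg
    rw [intervalIntegral.integral_eq_sub_of_hasDerivAt_of_le hab c1, h₁, h₂, ← gt_ends h]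
    · ring
    · intro x hx
      refine HasDerivAt.congr_deriv (hasDerivAt_gt ht (hd x hx) ?_).neg ?_
      · filter_upwards [Icc_mem_nhds hx.1 hx.2] with y hy using ha y hy
      · simp only [hF]; rw [← rt_neg, ← Matrix.mul_neg, neg_sub]
    · exact (cF continuousOn_id continuousOn_const (fun _ h => h)
        fun _ _ => ht).intervalIntegrable_of_Icc hab
  have cV : ContinuousOn (fun x => rt (cfc (fun s : ℝ => s ^ (ν + 1)) (V x))) (Icc a b) :=
    continuous_rt.comp_continuousOn (continuousOn_cfc_univ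
      (Real.continuous_rpow_const (by linarith)) hV fun x hx => (hVp x hx).1)
  set A := ∫ x in a..b, rt (cfc (fun s : ℝ => s ^ (ν + 1)) (V x))
  have step : ∀ η M, 0 < η → η ≤ 1 → η ≤ M →
      ∑ i, ∫ t in η..M, t ^ (ν - 1) * (gs t (k i) (k i) - gs t (k i) (-k i))
        ≤ Inu ν * (c * A) + (b - a) * (K * η ^ (ν / 2) / ν) := by
    intro η M hη hη1 hM
    have hpos : ∀ t ∈ Icc η M, 0 < t := fun t ht => hη.trans_le ht.1
    obtain ⟨s1, s2⟩ := swap_of_continuousOn (F := fun x t => t ^ (ν - 1) * F x t) hab hM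
      ((continuousOn_snd.rpow_const fun p hp => Or.inl (hpos _ hp.2).ne').mul
        (cF continuousOn_fst continuousOn_snd (fun p hp => hp.1) fun p hp => hpos _ hp.2))
    have cg : ∀ i (u : ℝ), ContinuousOn (fun t => gs t (k i) u) (Icc η M) := fun i u => by
      unfold gs xlx
      exact ((Real.continuous_mul_log.comp (by fun_prop)).continuousOn.sub
        (Real.continuous_mul_log.comp (by fun_prop)).continuousOn).sub
        ((continuousOn_const.add (continuousOn_id.log fun t ht => (hpos t ht).ne')).mul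
          continuousOn_const)
    have ig : ∀ i, IntervalIntegrable
        (fun t => t ^ (ν - 1) * (gs t (k i) (k i) - gs t (k i) (-k i))) volume η M := fun i =>
      ((continuousOn_id.rpow_const fun t ht => Or.inl (hpos t ht).ne').mul
        ((cg i _).sub (cg i _))).intervalIntegrable_of_Icc hM
    rw [← intervalIntegral.integral_finsetSum fun i _ => ig i]
    have e : ∫ t in η..M, ∑ i, t ^ (ν - 1) * (gs t (k i) (k i) - gs t (k i) (-k i))
        = ∫ t in η..M, ∫ x in a..b, t ^ (ν - 1) * F x t := by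
      refine intervalIntegral.integral_congr fun t ht => ?_
      rw [uIcc_of_le hM] at ht
      rw [intervalIntegral.integral_const_mul, ftc t (hpos t ht), Finset.mul_sum]
    have iV := cV.intervalIntegrable_of_Icc (μ := volume) hab
    calc _ = ∫ x in a..b, ∫ t in η..M, t ^ (ν - 1) * F x t := by rw [s2, ← e]
      _ ≤ ∫ x in a..b, (Inu ν * (c * rt (cfc (fun s : ℝ => s ^ (ν + 1)) (V x)))
            + K * η ^ (ν / 2) / ν) := by
          refine intervalIntegral.integral_mono_on hab s1
            (((iV.const_mul _).const_mul _).add (by simp)) fun x hx => ?_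
          refine (point_ineq hκ.1 (ha x hx) (hVp x hx) h0 h1 hη hM).trans ?_
          have := hK _ (ha x hx) η hη hη1
          gcongr
      _ = _ := by
          rw [intervalIntegral.integral_add ((iV.const_mul _).const_mul _) (by simp),
            intervalIntegral.integral_const_mul, intervalIntegral.integral_const_mul,
            intervalIntegral.integral_const, smul_eq_mul]
  have t1 := tendsto_finsetSum Finset.univ fun i _ => gs_tendsto h0 h1 (hk i)
  have t2 : Tendsto (fun j : ℕ => Inu ν * (c * A)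
      + (b - a) * (K * (1 / (j + 1 : ℝ)) ^ (ν / 2) / ν)) atTop
      (𝓝 (Inu ν * (c * A) + (b - a) * (K * 0 / ν))) :=
    ((((tendsto_one_div_add_atTop_nhds_zero_nat (𝕜 := ℝ)).rpow_const_nhds_zero
      (by positivity)).const_mul K).div_const ν |>.const_mul _).const_add _
  have := le_of_tendsto_of_tendsto' t1 t2 fun j => by
    have hj : (0 : ℝ) ≤ j := Nat.cast_nonneg j
    have : 1 / (j + 1 : ℝ) ≤ 1 := by rw [div_le_iff₀ (by positivity)]; linarith
    exact step _ _ (by positivity) this (by linarith)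
  rw [← Finset.mul_sum, ← Finset.mul_sum, mul_zero, zero_div, mul_zero, add_zero] at this
  rw [h.rt_fc]
  exact le_of_mul_le_mul_left this (Inu_pos h0 h1)

end Vale.Agent.P371
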