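import Mathlib

open Filter Topology Set MeasureTheory

set_option linter.unusedSectionVars false

namespace Vale.Agent.P371

variable {E F : Type*} [NormedAddCommGroup E] [NormedSpace ℝ E] [CompleteSpace E]
  [NormedAddCommGroup F] [NormedSpace ℝ F] [CompleteSpace F]

omit [NormedSpace ℝ E] [CompleteSpace E] in
lemma ac_of_le {X Y : Type*} [PseudoMetricSpace X] [PseudoMetricSpace Y] {h : ℝ → E} {f : ℝ → X}
    {g : ℝ → Y} {a b : ℝ} (hf : AbsolutelyContinuousOnInterval f a b)
    (hg : AbsolutelyContinuousOnInterval g a b) (C D : ℝ)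
    (H : ∀ x ∈ uIcc a b, ∀ y ∈ uIcc a b,
      dist (h x) (h y) ≤ C * dist (f x) (f y) + D * dist (g x) (g y)) :
    AbsolutelyContinuousOnInterval h a b := by
  have := (Tendsto.const_mul C hf).add (Tendsto.const_mul D hg)
  rw [mul_zero, mul_zero, add_zero] at this
  refine squeeze_zero' (Eventually.of_forall fun _ => Finset.sum_nonneg fun _ _ => dist_nonneg)
    ?_ this
  refine eventually_inf_principal.mpr (Eventually.of_forall fun I hI => ?_)
  rw [Finset.mul_sum, Finset.mul_sum, ← Finset.sum_add_distrib]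
  exact Finset.sum_le_sum fun i hi => H _ (hI.1 i hi).1 _ (hI.1 i hi).2

lemma ac_prim {f' : ℝ → E} {a b : ℝ} (hf : IntervalIntegrable f' volume a b) :
    AbsolutelyContinuousOnInterval (fun x => ∫ t in a..x, f' t) a b := by
  have h := hf.norm.absolutelyContinuousOnInterval_intervalIntegral (c := a) left_mem_uIcc
  refine ac_of_le h h 1 0 fun x hx y hy => ?_
  have ix := hf.mono_set (uIcc_subset_uIcc left_mem_uIcc hx)
  have iy := hf.mono_set (uIcc_subset_uIcc left_mem_uIcc hy)
  rw [one_mul, zero_mul, add_zero, dist_eq_norm, Real.dist_eq,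
    intervalIntegral.integral_interval_sub_left ix iy,
    intervalIntegral.integral_interval_sub_left ix.norm iy.norm]
  exact intervalIntegral.norm_integral_le_abs_integral_norm

lemma ftc_of_ac {h h' : ℝ → E} {a b : ℝ} (hh : AbsolutelyContinuousOnInterval h a b)
    (hd : ∀ᵐ x, x ∈ uIcc a b → HasDerivAt h (h' x) x) (hi : IntervalIntegrable h' volume a b) :
    h b - h a = ∫ t in a..b, h' t := by
  obtain ⟨C, hC⟩ := (hh.sub (ac_prim hi)).const_of_ae_hasDerivAt_zero (by
    filter_upwards [hd, hi.ae_hasDerivAt_integral] with x h1 h2 hx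
    exact ((h1 hx).sub (h2 hx a left_mem_uIcc)).congr_deriv (sub_self _))
  have h1 := hC a left_mem_uIcc
  have h2 := hC b right_mem_uIcc
  simp only [Pi.sub_apply, intervalIntegral.integral_same, sub_zero] at h1 h2
  rw [h1, ← h2]; abel

lemma ac_mul {A : Type*} [NormedRing A] {f g : ℝ → A} {a b : ℝ}
    (hf : AbsolutelyContinuousOnInterval f a b) (hg : AbsolutelyContinuousOnInterval g a b) :
    AbsolutelyContinuousOnInterval (fun x => f x * g x) a b := by
  obtain ⟨C, hC⟩ := hf.exists_bound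
  obtain ⟨D, hD⟩ := hg.exists_bound
  refine ac_of_le hf hg D C fun x hx y hy => ?_
  simp only [dist_eq_norm]
  rw [show f x * g x - f y * g y = (f x - f y) * g x + f y * (g x - g y) by noncomm_ring]
  refine (norm_add_le _ _).trans (add_le_add ((norm_mul_le _ _).trans ?_)
    ((norm_mul_le _ _).trans ?_))
  · rw [mul_comm]; exact mul_le_mul_of_nonneg_right (hD x hx) (norm_nonneg _)
  · exact mul_le_mul_of_nonneg_right (hC y hy) (norm_nonneg _)

/-- `f` is a primitive of the locally integrable function `f'`. -/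
structure Prim (f f' : ℝ → E) : Prop where
  int : ∀ a b, IntervalIntegrable f' volume a b
  eq : ∀ x y, f y - f x = ∫ t in x..y, f' t

namespace Prim
variable {f f' : ℝ → E}

lemma fun_eq (h : Prim f f') (a : ℝ) : f = fun x => f a + ∫ t in a..x, f' t := by
  ext x; rw [← h.eq]; abel

lemma continuous (h : Prim f f') : Continuous f := by
  rw [h.fun_eq 0]; exact continuous_const.add (intervalIntegral.continuous_primitive h.int 0)

lemma ac (h : Prim f f') (a b : ℝ) : AbsolutelyContinuousOnInterval f a b := by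
  refine ac_of_le (ac_prim (h.int a b)) (ac_prim (h.int a b)) 1 0 fun x _ y _ => ?_
  rw [h.fun_eq a]; simp

lemma ae_deriv (h : Prim f f') (a b : ℝ) : ∀ᵐ x, x ∈ uIcc a b → HasDerivAt f (f' x) x := by
  filter_upwards [(h.int a b).ae_hasDerivAt_integral] with x h2 hx
  rw [h.fun_eq a]
  exact (h2 hx a left_mem_uIcc).const_add _

lemma clm (h : Prim f f') (L : E →L[ℝ] F) : Prim (fun x => L (f x)) (fun x => L (f' x)) :=
  ⟨fun a b => ⟨L.integrable_comp (h.int a b).1, L.integrable_comp (h.int a b).2⟩, fun x y => by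
    rw [← map_sub, h.eq, L.intervalIntegral_comp_comm (h.int x y)]⟩

lemma sum {ι : Type*} (s : Finset ι) {f f' : ι → ℝ → E} (h : ∀ i, Prim (f i) (f' i)) :
    Prim (fun x => ∑ i ∈ s, f i x) (fun x => ∑ i ∈ s, f' i x) :=
  ⟨fun a b => by
    have := IntervalIntegrable.sum s fun i _ => (h i).int a b
    rwa [Finset.sum_fn] at this, fun x y => by
    rw [intervalIntegral.integral_finsetSum fun i _ => (h i).int x y, ← Finset.sum_sub_distrib]
    exact Finset.sum_congr rfl fun i _ => (h i).eq x y⟩

lemma mul {A : Type*} [NormedRing A] [NormedAlgebra ℝ A] [CompleteSpace A] {f f' g g' : ℝ → A}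
    (hf : Prim f f') (hg : Prim g g') :
    Prim (fun x => f x * g x) (fun x => f' x * g x + f x * g' x) := by
  have hi : ∀ a b, IntervalIntegrable (fun x => f' x * g x + f x * g' x) volume a b := fun a b =>
    ((hf.int a b).mul_continuousOn hg.continuous.continuousOn).add
      ((hg.int a b).continuousOn_mul hf.continuous.continuousOn)
  refine ⟨hi, fun a b => ftc_of_ac (h := fun x => f x * g x)
    (ac_mul (hf.ac a b) (hg.ac a b)) ?_ (hi a b)⟩
  filter_upwards [hf.ae_deriv a b, hg.ae_deriv a b] with x h1 h2 hx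
  exact (h1 hx).mul (h2 hx)

/-- integration by parts against a `C¹` function on an interval -/
lemma parts {A : Type*} [NormedRing A] [NormedAlgebra ℝ A] [CompleteSpace A] {U U' g g' : ℝ → A}
    {a b : ℝ} (hab : a ≤ b) (hU : ∀ x ∈ Icc a b, HasDerivWithinAt U (U' x) (Icc a b) x)
    (hU' : ContinuousOn U' (Icc a b)) (hg : Prim g g') :
    IntervalIntegrable (fun x => U' x * g x + U x * g' x) volume a b ∧
    U b * g b - U a * g a = ∫ x in a..b, (U' x * g x + U x * g' x) := by
  have hc : ContinuousOn U (uIcc a b) := by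
    rw [uIcc_of_le hab]; exact fun x hx => (hU x hx).continuousWithinAt
  have hi : IntervalIntegrable (fun x => U' x * g x + U x * g' x) volume a b :=
    ((hU'.mul hg.continuous.continuousOn).intervalIntegrable_of_Icc hab).add
      ((hg.int a b).continuousOn_mul hc)
  obtain ⟨C, hC⟩ := isCompact_Icc.exists_bound_of_continuousOn hU'
  have hC0 : 0 ≤ C := (norm_nonneg _).trans (hC a ⟨le_rfl, hab⟩)
  have hl : LipschitzOnWith ⟨C, hC0⟩ U (uIcc a b) := by
    rw [uIcc_of_le hab]
    exact (convex_Icc a b).lipschitzOnWith_of_nnnorm_hasDerivWithin_le hU fun x hx => hC x hx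
  refine ⟨hi, ftc_of_ac (h := fun x => U x * g x) (ac_mul hl.absolutelyContinuousOnInterval (hg.ac a b)) ?_ hi⟩
  filter_upwards [hg.ae_deriv a b, (measure_eq_zero_iff_ae_notMem.mp (measure_singleton a)),
    (measure_eq_zero_iff_ae_notMem.mp (measure_singleton b))] with x h2 ha hb hx
  have hx' := hx
  rw [uIcc_of_le hab] at hx'
  exact ((hU x hx').hasDerivAt (Icc_mem_nhds (lt_of_le_of_ne hx'.1 (Ne.symm ha))
    (lt_of_le_of_ne hx'.2 hb))).mul (h2 hx)

end Prim

lemma exists_far_le {f : ℝ → ℝ} (hf : Integrable f) {η : ℝ} (hη : 0 < η) (T : ℝ) :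
    (∃ x, T ≤ x ∧ f x ≤ η) ∧ ∃ x, x ≤ T ∧ f x ≤ η := by
  have := hf.measure_norm_ge_lt_top hη
  constructor <;> by_contra h <;> push Not at h
  · have h2 := (measure_mono (show Ici T ⊆ {x | η ≤ ‖f x‖} from
      fun x hx => (h x hx).le.trans (le_abs_self _))).trans_lt this
    simp at h2
  · have h2 := (measure_mono (show Iic T ⊆ {x | η ≤ ‖f x‖} from
      fun x hx => (h x hx).le.trans (le_abs_self _))).trans_lt this
    simp at h2

lemma interval_le_integral {g : ℝ → ℝ} (hg : Integrable g) (h0 : ∀ x, 0 ≤ g x) {a b : ℝ}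
    (hab : a ≤ b) : ∫ x in a..b, g x ≤ ∫ x, g x := by
  rw [intervalIntegral.integral_of_le hab]
  exact setIntegral_le_integral hg (ae_of_all _ h0)

lemma tail_le {f τ : ℝ → ℝ} (hf : Integrable f) (hτ : Integrable τ) {c : ℝ}
    (h : ∀ x, f x ≤ c * τ x) {a b : ℝ} (hab : a ≤ b) :
    (∫ x, f x) - ∫ x in a..b, f x ≤ c * ((∫ x, τ x) - ∫ x in a..b, τ x) := by
  have := interval_le_integral ((hτ.const_mul c).sub hf) (fun x => sub_nonneg.mpr (h x)) hab
  simp only [Pi.sub_apply] at this
  rw [integral_sub (hτ.const_mul c) hf, intervalIntegral.integral_sub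
    (hτ.const_mul c).intervalIntegrable hf.intervalIntegrable, integral_const_mul,
    intervalIntegral.integral_const_mul] at this
  linarith

lemma exists_interval {q τ : ℝ → ℝ} (hq : Integrable q) (hτ : Integrable τ) (h0 : ∀ x, 0 ≤ τ x)
    {η : ℝ} (hη : 0 < η) : ∃ a b, a ≤ b ∧ q a ≤ η ∧ q b ≤ η ∧
      (∫ x, τ x) - ∫ x in a..b, τ x ≤ η := by
  have ht := intervalIntegral_tendsto_integral hτ tendsto_neg_atTop_atBot tendsto_id
  obtain ⟨T, hT1, hT2⟩ := ((ht.eventually (lt_mem_nhds (sub_lt_self _ hη))).and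
    (eventually_ge_atTop 0)).exists
  obtain ⟨b, hb, hb'⟩ := (exists_far_le hq hη T).1
  obtain ⟨a, ha, ha'⟩ := (exists_far_le hq hη (-T)).2
  refine ⟨a, b, by linarith, ha', hb', ?_⟩
  have := intervalIntegral.integral_mono_interval (μ := volume) (f := τ) ha (by linarith) hb
    (ae_of_all _ h0) hτ.intervalIntegrable
  simp only [id] at hT1
  linarith

end Vale.Agent.P371
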