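import Vale.Agent.P371.Shoot
import Vale.Agent.P371.Calib
import Vale.Agent.P371.Prim

open Matrix Filter Topology Set MeasureTheory
open scoped Matrix.Norms.L2Operator MatrixOrder ComplexOrder NNReal

set_option linter.unusedSectionVars false

namespace Vale.Agent.P371

variable {n m : Type} [Fintype n] [DecidableEq n] [Fintype m] [DecidableEq m]

lemma cfc_mul_of_eigen' {A : Matrix n n ℂ} {P : Matrix n m ℂ} (hA : A.IsHermitian) {c : ℝ}
    (h : A * P = c • P) (f : ℝ → ℝ) : cfc f A * P = f c • P := by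
  have e2 : cfc (dslope f c) A * (A - c • 1) = cfc f A - f c • 1 := by
    conv_lhs => rw [← cfc_const' hA, show A - cfc (fun _ => c) A
      = cfc (fun s => s) A - cfc (fun _ => c) A by rw [cfc_id'' hA]]
    rw [← cfc_const' hA, cfc_sub', cfc_sub', cfc_mul']
    congr 1; ext s
    have := sub_smul_dslope f c s
    rw [smul_eq_mul] at this; rw [← this]; ring
  have := congrArg (· * P) e2
  simp only [Matrix.mul_assoc, Matrix.sub_mul, h, Matrix.smul_mul, Matrix.one_mul, sub_self,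
    Matrix.mul_zero] at this
  exact (sub_eq_zero.mp this.symm)

lemma cfc_intertwine {A : Matrix n n ℂ} {B : Matrix m m ℂ} {C : Matrix n m ℂ}
    (hA : A.IsHermitian) (hB : B.IsHermitian) (h : A * C = C * B) (f : ℝ → ℝ) :
    cfc f A * C = C * cfc f B := by
  obtain ⟨U, l, hU⟩ := exists_spec hB
  rw [← Matrix.mul_one (cfc f A * C), ← Matrix.mul_one (C * cfc f B), ← hU.sum_pj,
    Matrix.mul_sum, Matrix.mul_sum]
  refine Finset.sum_congr rfl fun j _ => ?_
  have e1 := hU.fc_pj (fun s => s) j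
  rw [cfc_id'' hB] at e1
  rw [Matrix.mul_assoc, Matrix.mul_assoc, hU.fc_pj, Matrix.mul_smul]
  refine cfc_mul_of_eigen' hA ?_ f
  rw [← Matrix.mul_assoc, h, Matrix.mul_assoc, e1, Matrix.mul_smul]

lemma young {W : Matrix m m ℂ} (hW : W.PosSemidef) (Ψ : Matrix m n ℂ) {ν : ℝ} (h0 : 0 < ν) :
    rt (Ψᴴ * W * Ψ) ≤ rt (cfc (fun s : ℝ => s ^ (ν + 1)) W) / (ν + 1)
      + ν / (ν + 1) * rt (cfc (fun s : ℝ => s ^ (1 / ν)) (Ψᴴ * Ψ) * (Ψᴴ * Ψ)) := by
  have hρ : (Ψ * Ψᴴ).PosSemidef := posSemidef_self_mul_conjTranspose Ψ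
  have hP : (Ψᴴ * Ψ).PosSemidef := posSemidef_conjTranspose_mul_self Ψ
  obtain ⟨U, l, h1⟩ := exists_spec hW.1
  obtain ⟨V, k, h2⟩ := exists_spec hρ.1
  have := h1.trace_ineq h2 (fun s => (ν + 1)⁻¹ * s ^ (ν + 1))
    (fun s => ν / (ν + 1) * (s ^ (1 / ν) * s)) (fun s => s) (fun s => s) (fun _ => 0) (fun _ => 0)
    (fun i j => by
      have hc : (ν + 1).HolderConjugate (1 / ν + 1) := by
        rw [Real.holderConjugate_iff]; refine ⟨by linarith, ?_⟩; field_simp; ring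
      have := Real.young_inequality_of_nonneg (h1.nonneg hW i) (h2.nonneg hρ j) hc
      rw [Real.rpow_add_one' (h2.nonneg hρ j) (by positivity)] at this
      have e : k j ^ (1 / ν) * k j / (1 / ν + 1) = ν / (ν + 1) * (k j ^ (1 / ν) * k j) := by
        field_simp; ring
      rw [e, div_eq_inv_mul] at this
      linarith)
  rw [cfc_id'' hW.1, cfc_id'' hρ.1, cfc_const' hW.1, zero_smul, Matrix.zero_mul, rt_zero,
    ← cfc_smul', ← cfc_smul', rt_smul, rt_smul, ← cfc_mul', cfc_id'' hρ.1,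
    ← Matrix.mul_assoc _ Ψ Ψᴴ, ← Matrix.mul_assoc _ Ψ Ψᴴ,
    cfc_intertwine hρ.1 hP.1 (Matrix.mul_assoc _ _ _), rt_comm _ Ψᴴ, rt_comm _ Ψᴴ,
    ← Matrix.mul_assoc, ← Matrix.mul_assoc, rt_comm (Ψᴴ * Ψ)] at this
  rw [div_eq_inv_mul]; linarith

lemma le_rt_smul {A : Matrix n n ℂ} (hA : A.PosSemidef) : A ≤ rt A • (1 : Matrix n n ℂ) := by
  obtain ⟨U, l, h⟩ := exists_spec hA.1
  have e : rt A = ∑ i, l i := by rw [← h.rt_fc fun s => s, cfc_id'' hA.1]
  conv_lhs => rw [← cfc_id'' hA.1]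
  rw [← cfc_const' hA.1, e]
  refine cfc_le' fun s hs => ?_
  obtain ⟨i, rfl⟩ := h.surj s hs
  exact Finset.single_le_sum (fun i _ => h.nonneg hA i) (Finset.mem_univ i)

lemma rt_mul_le_mul {A C : Matrix n n ℂ} (hC : C.PosSemidef) (hA : A.PosSemidef) :
    rt (C * A) ≤ rt C * rt A := by
  have := rt_mul_mono hC (le_rt_smul hA)
  rwa [Matrix.mul_smul, Matrix.mul_one, rt_smul, mul_comm (rt A)] at this

lemma le_of_sq_le {A B : Matrix n n ℂ} (hA : A.PosDef) (hB : B.PosDef) (h : A * A ≤ B * B) :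
    A ≤ B := by
  obtain ⟨U, l, hU⟩ := exists_spec (hB.1.sub hA.1)
  rw [le_iff, ← cfc_id'' hU.herm]
  refine cfc_psd fun s hs => ?_
  obtain ⟨j, rfl⟩ := hU.surj s hs
  have e1 := hU.fc_pj (fun s => s) j
  rw [cfc_id'' hU.herm] at e1
  have e2 : pj U j * (B - A) = l j • pj U j := by
    have := congrArg conjTranspose e1
    rwa [conjTranspose_mul, conjTranspose_smul, (pj_psd U j).1.eq, hU.herm.eq, star_trivial] at this
  have p := rt_mul_nonneg (pj_psd U j) (le_iff.mp h)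
  rw [show B * B - A * A = (B - A) * B + A * (B - A) by noncomm_ring, Matrix.mul_add, rt_add,
    ← Matrix.mul_assoc, e2, ← Matrix.mul_assoc, rt_comm _ (B - A), ← Matrix.mul_assoc, e1,
    Matrix.smul_mul, Matrix.smul_mul, rt_smul, rt_smul, ← mul_add] at p
  have p1 := rt_mul_pos (pj_psd U j) (hU.rt_pj j) hA
  have p2 := rt_mul_pos (pj_psd U j) (hU.rt_pj j) hB
  exact nonneg_of_mul_nonneg_left p (by linarith)

lemma rt_rpow_mono {A B : Matrix n n ℂ} (hA : A.PosDef) (hB : B.PosDef) (h : A ≤ B) {r : ℝ}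
    (hr : 1 ≤ r) : rt (cfc (fun s : ℝ => s ^ r) A) ≤ rt (cfc (fun s : ℝ => s ^ r) B) := by
  obtain ⟨U, l, h1⟩ := exists_spec hA.1
  obtain ⟨V, k, h2⟩ := exists_spec hB.1
  have := h1.trace_ineq h2 (fun s => (r - 1) * s ^ r) (fun s => s ^ r) (fun s => r * s ^ (r - 1))
    (fun s => s) (fun _ => 0) (fun _ => 0) (fun i j => by
      have p1 := h1.pos hA i
      have p2 := h2.pos hB j
      have b := one_add_mul_self_le_rpow_one_add (s := k j / l i - 1)
        (by have := div_pos p2 p1; linarith) hr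
      rw [add_sub_cancel, Real.div_rpow p2.le p1.le, le_div_iff₀ (by positivity)] at b
      rw [Real.rpow_sub_one p1.ne']
      have e : (1 + r * (k j / l i - 1)) * l i ^ r
          = r * (l i ^ r / l i) * k j - (r - 1) * l i ^ r := by field_simp; ring
      linarith)
  have p := rt_mul_mono (A := cfc (fun s : ℝ => r * s ^ (r - 1)) A) (cfc_psd fun s hs => by
    have := spectrum_pos_of_posDef hA hs; positivity) h
  have e : cfc (fun s : ℝ => r * s ^ (r - 1)) A * A = r • cfc (fun s : ℝ => s ^ r) A := by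
    conv_lhs => rw [← cfc_id'' hA.1, cfc_cfc _ _ hA.1, cfc_mul']
    rw [cfc_smul']
    refine cfc_congr fun s hs => ?_
    have := spectrum_pos_of_posDef hA hs
    rw [Real.rpow_sub_one this.ne']; field_simp
  rw [cfc_id'' hB.1, cfc_const' hA.1, zero_smul, Matrix.zero_mul, rt_zero, ← cfc_smul' (r - 1),
    rt_smul] at this
  rw [e, rt_smul] at p
  linarith

lemma rt_cfc_dg (f : ℝ → ℝ) (l : n → ℝ) : rt (cfc f (dg l)) = ∑ i, f (l i) := by
  have e : (1 : Matrix n n ℂ) = ∑ j, dg (Pi.single j 1) := by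
    ext i j
    by_cases h : i = j
    · subst h; simp [dg, Matrix.sum_apply, Pi.single_apply, apply_ite]
    · simp [dg, Matrix.sum_apply, h]
  rw [← Matrix.mul_one (cfc f _), e, Matrix.mul_sum, rt_sum]
  refine Finset.sum_congr rfl fun j _ => ?_
  rw [cfc_mul_of_eigen (dg_herm l) (c := l j), rt_smul, ← Matrix.mul_one (dg _), rt_dg_mul]
  · simp [Pi.single_apply]
  · rw [dg_mul]; ext a b
    by_cases h : a = b
    · subst h; by_cases h' : a = j <;> simp [dg, h']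
    · simp [dg, h]

lemma dg_posDef {l : n → ℝ} (h : ∀ i, 0 < l i) : (dg l).PosDef :=
  posDef_diagonal_iff.mpr fun i => by simpa using h i

lemma kin_point (Ψ Ψ' : Matrix m n ℂ) {U : Matrix n n ℂ} (hU : U.IsHermitian) :
    rt (U * (Ψ'ᴴ * Ψ + Ψᴴ * Ψ')) ≤ rt (Ψ'ᴴ * Ψ') + rt (U * U * (Ψᴴ * Ψ)) := by
  have := rt_nonneg (posSemidef_conjTranspose_mul_self (Ψ' - Ψ * U))
  rw [conjTranspose_sub, conjTranspose_mul, hU.eq, Matrix.sub_mul, Matrix.mul_sub, Matrix.mul_sub,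
    rt_sub, rt_sub, rt_sub, ← Matrix.mul_assoc Ψ'ᴴ, rt_comm _ U, Matrix.mul_assoc U Ψᴴ Ψ',
    ← Matrix.mul_assoc _ Ψ U, rt_comm _ U, Matrix.mul_assoc U Ψᴴ Ψ, ← Matrix.mul_assoc U U] at this
  rw [Matrix.mul_add, rt_add]; linarith

noncomputable def pairL (C : Matrix n n ℂ) : Matrix n n ℂ →L[ℝ] ℝ :=
  rtL.comp (ContinuousLinearMap.mul ℝ _ C)

lemma pairL_apply (C A : Matrix n n ℂ) : pairL C A = rt (C * A) := rfl

noncomputable def conjL (B : Matrix n n ℂ) : Matrix n n ℂ →L[ℝ] Matrix n n ℂ :=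
  ContinuousLinearMap.mulLeftRight ℝ _ B B

lemma conjL_apply (B A : Matrix n n ℂ) : conjL B A = B * A * B := rfl

end Vale.Agent.P371
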