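import Vale.Agent.P371.Core

open Matrix Filter Topology Set MeasureTheory
open scoped Matrix.Norms.L2Operator MatrixOrder ComplexOrder NNReal

set_option linter.unusedSectionVars false

namespace Vale.Agent.P371

variable {n m : Type} [Fintype n] [DecidableEq n] [Fintype m] [DecidableEq m]

/-- the kinetic energy bound on an interval -/
lemma kinetic {Φ Φ' : ℝ → Matrix m n ℂ}
    (hQ : Prim (fun x => (Φ x)ᴴ * Φ x) (fun x => (Φ' x)ᴴ * Φ x + (Φ x)ᴴ * Φ' x))
    (iG : Integrable fun x => (Φ' x)ᴴ * Φ' x) {a b : ℝ} (hab : a ≤ b) {B κ : Matrix n n ℂ}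
    (hB : B.IsHermitian) {U V : ℝ → Matrix n n ℂ} (cV : ContinuousOn V (Icc a b))
    (hU : ∀ x ∈ Icc a b, HasDerivWithinAt U (κ * κ - U x * U x - V x) (Icc a b) x)
    (hUh : ∀ x ∈ Icc a b, (U x).IsHermitian) (h₁ : U a = κ) (h₂ : U b = -κ) :
    ∫ x in a..b, rt (V x * (B * ((Φ x)ᴴ * Φ x) * B))
      ≤ rt (B * κ * B * ((Φ a)ᴴ * Φ a)) + rt (B * κ * B * ((Φ b)ᴴ * Φ b))
        + (∫ x in a..b, rt (B * (κ * κ) * B * ((Φ x)ᴴ * Φ x)))
        + ∫ x in a..b, rt (B * B * ((Φ' x)ᴴ * Φ' x)) := by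
  have cU : ContinuousOn U (Icc a b) := fun x hx => (hU x hx).continuousWithinAt
  have hP := hQ.clm (conjL B)
  simp only [conjL_apply] at hP
  obtain ⟨i1, e1⟩ := Prim.parts hab hU ((continuousOn_const.sub (cU.mul cU)).sub cV) hP
  have e2 := congrArg rtL e1
  rw [← rtL.intervalIntegral_comp_comm i1, h₁, h₂] at e2
  simp only [rtL_apply] at e2
  have i2 : IntervalIntegrable (fun x => rt ((κ * κ - U x * U x - V x) * (B * ((Φ x)ᴴ * Φ x) * B)
      + U x * (B * ((Φ' x)ᴴ * Φ x + (Φ x)ᴴ * Φ' x) * B))) volume a b :=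
    ⟨(rtL (n := n)).integrable_comp i1.1, (rtL (n := n)).integrable_comp i1.2⟩
  have j1 : IntervalIntegrable (fun x => rt (V x * (B * ((Φ x)ᴴ * Φ x) * B))) volume a b :=
    (continuous_rt.comp_continuousOn
      (cV.mul hP.continuous.continuousOn)).intervalIntegrable_of_Icc hab
  have j2 : IntervalIntegrable (fun x => rt (B * (κ * κ) * B * ((Φ x)ᴴ * Φ x))) volume a b :=
    (continuous_rt.comp (continuous_const.mul hQ.continuous)).intervalIntegrable _ _
  have j3 : IntervalIntegrable (fun x => rt (B * B * ((Φ' x)ᴴ * Φ' x))) volume a b :=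
    ((pairL (B * B)).integrable_comp iG).intervalIntegrable
  have := intervalIntegral.integral_mono_on hab i2 ((j2.add j3).sub j1) fun x hx => by
    have k := kin_point (Φ x * B) (Φ' x * B) (hUh x hx)
    simp only [conjTranspose_mul, hB.eq] at k
    have f1 : B * ((Φ' x)ᴴ * Φ x + (Φ x)ᴴ * Φ' x) * B
        = B * (Φ' x)ᴴ * (Φ x * B) + B * (Φ x)ᴴ * (Φ' x * B) := by
      simp only [Matrix.mul_add, Matrix.add_mul, Matrix.mul_assoc]
    have f2 : B * ((Φ x)ᴴ * Φ x) * B = B * (Φ x)ᴴ * (Φ x * B) := by simp only [Matrix.mul_assoc]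
    have f3 : rt (B * B * ((Φ' x)ᴴ * Φ' x)) = rt (B * (Φ' x)ᴴ * (Φ' x * B)) := by
      rw [Matrix.mul_assoc, rt_comm]; simp only [Matrix.mul_assoc]
    have f4 : rt (B * (κ * κ) * B * ((Φ x)ᴴ * Φ x)) = rt (κ * κ * (B * (Φ x)ᴴ * (Φ x * B))) := by
      rw [Matrix.mul_assoc, Matrix.mul_assoc, rt_comm]; simp only [Matrix.mul_assoc]
    rw [rt_add, f1, f2, f3, f4, Matrix.sub_mul, Matrix.sub_mul, rt_sub, rt_sub]
    linarith
  rw [intervalIntegral.integral_sub (j2.add j3) j1, intervalIntegral.integral_add j2 j3, ← e2,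
    rt_sub, Matrix.neg_mul, rt_neg] at this
  have f5 : ∀ Q : Matrix n n ℂ, rt (B * κ * B * Q) = rt (κ * (B * Q * B)) := fun Q => by
    rw [Matrix.mul_assoc, Matrix.mul_assoc, rt_comm]; simp only [Matrix.mul_assoc]
  rw [f5, f5]; linarith

theorem core_eta {Φ Φ' : ℝ → Matrix m n ℂ} {W : ℝ → Matrix m m ℂ} (hW : ∀ x, (W x).PosSemidef)
    (hQ : Prim (fun x => (Φ x)ᴴ * Φ x) (fun x => (Φ' x)ᴴ * Φ x + (Φ x)ᴴ * Φ' x))
    (iQ : Integrable fun x => (Φ x)ᴴ * Φ x) (iG : Integrable fun x => (Φ' x)ᴴ * Φ' x)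
    (iW : Integrable fun x => (Φ x)ᴴ * W x * Φ x) (eQ : ∫ x, (Φ x)ᴴ * Φ x = 1) {e : n → ℝ}
    (he : ∀ i, 0 ≤ e i) (eG : (∫ x, (Φ' x)ᴴ * Φ' x) - ∫ x, (Φ x)ᴴ * W x * Φ x = -dg e)
    {ν : ℝ} (h0 : 0 < ν) (h1 : ν < 1)
    (iw : Integrable fun x => rt (cfc (fun s : ℝ => s ^ (ν + 1)) (W x)))
    {η : ℝ} (hη : 0 < η) (hη2 : η ≤ 1 / 2) (hη3 : ∀ i, η * (2 + ∑ i, e i) < e i) :
    beta ν * ∑ i, (e i - η * (2 + ∑ i, e i)) ^ (ν + 1 / 2)
      ≤ (ν / (ν + 1)) ^ ν / (ν + 1) * ((∫ x, rt (cfc (fun s : ℝ => s ^ (ν + 1)) (W x)))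
        + (ν + 1) * (η * Fintype.card n * (1 + η))) := by
  have pQ : ∀ x, ((Φ x)ᴴ * Φ x).PosSemidef := fun x => posSemidef_conjTranspose_mul_self _
  have pG : ∀ x, ((Φ' x)ᴴ * Φ' x).PosSemidef := fun x => posSemidef_conjTranspose_mul_self _
  have pW : ∀ x, ((Φ x)ᴴ * W x * Φ x).PosSemidef := fun x => (hW x).conjTranspose_mul_mul_same _
  have iq : Integrable fun x => rt ((Φ x)ᴴ * Φ x) := rtL.integrable_comp iQ
  have iwq : Integrable fun x => rt ((Φ x)ᴴ * W x * Φ x) := rtL.integrable_comp iW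
  obtain ⟨a, b, hab, ha, hb, htail⟩ := exists_interval iq (iq.add iwq)
    (fun x => add_nonneg (rt_nonneg (pQ x)) (rt_nonneg (pW x))) hη
  have intQ : ∀ C : Matrix n n ℂ, ∫ x, rt (C * ((Φ x)ᴴ * Φ x)) = rt C := fun C => by
    have := (pairL C).integral_comp_comm iQ
    simpa only [pairL_apply, eQ, Matrix.mul_one] using this
  set s := ∑ i, e i with hs
  have hs0 : 0 ≤ s := Finset.sum_nonneg fun i _ => he i
  set e' : n → ℝ := fun i => e i - η * (2 + s) with he'
  have pe' : ∀ i, 0 < e' i := fun i => sub_pos.mpr (hη3 i)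
  obtain ⟨B, κ, U, hB, hκ, hEκ, hBκ, h₁, h₂, hU, hUa⟩ := shoot hab hQ.continuous pQ
    (fun P hP hP1 => by
      have := tail_le ((pairL P).integrable_comp iQ) (iq.add iwq) (c := 1) (fun x => by
        have := rt_mul_le_mul hP (pQ x)
        have := rt_nonneg (pW x)
        simp only [pairL_apply, Pi.add_apply]
        rw [hP1] at *; linarith) hab
      simp only [pairL_apply] at this
      rw [intQ, hP1] at this
      linarith) (dg_posDef pe') hη (r := 1 / ν) (by rw [le_div_iff₀ h0]; linarith)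
  set V : ℝ → Matrix n n ℂ := fun x => cfc (fun s : ℝ => s ^ (1 / ν)) (B * ((Φ x)ᴴ * Φ x) * B)
    with hV
  have pP : ∀ x, (B * ((Φ x)ᴴ * Φ x) * B).PosSemidef := fun x => by
    have := (pQ x).conjTranspose_mul_mul_same B
    rwa [hB.eq] at this
  have cP : Continuous fun x => B * ((Φ x)ᴴ * Φ x) * B :=
    (continuous_const.mul hQ.continuous).mul continuous_const
  have cV : ContinuousOn V (Icc a b) := continuousOn_cfc_univ
    (Real.continuous_rpow_const (by positivity)) cP.continuousOn fun x _ => (pP x).1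
  have pV : ∀ x, (V x).PosSemidef := fun x => cfc_psd fun s hs =>
    Real.rpow_nonneg (spectrum_nonneg_of_psd (pP x) hs) _
  have k1 := kinetic hQ iG hab hB cV hU (fun x hx => (hUa x hx).1) h₁ h₂
  have k2 := calib hκ hab (fun x hx => (hU x hx).continuousWithinAt) cV
    (fun x hx => (hU x (Ioo_subset_Icc_self hx)).hasDerivAt (Icc_mem_nhds hx.1 hx.2))
    (fun x _ => pV x) (fun x hx => (hUa x hx).2) h₁ h₂ h0 h1
  have k3 : ∀ x, cfc (fun s : ℝ => s ^ (ν + 1)) (V x) = V x * (B * ((Φ x)ᴴ * Φ x) * B) := by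
    intro x
    simp only [hV]
    conv_rhs => rw [← cfc_id'' (pP x).1, cfc_cfc _ _ (pP x).1, cfc_mul']
    rw [cfc_cfc _ _ (pP x).1]
    refine cfc_congr fun s hs => ?_
    have s0 := spectrum_nonneg_of_psd (pP x) hs
    rw [← Real.rpow_mul s0, ← Real.rpow_add_one' s0 (by positivity)]
    congr 1; field_simp; ring
  simp only [k3] at k2
  set A := ∫ x in a..b, rt (V x * (B * ((Φ x)ᴴ * Φ x) * B)) with hA
  have pBB : (B * B).PosSemidef := by
    have := posSemidef_conjTranspose_mul_self B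
    rwa [hB.eq] at this
  have conjp : ∀ {C : Matrix n n ℂ}, C.PosSemidef → (B * C * B).PosSemidef := fun hC => by
    have := hC.conjTranspose_mul_mul_same B
    rwa [hB.eq] at this
  set μ := rt (B * B) with hμ
  have hμ0 : 0 ≤ μ := rt_nonneg pBB
  have q1 : rt (B * dg e' * B) = rt (B * B * dg e) - η * (2 + s) * μ := by
    have : dg e' = dg e - (η * (2 + s)) • 1 := by
      ext i j; by_cases h : i = j <;> simp [dg, he', h, one_apply]
    rw [rt_comm, ← Matrix.mul_assoc, this, Matrix.mul_sub, rt_sub, Matrix.mul_smul, Matrix.mul_one,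
      rt_smul]
  have q2 : rt (B * B * dg e) ≤ s * μ := by
    have := rt_mul_le_mul pBB (A := dg e) (PosSemidef.diagonal fun i => by simpa using he i)
    have e1 : rt (dg e) = s := by
      rw [← Matrix.mul_one (dg e), rt_dg_mul]; simp [hs]
    rw [e1] at this; linarith
  have q3 : rt (B * (κ * κ) * B) = rt (B * B * dg e) - η * (2 + s) * μ + η * Fintype.card n := by
    rw [hBκ, rt_add, q1, rt_smul, rt_one]
  have q4 : 2 * rt (B * κ * B) ≤ μ + rt (B * (κ * κ) * B) := by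
    have h := posSemidef_conjTranspose_mul_self (1 - κ)
    rw [conjTranspose_sub, conjTranspose_one, hκ.1.eq] at h
    have := rt_nonneg (conjp h)
    rw [show B * ((1 - κ) * (1 - κ)) * B = B * B - B * κ * B - B * κ * B + B * (κ * κ) * B by
      noncomm_ring, rt_add, rt_sub, rt_sub] at this
    linarith
  have q5 := rt_nonneg (conjp hκ.posSemidef)
  have q6 := (rt_mul_le_mul (conjp hκ.posSemidef) (pQ a)).trans (mul_le_mul_of_nonneg_left ha q5)
  have q7 := (rt_mul_le_mul (conjp hκ.posSemidef) (pQ b)).trans (mul_le_mul_of_nonneg_left hb q5)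
  have pκκ : (κ * κ).PosSemidef := by
    have := posSemidef_conjTranspose_mul_self κ
    rwa [hκ.1.eq] at this
  have q8 := interval_le_integral ((pairL (B * (κ * κ) * B)).integrable_comp iQ)
    (fun x => rt_mul_nonneg (conjp pκκ) (pQ x)) hab
  simp only [pairL_apply] at q8
  rw [intQ] at q8
  have q9 := interval_le_integral ((pairL (B * B)).integrable_comp iG)
    (fun x => rt_mul_nonneg pBB (pG x)) hab
  have q10 := congrArg (pairL (B * B)) eG
  rw [map_sub, ← (pairL _).integral_comp_comm iG, ← (pairL _).integral_comp_comm iW, map_neg] at q10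
  have q11 := tail_le ((pairL (B * B)).integrable_comp iW) (iq.add iwq) (c := μ) (fun x => by
    have := rt_mul_le_mul pBB (pW x)
    have := mul_nonneg hμ0 (rt_nonneg (pQ x))
    simp only [pairL_apply, Pi.add_apply]
    linarith) hab
  have q12 := mul_le_mul_of_nonneg_left htail hμ0
  have jA : IntervalIntegrable (fun x => rt (V x * (B * ((Φ x)ᴴ * Φ x) * B))) volume a b :=
    (continuous_rt.comp_continuousOn (cV.mul cP.continuousOn)).intervalIntegrable_of_Icc hab
  have q13 := intervalIntegral.integral_mono_on hab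
    ((pairL (B * B)).integrable_comp iW).intervalIntegrable
    ((iw.intervalIntegrable.div_const (ν + 1)).add (jA.const_mul (ν / (ν + 1)))) fun x _ => by
      have := young (hW x) (Φ x * B) h0
      simp only [conjTranspose_mul, hB.eq] at this
      rw [show B * (Φ x)ᴴ * (Φ x * B) = B * ((Φ x)ᴴ * Φ x) * B by simp only [Matrix.mul_assoc],
        ← Matrix.mul_assoc, rt_comm _ B] at this
      simpa only [pairL_apply, Function.comp, Matrix.mul_assoc, hV] using this
  rw [intervalIntegral.integral_add (iw.intervalIntegrable.div_const _) (jA.const_mul _),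
    intervalIntegral.integral_div, intervalIntegral.integral_const_mul, ← hA] at q13
  have q14 := interval_le_integral iw (fun x => rt_nonneg (cfc_psd fun s hs =>
    Real.rpow_nonneg (spectrum_nonneg_of_psd (hW x) hs) _)) hab
  simp only [pairL_apply] at q9 q10 q11 q13
  set w := ∫ x, rt (cfc (fun s : ℝ => s ^ (ν + 1)) (W x))
  have q15 : A ≤ w + (ν + 1) * (η * Fintype.card n * (1 + η)) := by
    have r1 : (∫ x in a..b, rt (cfc (fun s : ℝ => s ^ (ν + 1)) (W x))) / (ν + 1) ≤ w / (ν + 1) := by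
      gcongr
    have r2 := mul_le_mul_of_nonneg_left q4 hη.le
    have r3 := mul_le_mul_of_nonneg_left q2 hη.le
    have r4 : 0 ≤ η * (η * (2 + s) * μ) := by positivity
    have r5 : A ≤ w / (ν + 1) + ν / (ν + 1) * A + η * Fintype.card n * (1 + η) := by
      rw [q3] at r2 q8
      linarith
    have r6 := mul_le_mul_of_nonneg_left r5 (by linarith : 0 ≤ ν + 1)
    have r7 : (ν + 1) * (w / (ν + 1) + ν / (ν + 1) * A + η * Fintype.card n * (1 + η))
        = w + ν * A + (ν + 1) * (η * Fintype.card n * (1 + η)) := by field_simp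
    linarith
  have pκ' : (dg fun i => √(e' i)).PosDef := dg_posDef fun i => Real.sqrt_pos.mpr (pe' i)
  have q16 := rt_rpow_mono pκ' hκ (le_of_sq_le pκ' hκ (by
    rw [dg_mul]
    simpa only [Real.mul_self_sqrt (pe' _).le] using hEκ)) (r := 2 * ν + 1) (by linarith)
  rw [rt_cfc_dg] at q16
  have q17 : ∀ i, √(e' i) ^ (2 * ν + 1) = e' i ^ (ν + 1 / 2) := fun i => by
    rw [Real.sqrt_eq_rpow, ← Real.rpow_mul (pe' i).le]; congr 1; ring
  simp only [q17] at q16
  calc _ ≤ _ := mul_le_mul_of_nonneg_left q16 (beta_pos h0).le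
    _ ≤ _ := k2
    _ ≤ _ := mul_le_mul_of_nonneg_left q15 (by positivity)

theorem core {Φ Φ' : ℝ → Matrix m n ℂ} {W : ℝ → Matrix m m ℂ} (hW : ∀ x, (W x).PosSemidef)
    (hQ : Prim (fun x => (Φ x)ᴴ * Φ x) (fun x => (Φ' x)ᴴ * Φ x + (Φ x)ᴴ * Φ' x))
    (iQ : Integrable fun x => (Φ x)ᴴ * Φ x) (iG : Integrable fun x => (Φ' x)ᴴ * Φ' x)
    (iW : Integrable fun x => (Φ x)ᴴ * W x * Φ x) (eQ : ∫ x, (Φ x)ᴴ * Φ x = 1) {e : n → ℝ}
    (he : ∀ i, 0 < e i) (eG : (∫ x, (Φ' x)ᴴ * Φ' x) - ∫ x, (Φ x)ᴴ * W x * Φ x = -dg e)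
    {ν : ℝ} (h0 : 0 < ν) (h1 : ν < 1)
    (iw : Integrable fun x => rt (cfc (fun s : ℝ => s ^ (ν + 1)) (W x))) :
    beta ν * ∑ i, e i ^ (ν + 1 / 2)
      ≤ (ν / (ν + 1)) ^ ν / (ν + 1) * ∫ x, rt (cfc (fun s : ℝ => s ^ (ν + 1)) (W x)) := by
  set w := ∫ x, rt (cfc (fun s : ℝ => s ^ (ν + 1)) (W x))
  have c1 : Continuous fun η : ℝ => beta ν * ∑ i, (e i - η * (2 + ∑ i, e i)) ^ (ν + 1 / 2) :=
    continuous_const.mul (continuous_finsetSum _ fun i _ =>
      (Real.continuous_rpow_const (by linarith)).comp (by fun_prop))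
  have c2 : Continuous fun η : ℝ => (ν / (ν + 1)) ^ ν / (ν + 1) *
      (w + (ν + 1) * (η * Fintype.card n * (1 + η))) := by fun_prop
  have := le_of_tendsto_of_tendsto ((c1.tendsto 0).mono_left (nhdsWithin_le_nhds (s := Ioi 0)))
    ((c2.tendsto 0).mono_left nhdsWithin_le_nhds) (by
      have e1 : ∀ᶠ η : ℝ in 𝓝 0, ∀ i, η * (2 + ∑ i, e i) < e i :=
        eventually_all.mpr fun i => (by fun_prop : Continuous fun η : ℝ =>
          η * (2 + ∑ i, e i)).continuousAt.eventually_lt continuousAt_const (by simpa using he i)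
      filter_upwards [nhdsWithin_le_nhds e1, Ioc_mem_nhdsGT (by norm_num : (0 : ℝ) < 1 / 2)]
        with η h2 h3
      exact core_eta hW hQ iQ iG iW eQ (fun i => (he i).le) eG h0 h1 iw h3.1 h3.2 h2)
  simpa using this

end Vale.Agent.P371
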