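import Vale.Agent.P371.Mat

open Matrix Filter Topology
open scoped Matrix.Norms.L2Operator MatrixOrder ComplexOrder

set_option linter.unusedSectionVars false

namespace Vale.Agent.P371

variable {n : Type} [Fintype n] [DecidableEq n]

/-- `v ↦ U diag(v) Uᴴ` as a continuous linear map -/
noncomputable def dgL (U : Matrix n n ℂ) : (n → ℝ) →L[ℝ] Matrix n n ℂ :=
  LinearMap.toContinuousLinearMap
    { toFun := fun v => U * dg v * Uᴴ
      map_add' := fun v w => by
        have : dg (v + w) = dg v + dg w := by simp [dg, diagonal_add]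
        rw [this, Matrix.mul_add, Matrix.add_mul]
      map_smul' := fun c v => by
        have : dg (c • v) = c • dg v := by
          ext i j; by_cases h : i = j <;> simp [dg, h]
        rw [this]; simp }

lemma dgL_apply (U : Matrix n n ℂ) (v : n → ℝ) : dgL U v = U * dg v * Uᴴ := rfl

/-- derivative of `t ↦ f_t(A)` -/
lemma hasDerivAt_cfc_fun {A : Matrix n n ℂ} (hA : A.IsHermitian) {f : ℝ → ℝ → ℝ} {f' : ℝ → ℝ}
    {t₀ : ℝ} (hf : ∀ s ∈ spectrum ℝ A, HasDerivAt (fun t => f t s) (f' s) t₀) :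
    HasDerivAt (fun t => cfc (f t) A) (cfc f' A) t₀ := by
  obtain ⟨U, l, h⟩ := exists_spec hA
  simp only [h.fc, ← dgL_apply]
  have : HasDerivAt (fun t i => f t (l i)) (fun i => f' (l i)) t₀ :=
    hasDerivAt_pi.mpr fun i => hf _ (h.mem i)
  exact (dgL U).hasFDerivAt.comp_hasDerivAt t₀ this

lemma continuousOn_cfc_fun {A : Matrix n n ℂ} (hA : A.IsHermitian) {X : Type*}
    [TopologicalSpace X] {f : X → ℝ → ℝ} {T : Set X}
    (hf : ∀ s ∈ spectrum ℝ A, ContinuousOn (fun t => f t s) T) :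
    ContinuousOn (fun t => cfc (f t) A) T := by
  obtain ⟨U, l, h⟩ := exists_spec hA
  simp only [h.fc, ← dgL_apply]
  exact (dgL U).continuous.comp_continuousOn (continuousOn_pi.mpr fun i => hf _ (h.mem i))

/-- rank one spectral projection -/
noncomputable def pj (U : Matrix n n ℂ) (j : n) : Matrix n n ℂ := dgL U (Pi.single j 1)

lemma Spec.sum_pj {A U : Matrix n n ℂ} {l : n → ℝ} (h : Spec A U l) : ∑ j, pj U j = 1 := by
  simp only [pj]
  rw [← map_sum, Finset.univ_sum_single (fun _ : n => (1 : ℝ)), dgL_apply, dg_one,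
    Matrix.mul_one, h.h1]

lemma Spec.fc_pj {A U : Matrix n n ℂ} {l : n → ℝ} (h : Spec A U l) (f : ℝ → ℝ) (j : n) :
    cfc f A * pj U j = f (l j) • pj U j := by
  rw [pj, ← map_smul, dgL_apply, dgL_apply, h.fc]
  simp only [Matrix.mul_assoc]
  rw [← Matrix.mul_assoc Uᴴ, h.h2, Matrix.one_mul, ← Matrix.mul_assoc (dg _), dg_mul]
  congr 3; ext i
  by_cases hi : i = j <;> simp [hi]

lemma Spec.cfc_sub_eq {A B U : Matrix n n ℂ} {l : n → ℝ} (h : Spec B U l) (hA : A.IsHermitian)
    (f : ℝ → ℝ) :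
    cfc f A - cfc f B = ∑ j, cfc (dslope f (l j)) A * (A - B) * pj U j := by
  rw [← Matrix.mul_one (cfc f A - cfc f B), ← h.sum_pj, Finset.mul_sum]
  refine Finset.sum_congr rfl fun j _ => ?_
  have e1 : B * pj U j = l j • pj U j := by
    have := h.fc_pj (fun s => s) j
    rwa [cfc_id'' h.herm] at this
  have e2 : cfc (dslope f (l j)) A * (A - l j • 1) = cfc f A - f (l j) • 1 := by
    conv_lhs => rw [← cfc_const' hA, show A - cfc (fun _ => l j) A
      = cfc (fun s => s) A - cfc (fun _ => l j) A by rw [cfc_id'' hA]]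
    rw [← cfc_const' hA, cfc_sub', cfc_sub', cfc_mul']
    congr 1; ext s
    have := sub_smul_dslope f (l j) s
    rw [smul_eq_mul] at this; rw [← this]; ring
  calc (cfc f A - cfc f B) * pj U j = (cfc f A - f (l j) • 1) * pj U j := by
        rw [Matrix.sub_mul, Matrix.sub_mul, h.fc_pj]; simp
    _ = cfc (dslope f (l j)) A * ((A - l j • 1) * pj U j) := by rw [← e2, Matrix.mul_assoc]
    _ = _ := by rw [Matrix.mul_assoc, Matrix.sub_mul, Matrix.sub_mul, e1]; simp

/-- Daleckii-Krein formula. -/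
lemma exists_hasDerivAt_cfc {f : ℝ → ℝ} (hf : ∀ s, 0 < s → DifferentiableAt ℝ f s)
    {X : ℝ → Matrix n n ℂ} {K : Matrix n n ℂ} {t₀ : ℝ} (hX : HasDerivAt X K t₀)
    (hpos : ∀ᶠ t in 𝓝 t₀, (X t).PosDef) {U : Matrix n n ℂ} {l : n → ℝ} (h : Spec (X t₀) U l) :
    ∃ K', HasDerivAt (fun t => cfc f (X t)) K' t₀ ∧ ∀ C, rt (C * K') =
      ∑ i, ∑ j, dslope f (l j) (l i) * ((Uᴴ * K * U) i j * (Uᴴ * C * U) j i).re := by
  refine ⟨∑ j, cfc (dslope f (l j)) (X t₀) * K * pj U j, ?_, fun C => ?_⟩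
  · rw [hasDerivAt_iff_tendsto_slope] at hX ⊢
    have hl := h.pos hpos.self_of_nhds
    have hc : ∀ j, Tendsto (fun t => cfc (dslope f (l j)) (X t)) (𝓝[≠] t₀)
        (𝓝 (cfc (dslope f (l j)) (X t₀))) := by
      intro j
      have hcont : ContinuousOn (dslope f (l j)) (Set.Ioi 0) :=
        (continuousOn_dslope (Ioi_mem_nhds (hl j))).mpr
          ⟨fun s hs => (hf s hs).continuousAt.continuousWithinAt, hf _ (hl j)⟩
      have h2 : ContinuousOn (cfc (dslope f (l j))) {A : Matrix n n ℂ | A.PosDef} :=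
        continuousOn_cfc_pos hcont continuousOn_id (fun A hA => hA)
      have h3 : Tendsto X (𝓝 t₀) (𝓝[{A : Matrix n n ℂ | A.PosDef}] (X t₀)) :=
        tendsto_nhdsWithin_iff.mpr
          ⟨(hasDerivAt_iff_tendsto_slope.mpr hX).continuousAt, hpos⟩
      exact ((h2 _ hpos.self_of_nhds).tendsto.comp h3).mono_left nhdsWithin_le_nhds
    have := tendsto_finsetSum Finset.univ fun j _ => ((hc j).mul hX).mul_const (pj U j)
    refine this.congr' ?_
    filter_upwards [nhdsWithin_le_nhds hpos] with t ht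
    rw [slope_def_module, slope_def_module, h.cfc_sub_eq ht.1, Finset.smul_sum]
    refine Finset.sum_congr rfl fun j _ => ?_
    simp only [Matrix.mul_smul, Matrix.smul_mul]
  · rw [Finset.mul_sum, rt_sum, Finset.sum_comm]
    refine Finset.sum_congr rfl fun j _ => ?_
    have : rt (C * (cfc (dslope f (l j)) (X t₀) * K * pj U j))
        = rt (dg (fun i => dslope f (l j) (l i)) * (Uᴴ * K * U) * dg (Pi.single j 1)
          * (Uᴴ * C * U)) := by
      rw [h.fc, pj, dgL_apply]
      simp only [Matrix.mul_assoc]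
      rw [rt_comm C]
      simp only [Matrix.mul_assoc]
      rw [rt_comm U]
      simp only [Matrix.mul_assoc]
    rw [this, rt_dg_dg]
    refine Finset.sum_congr rfl fun i _ => ?_
    rw [Finset.sum_eq_single j] <;> simp +contextual

/-- derivative of a trace function -/
lemma hasDerivAt_rt_cfc {f f' : ℝ → ℝ} (hf : ∀ s, 0 < s → HasDerivAt f (f' s) s)
    {X : ℝ → Matrix n n ℂ} {K : Matrix n n ℂ} {t₀ : ℝ} (hX : HasDerivAt X K t₀)
    (hpos : ∀ᶠ t in 𝓝 t₀, (X t).PosDef) :
    HasDerivAt (fun t => rt (cfc f (X t))) (rt (cfc f' (X t₀) * K)) t₀ := by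
  obtain ⟨U, l, h⟩ := exists_spec hpos.self_of_nhds.1
  obtain ⟨K', h1, h2⟩ := exists_hasDerivAt_cfc (fun s hs => (hf s hs).differentiableAt) hX hpos h
  have h3 := rtL.hasFDerivAt.comp_hasDerivAt t₀ h1
  refine HasDerivAt.congr_deriv h3 (Eq.symm ?_)
  have h4 := h2 1
  rw [Matrix.one_mul, Matrix.mul_one, h.h2] at h4
  rw [rtL_apply, h4, h.rt_fc_mul]
  refine Finset.sum_congr rfl fun i _ => ?_
  rw [Finset.sum_eq_single i]
  · rw [dslope_same, (hf _ (h.pos hpos.self_of_nhds i)).deriv]; simp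
  · intro j _ hj; simp [one_apply, hj]
  · simp

/-- Fiedler-type inequality -/
lemma fiedler {Z K A : Matrix n n ℂ} (hK : K.PosSemidef) (hZ : Z.IsHermitian) (hA : A.IsHermitian)
    (h : Z * K = 1) : rt (A * A) ≤ rt (A * K * A * Z) := by
  have h' : K * Z = 1 := mul_eq_one_comm.mp h
  have h0 := rt_mul_nonneg hK (hK.conjTranspose_mul_mul_same (A * Z - Z * A))
  have e : K * ((A * Z - Z * A)ᴴ * K * (A * Z - Z * A))
      = (K * Z) * A * K * A * Z - (K * Z) * A * (K * Z) * A - K * A * (Z * K) * A * Z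
        + K * A * Z * (K * Z) * A := by
    rw [conjTranspose_sub, conjTranspose_mul, conjTranspose_mul, hZ.eq, hA.eq]
    noncomm_ring
  rw [e, h, h'] at h0
  simp only [Matrix.one_mul, Matrix.mul_one, rt_add, rt_sub] at h0
  have e1 : rt (K * A * A * Z) = rt (A * A) := by
    rw [rt_comm, ← Matrix.mul_assoc, ← Matrix.mul_assoc, h, Matrix.one_mul]
  have e2 : rt (K * A * Z * A) = rt (A * K * A * Z) := by
    rw [rt_comm]; simp only [Matrix.mul_assoc]
  linarith

lemma cnd_sq {Z K : Matrix n n ℂ} (hK : K.PosSemidef) (hZ : Z.IsHermitian)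
    (h : Z * K = 1) (a : n → ℝ) : ∑ i, ∑ j, (a i - a j) ^ 2 * (K i j * Z j i).re ≤ 0 := by
  have h' : K * Z = 1 := mul_eq_one_comm.mp h
  have h1 := fiedler hK hZ (dg_herm a) h
  have h2 := rt_dg_dg (fun i => a i * a i) (fun _ => 1) K Z
  have h3 := rt_dg_dg (fun _ => 1) (fun i => a i * a i) K Z
  rw [dg_one, Matrix.mul_one, Matrix.mul_assoc, h', Matrix.mul_one, ← dg_mul] at h2
  rw [dg_one, Matrix.one_mul, rt_comm, ← Matrix.mul_assoc, h, Matrix.one_mul, ← dg_mul] at h3
  rw [rt_dg_dg] at h1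
  have : ∑ i, ∑ j, (a i - a j) ^ 2 * (K i j * Z j i).re
      = ∑ i, ∑ j, a i * a i * 1 * (K i j * Z j i).re + ∑ i, ∑ j, 1 * (a j * a j) * (K i j * Z j i).re
        - 2 * ∑ i, ∑ j, a i * a j * (K i j * Z j i).re := by
    simp only [Finset.mul_sum, ← Finset.sum_add_distrib, ← Finset.sum_sub_distrib]
    refine Finset.sum_congr rfl fun i _ => Finset.sum_congr rfl fun j _ => by ring
  linarith

noncomputable def Fs (x y s : ℝ) : ℝ :=
  if x = y then 0 else x / (x + s) + y / (y + s)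
    - (x + y) * (Real.log (s + x) - Real.log (s + y)) / (x - y)

lemma Fs_deriv {x y s : ℝ} (hx : 0 < x) (hy : 0 < y) (hs : 0 ≤ s) :
    HasDerivAt (Fs x y) (s * (1 / (x + s) - 1 / (y + s)) ^ 2) s := by
  unfold Fs
  split_ifs with h
  · subst h; simpa using hasDerivAt_const s (0 : ℝ)
  · have hxs : x + s ≠ 0 := by positivity
    have hys : y + s ≠ 0 := by positivity
    have hxs' : s + x ≠ 0 := by positivity
    have hys' : s + y ≠ 0 := by positivity
    have hxy : x - y ≠ 0 := sub_ne_zero.mpr h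
    have d1 := (hasDerivAt_const s x).div ((hasDerivAt_id s).const_add x) hxs
    have d2 := (hasDerivAt_const s y).div ((hasDerivAt_id s).const_add y) hys
    have d3 := ((hasDerivAt_id s).add_const x).log hxs'
    have d4 := ((hasDerivAt_id s).add_const y).log hys'
    refine HasDerivAt.congr_deriv
      ((d1.add d2).sub (((d3.sub d4).const_mul (x + y)).div_const (x - y))) ?_
    simp only [id]
    rw [add_comm s x, add_comm s y]
    field_simp
    ring

lemma Fs_tendsto (x y : ℝ) : Tendsto (Fs x y) atTop (𝓝 0) := by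
  unfold Fs
  split_ifs with h
  · exact tendsto_const_nhds
  · have d1 : ∀ x : ℝ, Tendsto (fun s => x / (x + s)) atTop (𝓝 0) := fun x =>
      tendsto_const_nhds.div_atTop (tendsto_atTop_add_const_left _ x tendsto_id)
    have d3 := (Real.tendsto_log_comp_add_sub_log x).sub (Real.tendsto_log_comp_add_sub_log y)
    have := ((d1 x).add (d1 y)).sub ((d3.const_mul (x + y)).div_const (x - y))
    simp only [sub_self, mul_zero, zero_div, add_zero] at this
    refine this.congr fun s => ?_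
    ring

lemma Fs_zero {x y : ℝ} (hx : 0 < x) (hy : 0 < y) :
    Fs x y 0 = 2 - (x + y) * dslope Real.log y x := by
  unfold Fs
  split_ifs with h
  · subst h; rw [dslope_same, Real.deriv_log]; field_simp; ring
  · rw [dslope_of_ne _ h, slope_def_field]
    simp only [add_zero, zero_add]
    field_simp; ring

lemma cnd_log {Z K : Matrix n n ℂ} (hK : K.PosSemidef) (hZ : Z.IsHermitian)
    (h : Z * K = 1) (l : n → ℝ) (hl : ∀ i, 0 < l i) :
    0 ≤ ∑ i, ∑ j, (2 - (l i + l j) * dslope Real.log (l j) (l i)) * (K i j * Z j i).re := by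
  set M : ℝ → ℝ := fun s => ∑ i, ∑ j, Fs (l i) (l j) s * (K i j * Z j i).re with hM
  have hd : ∀ s, 0 ≤ s → HasDerivAt M
      (∑ i, ∑ j, s * (1 / (l i + s) - 1 / (l j + s)) ^ 2 * (K i j * Z j i).re) s := fun s hs =>
    HasDerivAt.fun_sum fun i _ => HasDerivAt.fun_sum fun j _ =>
      (Fs_deriv (hl i) (hl j) hs).mul_const _
  have ha : AntitoneOn M (Set.Ici 0) := by
    refine antitoneOn_of_deriv_nonpos (convex_Ici 0)
      (fun s hs => (hd s hs).continuousAt.continuousWithinAt)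
      (fun s hs => (hd s (interior_subset hs)).differentiableAt.differentiableWithinAt) ?_
    intro s hs
    have hs0 : 0 ≤ s := interior_subset hs
    rw [(hd s hs0).deriv]
    have := mul_nonpos_of_nonneg_of_nonpos hs0 (cnd_sq hK hZ h fun i => 1 / (l i + s))
    simpa only [Finset.mul_sum, mul_assoc] using this
  have ht : Tendsto M atTop (𝓝 0) := by
    have := tendsto_finsetSum Finset.univ fun i _ => tendsto_finsetSum Finset.univ fun j _ =>
      (Fs_tendsto (l i) (l j)).mul_const (K i j * Z j i).re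
    simpa only [zero_mul, Finset.sum_const_zero] using this
  have : 0 ≤ M 0 := le_of_tendsto ht (by
    filter_upwards [eventually_ge_atTop 0] with s hs
    exact ha (le_refl (0 : ℝ)) hs hs)
  simpa only [hM, Fs_zero (hl _) (hl _)] using this

/-- The key derivative inequality for the logarithm. -/
lemma exists_hasDerivAt_log {X : ℝ → Matrix n n ℂ} {K Z : Matrix n n ℂ} {t₀ : ℝ}
    (hX : HasDerivAt X K t₀) (hpos : ∀ᶠ t in 𝓝 t₀, (X t).PosDef)
    (hK : K.PosSemidef) (hZ : Z.IsHermitian) (hZK : Z * K = 1) :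
    ∃ K', HasDerivAt (fun t => cfc Real.log (X t)) K' t₀ ∧
      rt ((X t₀ * (Z - X t₀) + (Z - X t₀) * X t₀) * K') ≤ 2 * rt ((Z - X t₀) * K) := by
  obtain ⟨U, l, h⟩ := exists_spec hpos.self_of_nhds.1
  obtain ⟨K', h1, h2⟩ := exists_hasDerivAt_cfc
    (fun s hs => Real.differentiableAt_log hs.ne') hX hpos h
  refine ⟨K', h1, ?_⟩
  have hl := h.pos hpos.self_of_nhds
  have hK' : (Uᴴ * K * U).PosSemidef := hK.conjTranspose_mul_mul_same U
  have hZ' : (Uᴴ * Z * U).IsHermitian := isHermitian_conjTranspose_mul_mul U hZ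
  have hZK' : (Uᴴ * Z * U) * (Uᴴ * K * U) = 1 := by
    simp only [Matrix.mul_assoc]
    rw [← Matrix.mul_assoc U, h.h1, Matrix.one_mul, ← Matrix.mul_assoc Z, hZK, Matrix.one_mul, h.h2]
  have h3 := cnd_log hK' hZ' hZK' l hl
  have e1 : Uᴴ * (Z - X t₀) * U = Uᴴ * Z * U - dg l := by
    rw [Matrix.mul_sub, Matrix.sub_mul, h.conj_eq]
  have e2 : Uᴴ * (X t₀ * (Z - X t₀) + (Z - X t₀) * X t₀) * U
      = dg l * (Uᴴ * Z * U - dg l) + (Uᴴ * Z * U - dg l) * dg l := by
    rw [← e1, ← h.conj_eq]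
    simp only [Matrix.mul_add, Matrix.add_mul, Matrix.mul_assoc]
    simp only [← Matrix.mul_assoc U, h.h1, Matrix.one_mul]
  have e3 : rt ((Z - X t₀) * K)
      = ∑ i, ∑ j, ((Uᴴ * K * U) i j * (Uᴴ * Z * U - dg l) j i).re := by
    have := rt_dg_dg (fun _ => 1) (fun _ => 1) (Uᴴ * K * U) (Uᴴ * Z * U - dg l)
    simp only [dg_one, Matrix.mul_one, one_mul] at this
    rw [← this, ← e1, rt_comm, ← h.rt_conj]
    simp only [Matrix.mul_assoc]
    simp only [← Matrix.mul_assoc U, h.h1, Matrix.one_mul]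
  rw [h2, e2, e3]
  set K₁ := Uᴴ * K * U
  set Z₁ := Uᴴ * Z * U
  rw [← sub_nonneg]
  refine h3.trans (le_of_eq ?_)
  simp only [Finset.mul_sum, ← Finset.sum_sub_distrib]
  refine Finset.sum_congr rfl fun i _ => Finset.sum_congr rfl fun j _ => ?_
  have e4 : (dg l * (Z₁ - dg l) + (Z₁ - dg l) * dg l) j i
      = ((l i + l j : ℝ) : ℂ) * (Z₁ - dg l) j i := by
    simp only [Matrix.add_apply, dg, diagonal_mul, mul_diagonal]; push_cast; ring
  rw [e4, mul_left_comm, Complex.re_ofReal_mul]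
  by_cases hij : i = j
  · subst hij
    have : (l i + l i) * dslope Real.log (l i) (l i) = 2 := by
      have := (hl i).ne'
      rw [dslope_same, Real.deriv_log]; field_simp; ring
    rw [this, ← mul_assoc, mul_comm (dslope _ _ _), this]; ring
  · have : (Z₁ - dg l) j i = Z₁ j i := by
      simp [dg, diagonal_apply_ne _ (Ne.symm hij)]
    rw [this]; ring

end Vale.Agent.P371
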