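import Mathlib

open MeasureTheory Matrix
open scoped ENNReal ComplexOrder

namespace Vale.Agent.P371

/-- `tr (A ^ p)`, the power taken by the functional calculus. -/
noncomputable def trPow {m : ℕ} (p : ℝ) (A : Matrix (Fin m) (Fin m) ℂ) : ℝ :=
  (cfc (fun t : ℝ => t ^ p) A).trace.re

/-- A potential: measurable, positive semidefinite values, `tr (W ^ (γ + 1/2))` integrable. -/
structure IsPotential {m : ℕ} (γ : ℝ) (W : ℝ → Matrix (Fin m) (Fin m) ℂ) : Prop where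
  meas : ∀ i j, Measurable fun x => W x i j
  psd : ∀ x, (W x).PosSemidef
  int : Integrable fun x => trPow (γ + 1 / 2) (W x)

/-- An element of `H¹(ℝ; ℂ^m)`: an absolutely continuous function `f`, the primitive of `d`,
with `f` and `d` square integrable. -/
structure H1 (m : ℕ) where
  f : ℝ → Fin m → ℂ
  d : ℝ → Fin m → ℂ
  f_L2 : MemLp f 2
  d_L2 : MemLp d 2
  primitive : ∀ x y, f y - f x = ∫ t in x..y, d t

/-- The `L²` inner product of two functions with values in `ℂ^m`. -/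
noncomputable def ip {m : ℕ} (u v : ℝ → Fin m → ℂ) : ℂ :=
  ∫ x, star (u x) ⬝ᵥ v x

/-- The sesquilinear form of `H_W = -d²/dx² - W` on `H¹`. -/
noncomputable def form {m : ℕ} (W : ℝ → Matrix (Fin m) (Fin m) ℂ) (φ ψ : H1 m) : ℂ :=
  ip φ.d ψ.d - ip φ.f fun x => W x *ᵥ ψ.f x

/-- `ψ` satisfies `H_W ψ = lam ψ`, for the operator `H_W` of the form. -/
def IsEigen {m : ℕ} (W : ℝ → Matrix (Fin m) (Fin m) ℂ) (lam : ℝ) (ψ : H1 m) : Prop :=
  ∀ φ : H1 m, form W φ ψ = lam * ip φ.f ψ.f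

/-- `Tr (H_W)_-^γ`: the supremum of `∑ |λ_j|^γ` over finite orthonormal families of eigenfunctions
with negative eigenvalues, so each negative eigenvalue counts with its multiplicity. -/
noncomputable def rieszMean {m : ℕ} (γ : ℝ) (W : ℝ → Matrix (Fin m) (Fin m) ℂ) : ℝ≥0∞ :=
  ⨆ (N : ℕ) (lam : Fin N → ℝ) (ψ : Fin N → H1 m) (_ : ∀ j, lam j < 0)
    (_ : ∀ j, IsEigen W (lam j) (ψ j))
    (_ : ∀ i j, ip (ψ i).f (ψ j).f = if i = j then 1 else 0),
    ENNReal.ofReal (∑ j, |lam j| ^ γ)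

/-- `|λ₁|^γ` for the lowest eigenvalue `λ₁` of `H_W` (zero if there is no negative eigenvalue). -/
noncomputable def lowestPow {m : ℕ} (γ : ℝ) (W : ℝ → Matrix (Fin m) (Fin m) ℂ) : ℝ≥0∞ :=
  ⨆ (lam : ℝ) (ψ : H1 m) (_ : lam < 0) (_ : IsEigen W lam ψ) (_ : ip ψ.f ψ.f = 1),
    ENNReal.ofReal (|lam| ^ γ)

/-- The Lieb-Thirring constant `L_γ(m)`. -/
noncomputable def LT (γ : ℝ) (m : ℕ) : ℝ≥0∞ :=
  ⨆ (W : ℝ → Matrix (Fin m) (Fin m) ℂ) (_ : IsPotential γ W) (_ : ¬ W =ᵐ[volume] 0),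
    rieszMean γ W / ENNReal.ofReal (∫ x, trPow (γ + 1 / 2) (W x))

/-- The one-bound-state constant `L^{(1)}_γ` (scalar potentials, lowest eigenvalue only). -/
noncomputable def LOne (γ : ℝ) : ℝ≥0∞ :=
  ⨆ (W : ℝ → Matrix (Fin 1) (Fin 1) ℂ) (_ : IsPotential γ W) (_ : ¬ W =ᵐ[volume] 0),
    lowestPow γ W / ENNReal.ofReal (∫ x, trPow (γ + 1 / 2) (W x))

/-- The semiclassical constant `L^cl_γ`. -/
noncomputable def Lcl (γ : ℝ) : ℝ :=
  Real.Gamma (γ + 1) / (2 * √Real.pi * Real.Gamma (γ + 3 / 2))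

end Vale.Agent.P371
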