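import Vale.Agent.P371.Upper

open MeasureTheory
open scoped ENNReal

namespace Vale.Agent.P371

lemma const_nonneg {γ : ℝ} (h1 : 1 / 2 < γ) :
    0 ≤ 2 * ((γ - 1 / 2) / (γ + 1 / 2)) ^ (γ - 1 / 2) * Lcl γ := by
  have g1 := Real.Gamma_pos_of_pos (by linarith : 0 < γ + 1)
  have g2 := Real.Gamma_pos_of_pos (by linarith : 0 < γ + 3 / 2)
  have : 0 < γ - 1 / 2 := by linarith
  have : 0 < γ + 1 / 2 := by linarith
  unfold Lcl; positivity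

lemma lowest_le {m : ℕ} (γ : ℝ) (W : ℝ → Matrix (Fin m) (Fin m) ℂ) :
    lowestPow γ W ≤ rieszMean γ W := by
  refine iSup_le fun lam => iSup_le fun ψ => iSup_le fun hl => iSup_le fun he =>
    iSup_le fun ho => ?_
  refine le_iSup_of_le 1 (le_iSup_of_le (fun _ => lam) (le_iSup_of_le (fun _ => ψ)
    (le_iSup_of_le (fun _ => hl) (le_iSup_of_le (fun _ => he) (le_iSup_of_le
      (fun i j => by rw [ho, if_pos (Subsingleton.elim i j)]) ?_)))))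
  simp

lemma LT_le {γ : ℝ} (h1 : 1 / 2 < γ) (h2 : γ < 3 / 2) (m : ℕ) :
    LT γ m ≤ ENNReal.ofReal (2 * ((γ - 1 / 2) / (γ + 1 / 2)) ^ (γ - 1 / 2) * Lcl γ) := by
  refine iSup_le fun W => iSup_le fun hW => iSup_le fun _ => ENNReal.div_le_of_le_mul ?_
  rw [← ENNReal.ofReal_mul (const_nonneg h1)]
  exact iSup_le fun N => iSup_le fun lam => iSup_le fun ψ => iSup_le fun hl => iSup_le fun he =>
    iSup_le fun ho => ENNReal.ofReal_le_ofReal (upper h1 h2 hW hl he ho)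

lemma exists_ge {γ : ℝ} (h1 : 1 / 2 < γ) (m : ℕ) (hm : 1 ≤ m) :
    ∃ W : ℝ → Matrix (Fin m) (Fin m) ℂ, IsPotential γ W ∧ ¬ W =ᵐ[volume] 0 ∧
      ENNReal.ofReal (2 * ((γ - 1 / 2) / (γ + 1 / 2)) ^ (γ - 1 / 2) * Lcl γ)
        ≤ lowestPow γ W / ENNReal.ofReal (∫ x, trPow (γ + 1 / 2) (W x)) := by
  obtain ⟨W, lam, ψ, hW, h0, hl, he, ho, hp, e⟩ := exists_extremal h1 m hm
  refine ⟨W, hW, h0, ?_⟩
  rw [ENNReal.le_div_iff_mul_le (Or.inl (by simpa using hp)) (Or.inl ENNReal.ofReal_ne_top),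
    ← ENNReal.ofReal_mul (const_nonneg h1), ← e]
  exact le_iSup_of_le lam (le_iSup_of_le ψ (le_iSup_of_le hl (le_iSup_of_le he
    (le_iSup_of_le ho le_rfl))))

theorem LT_eq {γ : ℝ} (h1 : 1 / 2 < γ) (h2 : γ < 3 / 2) (m : ℕ) (hm : 1 ≤ m) :
    LT γ m = ENNReal.ofReal (2 * ((γ - 1 / 2) / (γ + 1 / 2)) ^ (γ - 1 / 2) * Lcl γ) := by
  refine le_antisymm (LT_le h1 h2 m) ?_
  obtain ⟨W, hW, h0, h⟩ := exists_ge h1 m hm
  exact le_iSup_of_le W (le_iSup_of_le hW (le_iSup_of_le h0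
    (h.trans (ENNReal.div_le_div_right (lowest_le γ W) _))))

theorem LOne_eq {γ : ℝ} (h1 : 1 / 2 < γ) (h2 : γ < 3 / 2) :
    LOne γ = ENNReal.ofReal (2 * ((γ - 1 / 2) / (γ + 1 / 2)) ^ (γ - 1 / 2) * Lcl γ) := by
  refine le_antisymm (le_trans ?_ (LT_le h1 h2 1)) ?_
  · exact iSup_mono fun W => iSup_mono fun _ => iSup_mono fun _ =>
      ENNReal.div_le_div_right (lowest_le γ W) _
  · obtain ⟨W, hW, h0, h⟩ := exists_ge h1 1 le_rfl
    exact le_iSup_of_le W (le_iSup_of_le hW (le_iSup_of_le h0 h))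

end Vale.Agent.P371
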