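import Vale.Agent.P371.DK

open Matrix Filter Topology
open scoped Matrix.Norms.L2Operator MatrixOrder ComplexOrder

set_option linter.unusedSectionVars false

namespace Vale.Agent.P371

variable {n : Type} [Fintype n] [DecidableEq n]

noncomputable def cdL (U : Matrix n n ℂ) : (n → ℂ) →L[ℂ] Matrix n n ℂ :=
  LinearMap.toContinuousLinearMap
    { toFun := fun v => U * diagonal v * Uᴴ
      map_add' := fun v w => by
        have : diagonal (v + w) = diagonal v + diagonal w := by simp [diagonal_add]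
        rw [this, Matrix.mul_add, Matrix.add_mul]
      map_smul' := fun c v => by
        rw [diagonal_smul]; simp }

lemma cdL_apply (U : Matrix n n ℂ) (v : n → ℂ) : cdL U v = U * diagonal v * Uᴴ := rfl

noncomputable def trL : Matrix n n ℂ →L[ℂ] ℂ :=
  LinearMap.toContinuousLinearMap (traceLinearMap n ℂ ℂ)

lemma trL_apply (A : Matrix n n ℂ) : trL A = A.trace := rfl

/-- complex powers -/
noncomputable def pw (U : Matrix n n ℂ) (l : n → ℝ) (z : ℂ) : Matrix n n ℂ :=
  cdL U fun i => Complex.exp (z * Real.log (l i))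

namespace Spec
variable {A U : Matrix n n ℂ} {l : n → ℝ}

lemma pw_add (h : Spec A U l) (z w : ℂ) : pw U l z * pw U l w = pw U l (z + w) := by
  simp only [pw, cdL_apply, Matrix.mul_assoc]
  rw [← Matrix.mul_assoc Uᴴ, h.h2, Matrix.one_mul, ← Matrix.mul_assoc (diagonal _),
    diagonal_mul_diagonal]
  congr 3; ext i; rw [← Complex.exp_add]; congr 1; ring

lemma pw_zero (h : Spec A U l) : pw U l 0 = 1 := by simp [pw, cdL_apply, h.h1]

lemma pw_one (h : Spec A U l) (hA : A.PosDef) : pw U l 1 = A := by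
  rw [h.eq, pw, cdL_apply, dg]
  congr 3; ext i
  rw [one_mul, ← Complex.ofReal_exp, Real.exp_log (h.pos hA i)]

lemma hasDerivAt_pw (h : Spec A U l) (z : ℂ) :
    HasDerivAt (pw U l) (pw U l z * cfc Real.log A) z := by
  have : HasDerivAt (fun (z : ℂ) i => Complex.exp (z * Real.log (l i)))
      (fun i => Complex.exp (z * Real.log (l i)) * Real.log (l i)) z :=
    hasDerivAt_pi.mpr fun i => by
      simpa using ((hasDerivAt_id z).mul_const (Real.log (l i) : ℂ)).cexp
  refine HasDerivAt.congr_deriv ((cdL U).hasFDerivAt.comp_hasDerivAt z this) ?_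
  simp only [pw, cdL_apply, h.fc, dg, Matrix.mul_assoc]
  rw [← Matrix.mul_assoc Uᴴ, h.h2, Matrix.one_mul, ← Matrix.mul_assoc (diagonal _),
    diagonal_mul_diagonal]

end Spec

lemma pw_star (U : Matrix n n ℂ) (l : n → ℝ) (z : ℂ) :
    (pw U l z)ᴴ = pw U l (starRingEnd ℂ z) := by
  simp only [pw, cdL_apply, conjTranspose_mul, conjTranspose_conjTranspose, diagonal_conjTranspose,
    Matrix.mul_assoc]
  congr 3; ext i
  simp [← Complex.exp_conj]

lemma pw_bound (U : Matrix n n ℂ) (l : n → ℝ) :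
    ∃ C, 0 ≤ C ∧ ∀ z : ℂ, |z.re| ≤ 1 → ‖pw U l z‖ ≤ C := by
  refine ⟨‖cdL U‖ * ∑ i, Real.exp |Real.log (l i)|, by positivity, fun z hz => ?_⟩
  refine ((cdL U).le_opNorm _).trans (mul_le_mul_of_nonneg_left ?_ (norm_nonneg _))
  refine (pi_norm_le_iff_of_nonneg (by positivity)).mpr fun i => ?_
  refine le_trans ?_ (Finset.single_le_sum (f := fun i => Real.exp |Real.log (l i)|)
    (fun _ _ => by positivity) (Finset.mem_univ i))
  rw [Complex.norm_exp, Real.exp_le_exp, mul_comm, Complex.re_ofReal_mul]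
  calc _ ≤ |Real.log (l i) * z.re| := le_abs_self _
    _ = |Real.log (l i)| * |z.re| := abs_mul _ _
    _ ≤ _ := mul_le_of_le_one_right (abs_nonneg _) hz

lemma norm_trace_mul_le (A B : Matrix n n ℂ) :
    2 * ‖(A * B).trace‖ ≤ rt (A * Aᴴ) + rt (Bᴴ * B) := by
  have e1 : rt (A * Aᴴ) = ∑ i, ∑ j, ‖A i j‖ ^ 2 := by
    have := rt_star_mul_self Aᴴ
    simpa using this
  rw [e1, rt_star_mul_self, ← Finset.sum_add_distrib]
  simp only [trace, diag_apply, mul_apply]
  refine (mul_le_mul_of_nonneg_left (norm_sum_le _ _) zero_le_two).trans ?_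
  rw [Finset.mul_sum]
  refine Finset.sum_le_sum fun i _ => ?_
  refine (mul_le_mul_of_nonneg_left (norm_sum_le _ _) zero_le_two).trans ?_
  rw [Finset.mul_sum, ← Finset.sum_add_distrib]
  refine Finset.sum_le_sum fun j _ => ?_
  rw [norm_mul]; nlinarith [sq_nonneg (‖A i j‖ - ‖B j i‖)]

open Complex.HadamardThreeLines in
/-- Golden-Thompson inequality in the Gibbs variational form. -/
theorem gibbs_gt {R X Y : Matrix n n ℂ} (hR : R.PosDef) (hX : X.PosDef) (hY : Y.PosDef) :
    rt (R * (cfc Real.log X + cfc Real.log Y - cfc Real.log R)) ≤ rt (X * Y) - rt R := by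
  obtain ⟨U, r, h1⟩ := exists_spec hR.1
  obtain ⟨V, x, h2⟩ := exists_spec hX.1
  obtain ⟨W, y, h3⟩ := exists_spec hY.1
  set f : ℂ → ℂ := fun z =>
    trL (pw U r (1 - z) * pw V x (z / 2) * pw W y z * pw V x (z / 2)) with hf
  have hd : ∀ z, ∃ f', HasDerivAt f f' z ∧ (z = 0 →
      f'.re = rt (R * (cfc Real.log X + cfc Real.log Y - cfc Real.log R))) := by
    intro z
    have d1 := (h1.hasDerivAt_pw (1 - z)).scomp z ((hasDerivAt_id z).const_sub 1)
    have d2 := (h2.hasDerivAt_pw (z / 2)).scomp z ((hasDerivAt_id z).div_const 2)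
    have d3 := h3.hasDerivAt_pw z
    refine ⟨_, trL.hasFDerivAt.comp_hasDerivAt z (((d1.mul d2).mul d3).mul d2), fun hz => ?_⟩
    subst hz
    simp only [Function.comp, id, Pi.mul_apply, sub_zero, zero_div, h1.pw_one hR, h2.pw_zero,
      h3.pw_zero, Matrix.mul_one, Matrix.one_mul, trL_apply]
    change rt _ = _
    congr 1
    simp only [Matrix.mul_add, Matrix.mul_sub, Matrix.mul_smul]
    module
  have hdiff : Differentiable ℂ f := fun z => (hd z).choose_spec.1.differentiableAt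
  obtain ⟨C1, p1, b1⟩ := pw_bound U r
  obtain ⟨C2, p2, b2⟩ := pw_bound V x
  obtain ⟨C3, p3, b3⟩ := pw_bound W y
  have hB : BddAbove ((norm ∘ f) '' verticalClosedStrip 0 1) := by
    refine ⟨‖(trL : Matrix n n ℂ →L[ℂ] ℂ)‖ * (C1 * C2 * C3 * C2), ?_⟩
    rintro _ ⟨z, hz, rfl⟩
    have hz' : 0 ≤ z.re ∧ z.re ≤ 1 := hz
    refine ((trL (n := n)).le_opNorm _).trans
      (mul_le_mul_of_nonneg_left ?_ (trL (n := n)).opNorm_nonneg)
    have q1 := b1 (1 - z) (by simp [abs_le]; constructor <;> linarith [hz'.1, hz'.2])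
    have q2 := b2 (z / 2) (by simp [abs_le]; constructor <;> linarith [hz'.1, hz'.2])
    have q3 := b3 z (by simp [abs_le]; constructor <;> linarith [hz'.1, hz'.2])
    refine (norm_mul_le _ _).trans (mul_le_mul ?_ q2 (norm_nonneg _) (by positivity))
    refine (norm_mul_le _ _).trans (mul_le_mul ?_ q3 (norm_nonneg _) (by positivity))
    exact (norm_mul_le _ _).trans (mul_le_mul q1 q2 (norm_nonneg _) p1)
  have cj : ∀ z : ℂ, starRingEnd ℂ z = 2 * z.re - z := fun z => by
    apply Complex.ext <;> simp; ring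
  have ha : ∀ z ∈ Complex.re ⁻¹' {0}, ‖f z‖ ≤ rt R := by
    intro z hz
    have hz' : z.re = 0 := hz
    have e : f z = (pw U r (1 / 2 - z) *
        (pw V x (z / 2) * pw W y z * pw V x (z / 2) * pw U r (1 / 2))).trace := by
      simp only [hf, trL_apply]
      rw [show (1 - z) = 1 / 2 + (1 / 2 - z) by ring, ← h1.pw_add]
      simp only [Matrix.mul_assoc]
      rw [trace_mul_comm]; simp only [Matrix.mul_assoc]
    have := norm_trace_mul_le (pw U r (1 / 2 - z))
      (pw V x (z / 2) * pw W y z * pw V x (z / 2) * pw U r (1 / 2))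
    have c1 : starRingEnd ℂ (z / 2) + z / 2 = 0 := by rw [cj]; simp [hz']
    have c2 : starRingEnd ℂ z + z = 0 := by rw [cj]; simp [hz']
    have c3 : 1 / 2 - z + starRingEnd ℂ (1 / 2 - z) = 1 := by rw [cj]; simp [hz']
    have c4 : starRingEnd ℂ (1 / 2) + 1 / 2 = 1 := by rw [cj]; simp
    simp only [conjTranspose_mul, pw_star, Matrix.mul_assoc] at this
    rw [← Matrix.mul_assoc (pw V x _) (pw V x _), h2.pw_add, c1, h2.pw_zero, Matrix.one_mul,
      ← Matrix.mul_assoc (pw W y _) (pw W y _), h3.pw_add, c2, h3.pw_zero, Matrix.one_mul,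
      ← Matrix.mul_assoc (pw V x _) (pw V x _), h2.pw_add, c1, h2.pw_zero, Matrix.one_mul,
      h1.pw_add, h1.pw_add, c3, c4, h1.pw_one hR] at this
    rw [e]; simp only [Matrix.mul_assoc]; linarith
  have hb : ∀ z ∈ Complex.re ⁻¹' {1}, ‖f z‖ ≤ rt (X * Y) := by
    intro z hz
    have hz' : z.re = 1 := hz
    have e : f z = ((pw U r (1 - z) * pw V x (z / 2) * pw W y (z - 1 / 2)) *
        (pw W y (1 / 2) * pw V x (z / 2))).trace := by
      simp only [hf, trL_apply, Matrix.mul_assoc]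
      rw [← Matrix.mul_assoc (pw W y _) (pw W y _), h3.pw_add]
      simp
    have := norm_trace_mul_le (pw U r (1 - z) * pw V x (z / 2) * pw W y (z - 1 / 2))
      (pw W y (1 / 2) * pw V x (z / 2))
    have c1 : starRingEnd ℂ (z / 2) + z / 2 = 1 := by rw [cj]; simp [hz']
    have c1' : z / 2 + starRingEnd ℂ (z / 2) = 1 := by rw [add_comm, c1]
    have c2 : starRingEnd ℂ (1 - z) + (1 - z) = 0 := by rw [cj]; simp [hz']
    have c3 : z - 1 / 2 + starRingEnd ℂ (z - 1 / 2) = 1 := by rw [cj]; simp [hz']; norm_num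
    have c4 : starRingEnd ℂ (1 / 2) + 1 / 2 = 1 := by rw [cj]; simp
    rw [← e] at this
    simp only [conjTranspose_mul, pw_star, Matrix.mul_assoc] at this
    rw [← Matrix.mul_assoc (pw W y _) (pw W y _), h3.pw_add, c3,
      ← Matrix.mul_assoc (pw W y _) (pw W y _), h3.pw_add, c4, h3.pw_one hY,
      rt_comm (pw U r _), rt_comm (pw V x (starRingEnd ℂ _))] at this
    simp only [Matrix.mul_assoc] at this
    rw [h1.pw_add, c2, h1.pw_zero, Matrix.mul_one, h2.pw_add, c1', rt_comm (pw V x _),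
      Matrix.mul_assoc, h2.pw_add, c1, h2.pw_one hX, rt_comm Y] at this
    linarith
  have hR0 : 0 ≤ rt R := rt_nonneg hR.posSemidef
  have hXY : 0 ≤ rt (X * Y) := rt_mul_nonneg hX.posSemidef hY.posSemidef
  have key : ∀ θ : ℝ, 0 ≤ θ → θ ≤ 1 → (f θ).re ≤ (1 - θ) * rt R + θ * rt (X * Y) := by
    intro θ h0 h1'
    have := norm_le_interp_of_mem_verticalClosedStrip' (f := f) (z := θ) zero_lt_one
      (by exact ⟨by simpa using h0, by simpa using h1'⟩) hdiff.diffContOnCl hB ha hb
    simp only [Complex.ofReal_re, sub_zero, div_one] at this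
    exact (Complex.re_le_norm _).trans (this.trans
      (Real.geom_mean_le_arith_mean2_weighted (by linarith) h0 hR0 hXY (by ring)))
  obtain ⟨f', hf', e⟩ := hd 0
  rw [← e rfl]
  have f0 : (f 0).re = rt R := by
    simp [hf, trL_apply, h1.pw_one hR, h2.pw_zero, h3.pw_zero, rt]
  have hre : HasDerivAt (fun θ : ℝ => (f θ).re) f'.re 0 := by
    have := HasDerivAt.real_of_complex (e := f) (e' := f') (z := 0) (by simpa using hf')
    exact this
  have hs := (hasDerivAt_iff_tendsto_slope_zero.mp hre).mono_left (nhdsGT_le_nhdsNE 0)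
  refine le_of_tendsto hs ?_
  filter_upwards [Ioo_mem_nhdsGT (zero_lt_one' ℝ)] with θ hθ
  have := key θ hθ.1.le hθ.2.le
  simp only [zero_add, Complex.ofReal_zero, f0, smul_eq_mul]
  rw [inv_mul_le_iff₀ hθ.1]; linarith

end Vale.Agent.P371
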