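import Vale.Agent.P371.LowerA

/-! The extremal one-bound-state potential. -/

open MeasureTheory Filter Set Matrix
open scoped Topology ComplexOrder

namespace Vale.Agent.P371

namespace Lo

lemma memLp_single {m : ℕ} (i : Fin m) {g : ℝ → ℝ} (hg : MemLp g 2) :
    MemLp (fun x => (Pi.single i (g x : ℂ) : Fin m → ℂ)) 2 := by
  rw [memLp_pi_iff]
  intro j
  by_cases h : j = i
  · subst h; simp only [Pi.single_eq_same]; exact hg.ofReal
  · simp [h]

lemma memLp_of_le {ν : ℝ} (hν : 0 < ν) {g : ℝ → ℝ} (hg : Continuous g) (C : ℝ)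
    (h : ∀ x, |g x| ≤ C * Real.cosh x ^ (-ν)) : MemLp g 2 := by
  rw [memLp_two_iff_integrable_sq hg.aestronglyMeasurable]
  refine Integrable.mono' ((integrable_cosh (show 0 < 2 * ν by linarith)).const_mul (C ^ 2))
    (hg.pow 2).aestronglyMeasurable (Eventually.of_forall fun x => ?_)
  rw [Real.norm_of_nonneg (sq_nonneg _), ← sq_abs, show -(2 * ν) = -ν * 2 by ring,
    Real.rpow_mul (Real.cosh_pos x).le, Real.rpow_two, ← mul_pow]
  exact pow_le_pow_left₀ (abs_nonneg _) (h x) 2

end Lo

open Lo in
theorem exists_extremal {γ : ℝ} (h1 : 1 / 2 < γ) (m : ℕ) (hm : 1 ≤ m) :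
    ∃ (W : ℝ → Matrix (Fin m) (Fin m) ℂ) (lam : ℝ) (ψ : H1 m), IsPotential γ W ∧
      ¬ W =ᵐ[volume] 0 ∧ lam < 0 ∧ IsEigen W lam ψ ∧ ip ψ.f ψ.f = 1 ∧
      0 < ∫ x, trPow (γ + 1 / 2) (W x) ∧
      |lam| ^ γ = 2 * ((γ - 1 / 2) / (γ + 1 / 2)) ^ (γ - 1 / 2) * Lcl γ *
        ∫ x, trPow (γ + 1 / 2) (W x) := by
  have hb := beta_eq h1
  obtain ⟨ν, rfl⟩ : ∃ ν, γ = ν + 1 / 2 := ⟨γ - 1 / 2, by ring⟩
  have hν : 0 < ν := by linarith
  rw [add_sub_cancel_right, show ν + 1 / 2 + 1 / 2 = ν + 1 by ring] at hb ⊢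
  let i : Fin m := ⟨0, hm⟩
  have hch := Real.cosh_pos
  have hc0 : Continuous fun x => Real.cosh x ^ (-ν) :=
    Real.continuous_cosh.rpow_const fun x => Or.inl (hch x).ne'
  have hs : Continuous fun x => 1 / Real.cosh x ^ 2 :=
    continuous_const.div (Real.continuous_cosh.pow 2) fun x => by have := hch x; positivity
  have ht : Continuous Real.tanh := continuous_iff_continuousAt.2 fun x =>
    (hasDerivAt_tanh x).continuousAt
  have hsq : ∀ x, (Real.cosh x ^ (-ν)) ^ 2 = Real.cosh x ^ (-(2 * ν)) := fun x => by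
    rw [show -(2 * ν) = -ν * 2 by ring, Real.rpow_mul (hch x).le, Real.rpow_two]
  set I := ∫ x, Real.cosh x ^ (-(2 * ν)) with hI
  have hI0 : 0 < I := integral_pos_of_integrable_nonneg_nonzero (x := 0)
    (Real.continuous_cosh.rpow_const fun x => Or.inl (hch x).ne')
    (integrable_cosh (by linarith)) (fun x => by have := hch x; positivity)
    (by have := hch 0; positivity)
  set c := 1 / √I with hc
  have hc' : 0 < c := by positivity
  set w : ℝ → ℝ := fun x => ν * (ν + 1) * (1 / Real.cosh x ^ 2) with hw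
  have hw0 : ∀ x, 0 < w x := fun x => by have := hch x; simp only [hw]; positivity
  have hwc : Continuous w := continuous_const.mul hs
  have hw1 : ∀ x, w x ≤ ν * (ν + 1) := fun x => by
    refine mul_le_of_le_one_right (by positivity) ?_
    rw [div_le_one (by have := hch x; positivity)]
    exact one_le_pow₀ (Real.one_le_cosh x)
  set g : ℝ → ℝ := fun x => c * Real.cosh x ^ (-ν) with hg
  set g1 : ℝ → ℝ := fun x => -ν * Real.tanh x * g x with hg1
  set g2 : ℝ → ℝ := fun x => (ν ^ 2 - w x) * g x with hg2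
  have hg0 : ∀ x, 0 < g x := fun x => by have := hch x; simp only [hg]; positivity
  have d1 : ∀ x, HasDerivAt g (g1 x) x := fun x => by
    have := ((Real.hasDerivAt_cosh x).rpow_const (p := -ν) (Or.inl (hch x).ne')).const_mul c
    refine this.congr_deriv ?_
    simp only [hg1, hg]
    rw [Real.rpow_sub_one (hch x).ne', Real.tanh_eq_sinh_div_cosh]
    ring
  have d2 : ∀ x, HasDerivAt g1 (g2 x) x := fun x => by
    have := ((hasDerivAt_tanh x).const_mul (-ν)).mul (d1 x)
    refine this.congr_deriv ?_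
    simp only [hg1, hg2, hw]
    rw [← one_sub_tanh]
    ring
  have cg : Continuous g := continuous_const.mul hc0
  have cg1 : Continuous g1 := (continuous_const.mul ht).mul cg
  have cg2 : Continuous g2 := (continuous_const.sub hwc).mul cg
  have m0 : MemLp g 2 := memLp_of_le hν cg c fun x => (abs_of_pos (hg0 x)).le
  have m1 : MemLp g1 2 := memLp_of_le hν cg1 (ν * c) fun x => by
    simp only [hg1]
    rw [abs_mul, abs_mul, abs_neg, abs_of_pos hν, abs_of_pos (hg0 x), mul_assoc ν c]
    have := (Real.abs_tanh_lt_one x).le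
    have := hg0 x
    calc _ ≤ ν * 1 * g x := by gcongr
      _ = _ := by rw [mul_one]
  have m2 : MemLp g2 2 := memLp_of_le hν cg2 ((ν ^ 2 + ν * (ν + 1)) * c) fun x => by
    simp only [hg2]
    rw [abs_mul, abs_of_pos (hg0 x), mul_assoc _ c]
    refine mul_le_mul_of_nonneg_right ?_ (hg0 x).le
    have := hw0 x
    have := hw1 x
    rw [abs_le]; constructor <;> nlinarith
  have m3 : MemLp (fun x => w x * g x) 2 := memLp_of_le hν (hwc.mul cg) (ν * (ν + 1) * c) fun x => by
    rw [abs_of_pos (mul_pos (hw0 x) (hg0 x)), mul_assoc _ c]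
    exact mul_le_mul_of_nonneg_right (hw1 x) (hg0 x).le
  let ψ : H1 m :=
    { f := fun x => Pi.single i (g x : ℂ)
      d := fun x => Pi.single i (g1 x : ℂ)
      f_L2 := memLp_single i m0
      d_L2 := memLp_single i m1
      primitive := fun x y => by
        let L : ℝ →L[ℝ] (Fin m → ℂ) := (ContinuousLinearMap.single ℝ (fun _ => ℂ) i).comp
          Complex.ofRealCLM
        have := L.intervalIntegral_comp_comm (cg1.intervalIntegrable (μ := volume) x y)
        rw [intervalIntegral.integral_eq_sub_of_hasDerivAt (fun x _ => d1 x)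
          (cg1.intervalIntegrable x y), map_sub] at this
        exact this.symm }
  have htr : ∀ x, trPow (ν + 1) (diagonal (Pi.single i (w x : ℂ))) =
      (ν * (ν + 1)) ^ (ν + 1) * (1 / Real.cosh x ^ 2) ^ (ν + 1) := fun x => by
    rw [trPow_single i (by linarith) (hw0 x), Real.mul_rpow (by positivity) (by positivity)]
  have hint : ∫ x, trPow (ν + 1) (diagonal (Pi.single i (w x : ℂ))) =
      (ν * (ν + 1)) ^ (ν + 1) * (√Real.pi * Real.Gamma (ν + 1) / Real.Gamma (ν + 1 / 2 + 1)) := by
    simp only [htr]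
    rw [integral_const_mul, integral_sech, hb]
  have p1 := Real.Gamma_pos_of_pos (show 0 < ν + 1 / 2 + 1 by linarith)
  have p2 := Real.Gamma_pos_of_pos (show 0 < ν + 1 by linarith)
  have p3 := Real.sqrt_pos.2 Real.pi_pos
  refine ⟨fun x => diagonal (Pi.single i (w x : ℂ)), -ν ^ 2, ψ, ⟨?_, ?_, ?_⟩, ?_, ?_, ?_, ?_, ?_, ?_⟩
  · intro a b
    by_cases hab : a = b
    · subst hab
      by_cases ha : a = i
      · subst ha
        simp only [diagonal_apply_eq, Pi.single_eq_same]
        exact Complex.measurable_ofReal.comp hwc.measurable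
      · simp [ha]
    · simp [hab]
  · intro x
    refine PosSemidef.diagonal fun j => ?_
    by_cases h : j = i
    · subst h; simpa using (hw0 x).le
    · simp [h]
  · rw [show ν + 1 / 2 + 1 / 2 = ν + 1 by ring]
    simp only [htr]
    refine Integrable.const_mul ?_ _
    refine (integrable_cosh (a := 2 * (ν + 1)) (by linarith)).congr
      (Eventually.of_forall fun x => ?_)
    simp only
    rw [show -(2 * (ν + 1)) = -2 * (ν + 1) by ring, Real.rpow_mul (hch x).le,
      Real.rpow_neg (hch x).le, Real.rpow_two, one_div]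
  · intro h
    obtain ⟨x, hx⟩ := h.exists
    have := congrFun (congrFun hx i) i
    simp at this
    exact (hw0 x).ne' this
  · have : 0 < ν ^ 2 := by positivity
    linarith
  · intro φ
    have hF : MemLp (fun x => φ.f x i) 2 := memLp_pi_iff.1 φ.f_L2 i
    have hD : MemLp (fun x => φ.d x i) 2 := memLp_pi_iff.1 φ.d_L2 i
    have hl : LocallyIntegrable φ.d volume := φ.d_L2.locallyIntegrable one_le_two
    have hI : ∀ a b, IntervalIntegrable φ.d volume a b := fun a b => intervalIntegrable_iff.2 <|
      (hl.integrableOn_isCompact isCompact_uIcc).mono_set uIoc_subset_uIcc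
    have key := partsC hF hD m1 m2 (fun x y => by
      have := (ContinuousLinearMap.proj (R := ℝ) (φ := fun _ : Fin m => ℂ) i
        ).intervalIntegral_comp_comm (hI x y)
      rw [← φ.primitive] at this
      exact this.symm) d2 cg2
    have i1 : Integrable fun t => star (φ.d t i) * (g1 t : ℂ) := hD.star.integrable_mul m1.ofReal
    have i2 : Integrable fun t => star (φ.f t i) * (g t : ℂ) := hF.star.integrable_mul m0.ofReal
    have i3 : Integrable fun t => star (φ.f t i) * ((w t * g t : ℝ) : ℂ) :=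
      hF.star.integrable_mul m3.ofReal
    have e : ∀ t, star (φ.d t i) * (g1 t : ℂ) + star (φ.f t i) * (g2 t : ℂ) =
        star (φ.d t i) * (g1 t : ℂ) - star (φ.f t i) * ((w t * g t : ℝ) : ℂ) +
          (ν : ℂ) ^ 2 * (star (φ.f t i) * (g t : ℂ)) := fun t => by
      simp only [hg2]; push_cast; ring
    simp only [e] at key
    have i4 : Integrable fun t => star (φ.d t i) * (g1 t : ℂ) -
      star (φ.f t i) * ((w t * g t : ℝ) : ℂ) := i1.sub i3
    rw [integral_add i4 (i2.const_mul _), integral_sub i1 i3, integral_const_mul] at key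
    simp only [form, ip, ψ, diagonal_mulVec_single, dotProduct_single, Pi.star_apply,
      Pi.single_eq_same]
    push_cast at key ⊢
    linear_combination key
  · simp only [ip, ψ, dotProduct_single, Pi.star_apply, Pi.single_eq_same]
    have : ∀ x, star (g x : ℂ) * g x = ((c ^ 2 * Real.cosh x ^ (-(2 * ν)) : ℝ) : ℂ) := fun x => by
      rw [← hsq, ← mul_pow]
      simp [hg, sq]
    simp only [this]
    rw [integral_complex_ofReal, integral_const_mul, ← hI, hc, div_pow, Real.sq_sqrt hI0.le]
    simp [hI0.ne']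
  · rw [hint]; positivity
  · rw [hint, Lcl, abs_neg, abs_of_pos (by positivity),
      show ν + 1 / 2 + 3 / 2 = (ν + 1) + 1 by ring, Real.Gamma_add_one (s := ν + 1) (by linarith),
      Real.div_rpow hν.le (by linarith), Real.mul_rpow hν.le (by linarith),
      Real.rpow_add_one hν.ne', Real.rpow_add_one (by linarith), ← Real.rpow_two,
      ← Real.rpow_mul hν.le, show 2 * (ν + 1 / 2) = ν + ν + 1 by ring, Real.rpow_add_one hν.ne',
      Real.rpow_add hν]
    have : 0 < (ν + 1) ^ ν := by positivity
    field_simp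

end Vale.Agent.P371
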