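import Vale.Agent.P371.Defs

/-! Analytic lemmas for the extremal potential. -/

open MeasureTheory Filter Set
open scoped Topology

namespace Vale.Agent.P371

theorem beta_eq {γ : ℝ} (h1 : 1 / 2 < γ) : ∫ u in (-1 : ℝ)..1, (1 - u ^ 2) ^ (γ - 1 / 2) =
    √Real.pi * Real.Gamma (γ + 1 / 2) / Real.Gamma (γ + 1) := by
  obtain ⟨ν, rfl⟩ : ∃ ν, γ = ν + 1 / 2 := ⟨γ - 1 / 2, by ring⟩
  have hν : 0 < ν := by linarith
  rw [add_sub_cancel_right, show ν + 1 / 2 + 1 / 2 = ν + 1 by ring,
    show ν + 1 / 2 + 1 = ν + 1 + 1 / 2 by ring]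
  have h2 := intervalIntegral.smul_integral_comp_mul_sub (a := 0) (b := 1)
    (fun u : ℝ => (1 - u ^ 2) ^ ν) 2 1
  norm_num at h2
  rw [← h2]
  have h3 : ∫ x in (0 : ℝ)..1, (1 - (2 * x - 1) ^ 2) ^ ν =
      4 ^ ν * ∫ x in (0 : ℝ)..1, x ^ ν * (1 - x) ^ ν := by
    rw [← intervalIntegral.integral_const_mul]
    refine intervalIntegral.integral_congr fun x hx => ?_
    rw [uIcc_of_le zero_le_one] at hx
    have h4 : 0 ≤ 1 - x := by linarith [hx.2]
    rw [← Real.mul_rpow hx.1 h4, ← Real.mul_rpow (by norm_num) (mul_nonneg hx.1 h4)]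
    congr 1; ring
  have h5 : ∫ x in (0 : ℝ)..1, x ^ ν * (1 - x) ^ ν =
      Real.Gamma (ν + 1) * Real.Gamma (ν + 1) / Real.Gamma (2 * (ν + 1)) := by
    have h6 := Complex.betaIntegral_eq_Gamma_mul_div ((ν + 1 : ℝ) : ℂ) ((ν + 1 : ℝ) : ℂ)
      (by simp; linarith) (by simp; linarith)
    rw [← Complex.ofReal_add, Complex.Gamma_ofReal, Complex.Gamma_ofReal] at h6
    rw [← Complex.ofReal_inj, two_mul]
    push_cast at h6 ⊢
    rw [← h6, Complex.betaIntegral, ← intervalIntegral.integral_ofReal]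
    refine intervalIntegral.integral_congr fun x hx => ?_
    rw [uIcc_of_le zero_le_one] at hx
    have h4 : 0 ≤ 1 - x := by linarith [hx.2]
    simp only [add_sub_cancel_right]
    rw [Complex.ofReal_mul, Complex.ofReal_cpow hx.1, Complex.ofReal_cpow h4]
    push_cast
    rfl
  rw [h3, h5]
  have h7 := Real.Gamma_mul_Gamma_add_half (ν + 1)
  have p1 := Real.Gamma_pos_of_pos (show 0 < ν + 1 + 1 / 2 by linarith)
  have p2 := Real.Gamma_pos_of_pos (show 0 < 2 * (ν + 1) by linarith)
  have h8 : (4 : ℝ) ^ ν * 2 ^ (1 - 2 * (ν + 1)) * 2 = 1 := by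
    rw [show (4 : ℝ) = 2 ^ (2 : ℝ) by norm_num, ← Real.rpow_mul zero_le_two,
      ← Real.rpow_add two_pos, show 2 * ν + (1 - 2 * (ν + 1)) = -1 by ring, Real.rpow_neg_one]
    norm_num
  generalize Real.Gamma (ν + 1 + 1 / 2) = A at *
  generalize Real.Gamma (2 * (ν + 1)) = B at *
  field_simp
  linear_combination 2 * 4 ^ ν * h7 + B * √Real.pi * h8

namespace Lo

lemma integral_zero {G K : ℝ → ℝ} (hG : Integrable G) (hK : Integrable K)
    (h : ∀ a b, G b - G a = ∫ t in a..b, K t) : ∫ t, K t = 0 := by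
  have t1 : Tendsto G atTop (𝓝 (G 0 + ∫ t in Ioi 0, K t)) := by
    have := (intervalIntegral_tendsto_integral_Ioi 0 hK.integrableOn tendsto_id).const_add (G 0)
    refine this.congr fun b => ?_
    simp only [id, ← h]; ring
  have t2 : Tendsto G atBot (𝓝 (G 0 - ∫ t in Iic 0, K t)) := by
    have := (intervalIntegral_tendsto_integral_Iic 0 hK.integrableOn tendsto_id).const_sub (G 0)
    refine this.congr fun b => ?_
    simp only [id, ← h]; ring
  have e1 : G 0 + ∫ t in Ioi 0, K t = 0 := by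
    refine IntegrableAtFilter.eq_zero_of_tendsto (hG.integrableAtFilter _) ?_ t1
    intro s hs
    rcases mem_atTop_sets.1 hs with ⟨b, hb⟩
    rw [← top_le_iff, ← Real.volume_Ici (a := b)]
    exact measure_mono hb
  have e2 : G 0 - ∫ t in Iic 0, K t = 0 := by
    refine IntegrableAtFilter.eq_zero_of_tendsto (hG.integrableAtFilter _) ?_ t2
    intro s hs
    rcases mem_atBot_sets.1 hs with ⟨b, hb⟩
    rw [← top_le_iff, ← Real.volume_Iic (a := b)]
    exact measure_mono hb
  rw [← intervalIntegral.integral_Iic_add_Ioi hK.integrableOn hK.integrableOn (b := 0)]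
  linarith

lemma parts {F D h h' : ℝ → ℝ} (hF : MemLp F 2) (hD : MemLp D 2) (hh : MemLp h 2)
    (hh' : MemLp h' 2) (hFD : ∀ x y, F y - F x = ∫ t in x..y, D t)
    (hd : ∀ x, HasDerivAt h (h' x) x) (hc : Continuous h') :
    ∫ t, (D t * h t + F t * h' t) = 0 := by
  refine integral_zero (G := fun t => F t * h t) (hF.integrable_mul hh)
    ((hD.integrable_mul hh).add (hF.integrable_mul hh')) fun a b => ?_
  have hl : LocallyIntegrable D volume := hD.locallyIntegrable one_le_two
  have hI : IntervalIntegrable D volume a b := intervalIntegrable_iff.2 <|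
    (hl.integrableOn_isCompact isCompact_uIcc).mono_set uIoc_subset_uIcc
  have e : F = fun x => F a + ∫ t in a..x, D t := by funext x; rw [← hFD]; ring
  have a1 : AbsolutelyContinuousOnInterval F a b := by
    rw [e]
    exact (contDiffOn_const.absolutelyContinuousOnInterval).add
      (hI.absolutelyContinuousOnInterval_intervalIntegral (by simp))
  have hdh : deriv h = h' := funext fun x => (hd x).deriv
  have a2 : AbsolutelyContinuousOnInterval h a b :=
    (contDiff_one_iff_deriv.2 ⟨fun x => (hd x).differentiableAt, hdh ▸ hc⟩).contDiffOn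
      |>.absolutelyContinuousOnInterval
  rw [← a1.integral_deriv_mul_eq_sub a2, hdh]
  refine intervalIntegral.integral_congr_ae ?_
  filter_upwards [LocallyIntegrable.ae_hasDerivAt_integral hl] with x hx _
  have : deriv F x = D x := by
    rw [e]; exact ((hx a).const_add (F a)).deriv
  rw [this]

lemma partsC {F D : ℝ → ℂ} {h h' : ℝ → ℝ} (hF : MemLp F 2) (hD : MemLp D 2) (hh : MemLp h 2)
    (hh' : MemLp h' 2) (hFD : ∀ x y, F y - F x = ∫ t in x..y, D t)
    (hd : ∀ x, HasDerivAt h (h' x) x) (hc : Continuous h') :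
    ∫ t, (star (D t) * h t + star (F t) * h' t) = 0 := by
  have hl : LocallyIntegrable D volume := hD.locallyIntegrable one_le_two
  have hI : ∀ a b, IntervalIntegrable D volume a b := fun a b => intervalIntegrable_iff.2 <|
    (hl.integrableOn_isCompact isCompact_uIcc).mono_set uIoc_subset_uIcc
  have key : ∀ L : ℂ →L[ℝ] ℝ, ∫ t, (L (D t) * h t + L (F t) * h' t) = 0 := fun L =>
    parts (L.comp_memLp' hF) (L.comp_memLp' hD) hh hh' (fun x y => by
      rw [← map_sub, hFD, L.intervalIntegral_comp_comm (hI x y)]) hd hc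
  have hi : Integrable fun t => star (D t) * (h t : ℂ) + star (F t) * h' t :=
    (hD.star.integrable_mul hh.ofReal).add (hF.star.integrable_mul hh'.ofReal)
  apply Complex.ext
  · rw [← Complex.reCLM_apply, ← Complex.reCLM.integral_comp_comm hi]
    simpa using key Complex.reCLM
  · rw [← Complex.imCLM_apply, ← Complex.imCLM.integral_comp_comm hi]
    simpa using key (-Complex.imCLM)

lemma integrable_cosh {a : ℝ} (ha : 0 < a) : Integrable fun x => Real.cosh x ^ (-a) := by
  have hc : Continuous fun x => Real.cosh x ^ (-a) :=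
    Real.continuous_cosh.rpow_const fun x => Or.inl (Real.cosh_pos x).ne'
  have hb : ∀ x y : ℝ, Real.exp y ≤ 2 * Real.cosh x →
      ‖Real.cosh x ^ (-a)‖ ≤ 2 ^ a * Real.exp (-a * y) := by
    intro x y h
    rw [Real.norm_of_nonneg (by positivity)]
    have h1 := Real.rpow_le_rpow_of_nonpos (Real.exp_pos y) h (neg_nonpos.2 ha.le)
    rw [Real.mul_rpow zero_le_two (Real.cosh_pos x).le, ← Real.exp_mul, mul_comm y] at h1
    have h2 : (2 : ℝ) ^ a * 2 ^ (-a) = 1 := by rw [← Real.rpow_add two_pos]; simp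
    calc _ = 2 ^ a * (2 ^ (-a) * Real.cosh x ^ (-a)) := by rw [← mul_assoc, h2, one_mul]
      _ ≤ _ := by gcongr
  rw [← integrableOn_univ, ← Iic_union_Ioi (a := 0)]
  refine IntegrableOn.union ?_ ?_
  · refine Integrable.mono' ((integrableOn_exp_mul_Iic ha 0).const_mul (2 ^ a))
      hc.aestronglyMeasurable (Eventually.of_forall fun x => ?_)
    have := hb x (-x) (by rw [Real.cosh_eq]; linarith [Real.exp_pos x])
    simpa using this
  · refine Integrable.mono' ((integrableOn_exp_mul_Ioi (neg_neg_of_pos ha) 0).const_mul (2 ^ a))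
      hc.aestronglyMeasurable (Eventually.of_forall fun x => ?_)
    exact hb x x (by rw [Real.cosh_eq]; linarith [Real.exp_pos (-x)])

lemma hasDerivAt_tanh (x : ℝ) : HasDerivAt Real.tanh (1 / Real.cosh x ^ 2) x := by
  have h := (Real.hasDerivAt_sinh x).div (Real.hasDerivAt_cosh x) (Real.cosh_pos x).ne'
  have e : Real.tanh = Real.sinh / Real.cosh := funext fun x => Real.tanh_eq_sinh_div_cosh x
  rw [e, show (1 : ℝ) = Real.cosh x * Real.cosh x - Real.sinh x * Real.sinh x by
    linarith [Real.cosh_sq x]]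
  exact h

lemma one_sub_tanh (x : ℝ) : 1 - Real.tanh x ^ 2 = 1 / Real.cosh x ^ 2 := by
  rw [Real.tanh_eq_sinh_div_cosh]
  have := Real.cosh_pos x
  field_simp
  linarith [Real.cosh_sq x]

lemma integral_sech (ν : ℝ) :
    ∫ x, (1 / Real.cosh x ^ 2) ^ (ν + 1) = ∫ u in (-1 : ℝ)..1, (1 - u ^ 2) ^ ν := by
  have h := integral_image_eq_integral_abs_deriv_smul MeasurableSet.univ
    (fun x _ => (hasDerivAt_tanh x).hasDerivWithinAt) Real.tanh_injective.injOn
    (fun u => (1 - u ^ 2) ^ ν)
  rw [Real.tanh_bijOn.image_eq, setIntegral_univ] at h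
  rw [intervalIntegral.integral_of_le (by norm_num), integral_Ioc_eq_integral_Ioo, h]
  refine integral_congr_ae (Eventually.of_forall fun x => ?_)
  have := Real.cosh_pos x
  simp only [one_sub_tanh, smul_eq_mul]
  rw [abs_of_pos (by positivity), Real.rpow_add_one (by positivity), mul_comm]

lemma trPow_single {m : ℕ} (i : Fin m) {p w : ℝ} (hp : 0 < p) (hw : 0 < w) :
    trPow p (Matrix.diagonal (Pi.single i (w : ℂ))) = w ^ p := by
  unfold trPow
  have hsa : IsSelfAdjoint (Matrix.diagonal (Pi.single i (w : ℂ))) := by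
    refine Matrix.isHermitian_diagonal_iff.2 fun j => ?_
    by_cases h : j = i
    · subst h; simp [IsSelfAdjoint]
    · simp [h]
  have h1 : cfc (fun t : ℝ => t ^ p) (Matrix.diagonal (Pi.single i (w : ℂ))) =
      cfc (fun t : ℝ => (w ^ p / w) • t) (Matrix.diagonal (Pi.single i (w : ℂ))) := by
    refine cfc_congr fun t ht => ?_
    rw [← spectrum.preimage_algebraMap ℂ, spectrum_diagonal] at ht
    obtain ⟨j, hj⟩ := ht
    by_cases h : j = i
    · subst h
      have : t = w := by simpa using hj.symm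
      simp only [this, smul_eq_mul]
      field_simp
    · have : t = 0 := by simpa [h] using hj.symm
      simp [this, hp.ne']
  rw [h1, cfc_smul _ _ _, cfc_id' ℝ _ hsa]
  simp
  field_simp

end Lo

end Vale.Agent.P371
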