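import Vale.Agent.P371.Defs

open Matrix
open scoped Matrix.Norms.L2Operator MatrixOrder ComplexOrder

set_option linter.unusedSectionVars false

namespace Vale.Agent.P371

variable {n : Type} [Fintype n] [DecidableEq n]

/-- real part of the trace as a continuous linear functional -/
noncomputable def rtL : Matrix n n ℂ →L[ℝ] ℝ :=
  LinearMap.toContinuousLinearMap
    { toFun := fun A => A.trace.re
      map_add' := fun A B => by simp [trace_add]
      map_smul' := fun c A => by simp [trace_smul] }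

noncomputable def rt (A : Matrix n n ℂ) : ℝ := A.trace.re

@[simp] lemma rtL_apply (A : Matrix n n ℂ) : rtL A = rt A := rfl

omit [DecidableEq n] in
lemma rt_add (A B : Matrix n n ℂ) : rt (A + B) = rt A + rt B := by simp [rt, trace_add]
omit [DecidableEq n] in
lemma rt_sub (A B : Matrix n n ℂ) : rt (A - B) = rt A - rt B := by simp [rt, trace_sub]
omit [DecidableEq n] in
lemma rt_neg (A : Matrix n n ℂ) : rt (-A) = - rt A := by simp [rt, trace_neg]
omit [DecidableEq n] in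
lemma rt_smul (c : ℝ) (A : Matrix n n ℂ) : rt (c • A) = c * rt A := by simp [rt, trace_smul]
omit [DecidableEq n] in
lemma rt_zero : rt (0 : Matrix n n ℂ) = 0 := by simp [rt]
lemma rt_one : rt (1 : Matrix n n ℂ) = Fintype.card n := by simp [rt]
omit [DecidableEq n] in
lemma rt_comm {m : Type} [Fintype m] (A : Matrix n m ℂ) (B : Matrix m n ℂ) :
    rt (A * B) = rt (B * A) := by simp only [rt]; rw [trace_mul_comm]
omit [DecidableEq n] in
lemma rt_star (A : Matrix n n ℂ) : rt Aᴴ = rt A := by simp [rt, trace_conjTranspose]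
omit [DecidableEq n] in
lemma rt_eq_sum (A : Matrix n n ℂ) : rt A = ∑ i, (A i i).re := by simp [rt, trace]
omit [DecidableEq n] in
lemma rt_sum {ι : Type*} (s : Finset ι) (A : ι → Matrix n n ℂ) :
    rt (∑ i ∈ s, A i) = ∑ i ∈ s, rt (A i) := by simp [rt, trace_sum]
lemma continuous_rt : Continuous (rt : Matrix n n ℂ → ℝ) := rtL.continuous

omit [DecidableEq n] in
lemma rt_nonneg {A : Matrix n n ℂ} (h : A.PosSemidef) : 0 ≤ rt A :=
  (Complex.nonneg_iff.mp h.trace_nonneg).1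

omit [DecidableEq n] in
lemma rt_star_mul_self {m : Type} [Fintype m] (A : Matrix m n ℂ) :
    rt (Aᴴ * A) = ∑ j, ∑ i, ‖A i j‖ ^ 2 := by
  simp only [rt_eq_sum, mul_apply, conjTranspose_apply, Complex.re_sum]
  refine Finset.sum_congr rfl fun j _ => Finset.sum_congr rfl fun i _ => ?_
  rw [Complex.star_def, Complex.conj_mul']; norm_cast

lemma rt_mul_nonneg {A B : Matrix n n ℂ} (hA : A.PosSemidef) (hB : B.PosSemidef) :
    0 ≤ rt (A * B) := by
  obtain ⟨C, rfl⟩ := CStarAlgebra.nonneg_iff_eq_star_mul_self.mp (nonneg_iff_posSemidef.mpr hA)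
  rw [star_eq_conjTranspose, Matrix.mul_assoc, rt_comm]
  exact rt_nonneg (hB.mul_mul_conjTranspose_same C)

lemma rt_mul_mono {A B C : Matrix n n ℂ} (hA : A.PosSemidef) (h : B ≤ C) :
    rt (A * B) ≤ rt (A * C) := by
  have := rt_mul_nonneg hA (le_iff.mp h)
  rw [Matrix.mul_sub, rt_sub] at this; linarith

/-- real diagonal matrix -/
noncomputable def dg (l : n → ℝ) : Matrix n n ℂ := diagonal fun i => (l i : ℂ)

omit [Fintype n] in
lemma dg_herm (l : n → ℝ) : (dg l).IsHermitian := by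
  unfold dg IsHermitian; rw [diagonal_conjTranspose]; congr 1; ext i; simp

lemma dg_mul (l k : n → ℝ) : dg l * dg k = dg fun i => l i * k i := by
  simp [dg, diagonal_mul_diagonal]

omit [Fintype n] in
lemma dg_one : dg (fun _ : n => (1 : ℝ)) = 1 := by simp [dg]

lemma rt_dg_mul (l : n → ℝ) (C : Matrix n n ℂ) : rt (dg l * C) = ∑ i, l i * (C i i).re := by
  simp [rt_eq_sum, dg, diagonal_mul]

lemma rt_dg_dg (a b : n → ℝ) (C C' : Matrix n n ℂ) :
    rt (dg a * C * dg b * C') = ∑ i, ∑ j, a i * b j * (C i j * C' j i).re := by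
  rw [rt_eq_sum]
  refine Finset.sum_congr rfl fun i _ => ?_
  rw [mul_apply, Complex.re_sum]
  refine Finset.sum_congr rfl fun j _ => ?_
  simp only [dg, mul_diagonal, diagonal_mul]
  rw [show (a i : ℂ) * C i j * b j * C' j i = ((a i * b j : ℝ) : ℂ) * (C i j * C' j i) by
    push_cast; ring, Complex.re_ofReal_mul]

/-- A spectral decomposition. -/
structure Spec (A U : Matrix n n ℂ) (l : n → ℝ) : Prop where
  h1 : U * Uᴴ = 1
  h2 : Uᴴ * U = 1
  fc : ∀ f : ℝ → ℝ, cfc f A = U * dg (fun i => f (l i)) * Uᴴ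
  eq : A = U * dg l * Uᴴ
  mem : ∀ i, l i ∈ spectrum ℝ A
  herm : A.IsHermitian
  surj : ∀ s ∈ spectrum ℝ A, ∃ i, l i = s

lemma exists_spec {A : Matrix n n ℂ} (hA : A.IsHermitian) : ∃ U l, Spec A U l := by
  refine ⟨hA.eigenvectorUnitary, hA.eigenvalues, ?_, ?_, fun f => ?_, ?_, ?_, hA, ?_⟩
  · exact (Unitary.mul_star_self_of_mem hA.eigenvectorUnitary.2)
  · exact (Unitary.star_mul_self_of_mem hA.eigenvectorUnitary.2)
  · rw [hA.cfc_eq]; rfl
  · conv_lhs => rw [hA.spectral_theorem]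
    rfl
  · exact hA.eigenvalues_mem_spectrum_real
  · intro s hs; rw [hA.spectrum_real_eq_range_eigenvalues] at hs; exact hs

lemma cfc_herm (f : ℝ → ℝ) (A : Matrix n n ℂ) : (cfc f A).IsHermitian :=
  (cfc_predicate f A : IsSelfAdjoint (cfc f A))

lemma contOn_spec (f : ℝ → ℝ) (A : Matrix n n ℂ) : ContinuousOn f (spectrum ℝ A) :=
  (Matrix.finite_real_spectrum).continuousOn f

namespace Spec
variable {A U B V : Matrix n n ℂ} {l k : n → ℝ}

lemma conj_fc (h : Spec A U l) (f : ℝ → ℝ) : Uᴴ * cfc f A * U = dg fun i => f (l i) := by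
  rw [h.fc]
  calc Uᴴ * (U * dg (fun i => f (l i)) * Uᴴ) * U
      = (Uᴴ * U) * dg (fun i => f (l i)) * (Uᴴ * U) := by simp only [Matrix.mul_assoc]
    _ = _ := by rw [h.h2]; simp

lemma conj_eq (h : Spec A U l) : Uᴴ * A * U = dg l := by
  have := h.conj_fc id
  rwa [cfc_id ℝ A h.herm.isSelfAdjoint] at this

lemma rt_fc_mul (h : Spec A U l) (f : ℝ → ℝ) (C : Matrix n n ℂ) :
    rt (cfc f A * C) = ∑ i, f (l i) * ((Uᴴ * C * U) i i).re := by
  rw [h.fc, ← rt_dg_mul, Matrix.mul_assoc, Matrix.mul_assoc, rt_comm]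
  simp only [Matrix.mul_assoc]

lemma rt_fc (h : Spec A U l) (f : ℝ → ℝ) : rt (cfc f A) = ∑ i, f (l i) := by
  have := h.rt_fc_mul f 1
  simpa [h.h2] using this

lemma rt_conj (h : Spec A U l) (C : Matrix n n ℂ) : rt (Uᴴ * C * U) = rt C := by
  rw [rt_comm, ← Matrix.mul_assoc, h.h1, Matrix.one_mul]

lemma rt_fc_fc (h : Spec A U l) (h' : Spec B V k) (f g : ℝ → ℝ) :
    rt (cfc f A * cfc g B) = ∑ i, ∑ j, f (l i) * g (k j) * ‖(Uᴴ * V) i j‖ ^ 2 := by
  rw [h.fc, h'.fc]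
  have : rt (U * dg (fun i => f (l i)) * Uᴴ * (V * dg (fun i => g (k i)) * Vᴴ))
      = rt (dg (fun i => f (l i)) * (Uᴴ * V) * dg (fun i => g (k i)) * (Uᴴ * V)ᴴ) := by
    simp only [Matrix.mul_assoc, conjTranspose_mul, conjTranspose_conjTranspose]
    rw [rt_comm]; simp only [Matrix.mul_assoc]
  rw [this, rt_dg_dg]
  refine Finset.sum_congr rfl fun i _ => Finset.sum_congr rfl fun j _ => ?_
  rw [conjTranspose_apply, Complex.star_def, Complex.mul_conj']; norm_cast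

lemma row_sum (h : Spec A U l) (h' : Spec B V k) (i : n) : ∑ j, ‖(Uᴴ * V) i j‖ ^ 2 = 1 := by
  have e : (Uᴴ * V) * (Uᴴ * V)ᴴ = 1 := by
    simp only [conjTranspose_mul, conjTranspose_conjTranspose]
    rw [Matrix.mul_assoc, ← Matrix.mul_assoc V, h'.h1, Matrix.one_mul, h.h2]
  have := congrArg (fun M : Matrix n n ℂ => (M i i).re) e
  simp only [mul_apply (M := Uᴴ * V), conjTranspose_apply, Complex.re_sum, one_apply_eq,
    Complex.one_re] at this
  rw [← this]
  refine Finset.sum_congr rfl fun j _ => ?_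
  rw [Complex.star_def, Complex.mul_conj']; norm_cast

lemma col_sum (h : Spec A U l) (h' : Spec B V k) (j : n) : ∑ i, ‖(Uᴴ * V) i j‖ ^ 2 = 1 := by
  rw [← h'.row_sum h j]
  refine Finset.sum_congr rfl fun i _ => ?_
  rw [show Vᴴ * U = (Uᴴ * V)ᴴ by simp, conjTranspose_apply, norm_star]

/-- transfer of a scalar two-variable inequality to traces -/
lemma trace_ineq (h : Spec A U l) (h' : Spec B V k) (f g a b c d : ℝ → ℝ)
    (H : ∀ i j, a (l i) * b (k j) + c (l i) * d (k j) ≤ f (l i) + g (k j)) :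
    rt (cfc a A * cfc b B) + rt (cfc c A * cfc d B) ≤ rt (cfc f A) + rt (cfc g B) := by
  rw [h.rt_fc_fc h', h.rt_fc_fc h', h.rt_fc, h'.rt_fc]
  have e1 : ∑ i, f (l i) = ∑ i, ∑ j, f (l i) * ‖(Uᴴ * V) i j‖ ^ 2 := by
    refine Finset.sum_congr rfl fun i _ => ?_
    rw [← Finset.mul_sum, h.row_sum h', mul_one]
  have e2 : ∑ j, g (k j) = ∑ i, ∑ j, g (k j) * ‖(Uᴴ * V) i j‖ ^ 2 := by
    rw [Finset.sum_comm]
    refine Finset.sum_congr rfl fun j _ => ?_
    rw [← Finset.mul_sum, h.col_sum h', mul_one]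
  rw [e1, e2, ← Finset.sum_add_distrib, ← Finset.sum_add_distrib]
  refine Finset.sum_le_sum fun i _ => ?_
  rw [← Finset.sum_add_distrib, ← Finset.sum_add_distrib]
  refine Finset.sum_le_sum fun j _ => ?_
  have := mul_le_mul_of_nonneg_right (H i j) (sq_nonneg ‖(Uᴴ * V) i j‖)
  linarith

lemma nonneg (h : Spec A U l) (hA : A.PosSemidef) (i : n) : 0 ≤ l i :=
  spectrum_nonneg_of_nonneg (nonneg_iff_posSemidef.mpr hA) (h.mem i)

lemma pos (h : Spec A U l) (hA : A.PosDef) (i : n) : 0 < l i :=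
  (isStrictlyPositive_iff_posDef.mpr hA).spectrum_pos (h.mem i)

/-- entries of `f(A) - f(B)` in the two eigenbases -/
lemma entry_sub (h : Spec A U l) (h' : Spec B V k) (f g : ℝ → ℝ) (i j : n) :
    (Uᴴ * (cfc f A - cfc g B) * V) i j = ((f (l i) - g (k j) : ℝ) : ℂ) * (Uᴴ * V) i j := by
  have e1 : Uᴴ * cfc f A * V = dg (fun i => f (l i)) * (Uᴴ * V) := by
    rw [← h.conj_fc f]; simp only [Matrix.mul_assoc]
    rw [← Matrix.mul_assoc U, h.h1, Matrix.one_mul]
  have e2 : Uᴴ * cfc g B * V = (Uᴴ * V) * dg (fun i => g (k i)) := by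
    rw [← h'.conj_fc g]; simp only [Matrix.mul_assoc]
    rw [← Matrix.mul_assoc V, h'.h1, Matrix.one_mul]
  rw [Matrix.mul_sub, Matrix.sub_mul, e1, e2, Matrix.sub_apply]
  simp only [dg, diagonal_mul, mul_diagonal]; push_cast; ring

end Spec

lemma spectrum_pos_of_posDef {A : Matrix n n ℂ} (hA : A.PosDef) {s : ℝ}
    (hs : s ∈ spectrum ℝ A) : 0 < s :=
  (isStrictlyPositive_iff_posDef.mpr hA).spectrum_pos hs

lemma spectrum_nonneg_of_psd {A : Matrix n n ℂ} (hA : A.PosSemidef) {s : ℝ}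
    (hs : s ∈ spectrum ℝ A) : 0 ≤ s :=
  spectrum_nonneg_of_nonneg (nonneg_iff_posSemidef.mpr hA) hs

lemma cfc_psd {f : ℝ → ℝ} {A : Matrix n n ℂ} (h : ∀ s ∈ spectrum ℝ A, 0 ≤ f s) :
    (cfc f A).PosSemidef := nonneg_iff_posSemidef.mp (cfc_nonneg h)

lemma cfc_posDef {f : ℝ → ℝ} {A : Matrix n n ℂ} (hA : A.IsHermitian)
    (h : ∀ s ∈ spectrum ℝ A, 0 < f s) : (cfc f A).PosDef :=
  isStrictlyPositive_iff_posDef.mp
    ((cfc_isStrictlyPositive_iff f A (contOn_spec f A) hA).mpr h)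

lemma cfc_mul' (f g : ℝ → ℝ) (A : Matrix n n ℂ) :
    cfc f A * cfc g A = cfc (fun s => f s * g s) A :=
  (cfc_mul f g A (contOn_spec f A) (contOn_spec g A)).symm

lemma cfc_add' (f g : ℝ → ℝ) (A : Matrix n n ℂ) :
    cfc f A + cfc g A = cfc (fun s => f s + g s) A :=
  (cfc_add A f g (contOn_spec f A) (contOn_spec g A)).symm

lemma cfc_sub' (f g : ℝ → ℝ) (A : Matrix n n ℂ) :
    cfc f A - cfc g A = cfc (fun s => f s - g s) A :=
  (cfc_sub f g A (contOn_spec f A) (contOn_spec g A)).symm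

lemma cfc_smul' (c : ℝ) (f : ℝ → ℝ) (A : Matrix n n ℂ) :
    c • cfc f A = cfc (fun s => c * f s) A :=
  (cfc_const_mul c f A (contOn_spec f A)).symm

lemma cfc_id'' {A : Matrix n n ℂ} (hA : A.IsHermitian) : cfc (fun s : ℝ => s) A = A :=
  cfc_id' ℝ A hA

lemma cfc_const' {A : Matrix n n ℂ} (hA : A.IsHermitian) (c : ℝ) :
    cfc (fun _ : ℝ => c) A = c • (1 : Matrix n n ℂ) := by
  rw [cfc_const c A hA.isSelfAdjoint, Algebra.algebraMap_eq_smul_one]

lemma cfc_le' {f g : ℝ → ℝ} {A : Matrix n n ℂ}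
    (h : ∀ s ∈ spectrum ℝ A, f s ≤ g s) : cfc f A ≤ cfc g A :=
  cfc_mono h (contOn_spec f A) (contOn_spec g A)

lemma cfc_cfc (f g : ℝ → ℝ) {A : Matrix n n ℂ} (hA : A.IsHermitian) :
    cfc f (cfc g A) = cfc (fun s => f (g s)) A :=
  (cfc_comp' f g A (((Matrix.finite_real_spectrum).image g).continuousOn f) (contOn_spec g A)
    hA).symm

lemma continuousOn_cfc_univ {X : Type*} [TopologicalSpace X] {f : ℝ → ℝ} (hf : Continuous f)
    {a : X → Matrix n n ℂ} {t : Set X} (ha : ContinuousOn a t)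
    (h : ∀ x ∈ t, (a x).IsHermitian) : ContinuousOn (fun x => cfc f (a x)) t :=
  ContinuousOn.cfc_of_mem_nhdsSet (s := Set.univ) f (by simp) ha h hf.continuousOn

lemma continuousOn_cfc_pos {X : Type*} [TopologicalSpace X] {f : ℝ → ℝ}
    (hf : ContinuousOn f (Set.Ioi 0))
    {a : X → Matrix n n ℂ} {t : Set X} (ha : ContinuousOn a t)
    (h : ∀ x ∈ t, (a x).PosDef) : ContinuousOn (fun x => cfc f (a x)) t := by
  refine ContinuousOn.cfc_of_mem_nhdsSet (s := Set.Ioi 0) f ?_ ha (fun x hx => (h x hx).1) hf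
  refine isOpen_Ioi.mem_nhdsSet.mpr ?_
  intro s hs
  simp only [Set.mem_iUnion] at hs
  obtain ⟨x, hx, hs⟩ := hs
  exact spectrum_pos_of_posDef (h x hx) hs

end Vale.Agent.P371
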