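import Vale.Agent.P371.Barrier

open Matrix Filter Topology Set MeasureTheory
open scoped Matrix.Norms.L2Operator MatrixOrder ComplexOrder NNReal

set_option linter.unusedSectionVars false

namespace Vale.Agent.P371

section General
variable {E : Type*} [NormedAddCommGroup E] [NormedSpace ℝ E] [CompleteSpace E]

lemma ode_exists {a b : ℝ} (hab : a ≤ b) {G : E → E} {K : ℝ≥0} (hG : LipschitzWith K G)
    {H : ℝ → E} (hH : Continuous H) {L : ℝ} (hL : ∀ t ∈ Icc a b, ∀ u, ‖H t + G u‖ ≤ L) (y₀ : E) :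
    ∃ U : ℝ → E, U a = y₀ ∧ ∀ t ∈ Icc a b, HasDerivWithinAt U (H t + G (U t)) (Icc a b) t := by
  have hL0 : 0 ≤ L := (norm_nonneg _).trans (hL a ⟨le_rfl, hab⟩ 0)
  have : IsPicardLindelof (fun t u => H t + G u) (tmin := a) (tmax := b) ⟨a, le_rfl, hab⟩ y₀
      ⟨L * (b - a), mul_nonneg hL0 (by linarith)⟩ 0 ⟨L, hL0⟩ K := by
    refine ⟨fun t _ => ?_, fun u _ => by fun_prop, fun t ht u _ => hL t ht u, ?_⟩
    · refine LipschitzWith.lipschitzOnWith ?_
      refine LipschitzWith.of_dist_le_mul fun u v => ?_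
      rw [dist_add_left]; exact hG.dist_le_mul u v
    · change L * max (b - a) (a - a) ≤ L * (b - a) - 0
      rw [sub_self, max_eq_left (by linarith), sub_zero]
  exact this.exists_eq_forall_mem_Icc_hasDerivWithinAt₀

lemma ode_continuous {X : Type*} [TopologicalSpace X] {a b : ℝ} (hab : a ≤ b) {G : E → E}
    {K : ℝ≥0} (hG : LipschitzWith K G) {H : X → ℝ → E} (hH : Continuous (Function.uncurry H))
    {U : X → ℝ → E} (h0 : Continuous fun p => U p a)
    (hU : ∀ p, ∀ t ∈ Icc a b, HasDerivWithinAt (U p) (H p t + G (U p t)) (Icc a b) t) :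
    Continuous fun p => U p b := by
  refine continuous_iff_continuousAt.mpr fun p => ?_
  have hd : ∀ p, ∀ t ∈ Ico a b, HasDerivWithinAt (U p) (H p t + G (U p t)) (Ici t) t :=
    fun p t ht => (hU p t (Ico_subset_Icc_self ht)).mono_of_mem_nhdsWithin
      (Icc_mem_nhdsGE_of_mem ht)
  have hc : ∀ p, ContinuousOn (U p) (Icc a b) := fun p t ht => (hU p t ht).continuousWithinAt
  have hlip : ∀ t, LipschitzWith K fun u => H p t + G u := fun t =>
    LipschitzWith.of_dist_le_mul fun u v => by rw [dist_add_left]; exact hG.dist_le_mul u v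
  have hom : ∀ ε : ℝ, gronwallBound ε K (ε + 0) (b - a) = ε * gronwallBound 1 K 1 (b - a) := by
    intro ε
    unfold gronwallBound
    split_ifs <;> ring
  have key : ∀ ε : ℝ, 0 < ε → ∀ᶠ q in 𝓝 p,
      dist (U q b) (U p b) ≤ ε * gronwallBound 1 K 1 (b - a) := by
    intro ε hε
    have e1 : ∀ᶠ q in 𝓝 p, ∀ t ∈ Icc a b, dist (H q t) (H p t) < ε := by
      refine isCompact_Icc.eventually_forall_of_forall_eventually fun t _ => ?_
      have : Continuous fun z : X × ℝ => dist (H z.1 z.2) (H p z.2) :=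
        hH.dist (hH.comp (continuous_const.prodMk continuous_snd))
      exact this.continuousAt.eventually_lt continuousAt_const (by simpa using hε)
    filter_upwards [e1, Metric.tendsto_nhds.mp h0.continuousAt ε hε] with q hq hq0
    rw [← hom]
    exact dist_le_of_approx_trajectories_ODE hlip (hc q) (hd q)
      (fun t ht => by rw [dist_add_right]; exact (hq t (Ico_subset_Icc_self ht)).le)
      (hc p) (hd p) (fun t _ => by simp) hq0.le b ⟨hab, le_rfl⟩
  refine Metric.tendsto_nhds.mpr fun ε hε => ?_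
  set g := gronwallBound 1 K 1 (b - a)
  filter_upwards [key (ε / (|g| + 1)) (by positivity)] with q hq
  refine hq.trans_lt ?_
  rw [div_mul_eq_mul_div, div_lt_iff₀ (by positivity)]
  have := le_abs_self g
  nlinarith

end General

variable {n : Type} [Fintype n] [DecidableEq n]

noncomputable def toPi : Matrix n n ℂ ≃L[ℝ] (n → n → ℂ) :=
  (Matrix.ofLinearEquiv ℝ).symm.toContinuousLinearEquiv

lemma Spec.norm_conj {A U B V : Matrix n n ℂ} {l k : n → ℝ} (h : Spec A U l) (h' : Spec B V k)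
    (X : Matrix n n ℂ) : ‖Uᴴ * X * V‖ = ‖X‖ := by
  rw [CStarRing.norm_mul_mem_unitary _ (show V ∈ unitary _ from ⟨h'.h2, h'.h1⟩),
    CStarRing.norm_mem_unitary_mul _ (show Uᴴ ∈ unitary _ from
      ⟨by simpa [star_eq_conjTranspose] using h.h1, by simpa [star_eq_conjTranspose] using h.h2⟩)]

lemma exists_cfc_lip : ∃ C : ℝ, 0 ≤ C ∧ ∀ (f : ℝ → ℝ) (L : ℝ), 0 ≤ L →
    (∀ s t, |f s - f t| ≤ L * |s - t|) → ∀ A B : Matrix n n ℂ, A.IsHermitian → B.IsHermitian →
      ‖cfc f A - cfc f B‖ ≤ C * L * ‖A - B‖ := by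
  set e : Matrix n n ℂ →L[ℝ] (n → n → ℂ) := (toPi (n := n)).toContinuousLinearMap
  set e' : (n → n → ℂ) →L[ℝ] Matrix n n ℂ := (toPi (n := n)).symm.toContinuousLinearMap
  refine ⟨‖e'‖ * ‖e‖, mul_nonneg e'.opNorm_nonneg e.opNorm_nonneg, fun f L hL hf A B hA hB => ?_⟩
  obtain ⟨U, l, h⟩ := exists_spec hA
  obtain ⟨V, k, h'⟩ := exists_spec hB
  rw [← h.norm_conj h', ← h.norm_conj h' (A - B)]
  set X := Uᴴ * (cfc f A - cfc f B) * V with hX
  set Y := Uᴴ * (A - B) * V with hY
  have h1 : ‖X‖ ≤ ‖e'‖ * ‖e X‖ := by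
    have : X = e' (e X) := ((toPi (n := n)).symm_apply_apply X).symm
    conv_lhs => rw [this]
    exact e'.le_opNorm _
  have h2 : ‖e X‖ ≤ L * ‖e Y‖ := by
    refine (pi_norm_le_iff_of_nonneg (by positivity)).mpr fun i =>
      (pi_norm_le_iff_of_nonneg (by positivity)).mpr fun j => ?_
    have b : ‖e Y i j‖ ≤ ‖e Y‖ := (norm_le_pi_norm _ j).trans (norm_le_pi_norm _ i)
    have e1 : e X i j = _ := h.entry_sub h' f f i j
    have e2 := h.entry_sub h' (fun s => s) (fun s => s) i j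
    rw [cfc_id'' hA, cfc_id'' hB] at e2
    have e3 : e Y i j = _ := e2
    rw [e3] at b
    rw [e1]
    rw [norm_mul, Complex.norm_real, Real.norm_eq_abs] at b ⊢
    calc _ ≤ L * |l i - k j| * ‖(Uᴴ * V) i j‖ :=
          mul_le_mul_of_nonneg_right (hf _ _) (norm_nonneg _)
      _ ≤ _ := by rw [mul_assoc]; exact mul_le_mul_of_nonneg_left b hL
  have h3 := e.le_opNorm Y
  have h4 := e'.opNorm_nonneg
  calc ‖X‖ ≤ ‖e'‖ * (L * (‖e‖ * ‖Y‖)) := h1.trans (by gcongr; exact h2.trans (by gcongr))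
    _ = _ := by ring

noncomputable def herm (u : Matrix n n ℂ) : Matrix n n ℂ := (1 / 2 : ℝ) • (u + uᴴ)

lemma herm_herm (u : Matrix n n ℂ) : (herm u).IsHermitian := by
  unfold herm IsHermitian
  rw [conjTranspose_smul, conjTranspose_add, conjTranspose_conjTranspose, add_comm, star_trivial]

lemma herm_eq {u : Matrix n n ℂ} (hu : u.IsHermitian) : herm u = u := by
  rw [herm, hu.eq, ← two_smul ℝ u, smul_smul]; norm_num

lemma norm_herm_sub (u v : Matrix n n ℂ) : ‖herm u - herm v‖ ≤ ‖u - v‖ := by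
  have : herm u - herm v = (1 / 2 : ℝ) • ((u - v) + (u - v)ᴴ) := by
    rw [herm, herm, conjTranspose_sub, ← smul_sub]; congr 1; abel
  rw [this, norm_smul]
  have := norm_add_le (u - v) (u - v)ᴴ
  rw [l2_opNorm_conjTranspose] at this
  rw [Real.norm_of_nonneg (by norm_num)]; linarith

lemma continuous_herm : Continuous (herm : Matrix n n ℂ → Matrix n n ℂ) := by
  unfold herm; fun_prop

lemma tsq_lip {k : ℝ} (hk : 0 ≤ k) (s t : ℝ) : |tsq k s - tsq k t| ≤ 2 * k * |s - t| := by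
  unfold tsq
  set x := max (-k) (min s k)
  set y := max (-k) (min t k)
  have h1 : |x - y| ≤ |s - t| := by
    refine (abs_max_sub_max_le_max _ _ _ _).trans (max_le (by simp) ?_)
    exact (abs_min_sub_min_le_max _ _ _ _).trans (max_le le_rfl (by simp))
  have h2 : |x + y| ≤ 2 * k := by
    have : -k ≤ x := le_max_left _ _
    have : -k ≤ y := le_max_left _ _
    have : x ≤ k := max_le (by linarith) (min_le_right _ _)
    have : y ≤ k := max_le (by linarith) (min_le_right _ _)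
    rw [abs_le]; constructor <;> linarith
  rw [sq_sub_sq, abs_mul]
  exact mul_le_mul h2 h1 (abs_nonneg _) (by positivity)

lemma tsq_le {k : ℝ} (hk : 0 ≤ k) (s : ℝ) : tsq k s ≤ k ^ 2 :=
  sq_le_sq' (le_max_left _ _) (max_le (by linarith) (min_le_right _ _))

lemma exists_lip_tsq {k : ℝ} (hk : 0 ≤ k) :
    ∃ K : ℝ≥0, LipschitzWith K fun u : Matrix n n ℂ => -cfc (tsq k) (herm u) := by
  obtain ⟨C, hC, h⟩ := exists_cfc_lip (n := n)
  refine ⟨⟨C * (2 * k), by positivity⟩, LipschitzWith.of_dist_le_mul fun u v => ?_⟩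
  rw [dist_neg_neg, dist_eq_norm, dist_eq_norm]
  exact (h _ _ (by positivity) (tsq_lip hk) _ _ (herm_herm u) (herm_herm v)).trans
    (mul_le_mul_of_nonneg_left (norm_herm_sub u v) (by positivity))

end Vale.Agent.P371
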