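import Mathlib

open MeasureTheory Set Filter Topology

namespace Vale.Agent.P371

noncomputable def lk (ν s t : ℝ) : ℝ := t ^ (ν - 1) * Real.log (1 + s / t)

noncomputable def Inu (ν : ℝ) : ℝ := ∫ t in Ioi (0 : ℝ), lk ν 1 t

noncomputable def beta (ν : ℝ) : ℝ := ∫ u in (-1 : ℝ)..1, (1 - u ^ 2) ^ ν

lemma lk_nonneg {ν s t : ℝ} (hs : 0 ≤ s) (ht : 0 < t) : 0 ≤ lk ν s t :=
  mul_nonneg (by positivity) (Real.log_nonneg (by have := div_nonneg hs ht.le; linarith))

lemma lk_mono {ν s s' t : ℝ} (hs : 0 ≤ s) (h : s ≤ s') (ht : 0 < t) : lk ν s t ≤ lk ν s' t := by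
  unfold lk
  have : 0 < 1 + s / t := by positivity
  gcongr

lemma measurable_lk (ν : ℝ) : Measurable fun p : ℝ × ℝ => lk ν p.1 p.2 := by
  unfold lk; fun_prop

lemma lk_integrable {ν s : ℝ} (h0 : 0 < ν) (h1 : ν < 1) (hs : 0 ≤ s) :
    IntegrableOn (lk ν s) (Ioi 0) := by
  have hm : Measurable (lk ν s) := by unfold lk; fun_prop
  rw [← Ioc_union_Ioi_eq_Ioi zero_le_one, integrableOn_union]
  constructor
  · have hi : IntegrableOn (fun t : ℝ => (1 + s) ^ (ν / 2) / (ν / 2) * t ^ (ν / 2 - 1))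
        (Ioc 0 1) :=
      ((intervalIntegral.intervalIntegrable_rpow' (a := 0) (b := 1)
        (by linarith : -1 < ν / 2 - 1)).1).const_mul _
    refine hi.mono' hm.aestronglyMeasurable ?_
    refine (ae_restrict_iff' measurableSet_Ioc).mpr (ae_of_all _ fun t ht => ?_)
    rw [Real.norm_of_nonneg (lk_nonneg hs ht.1)]
    have ht0 := ht.1
    have e1 : 1 + s / t ≤ (1 + s) / t := by
      rw [add_div]; gcongr; rw [le_div_iff₀ ht0]; linarith [ht.2]
    have e2 : Real.log (1 + s / t) ≤ ((1 + s) / t) ^ (ν / 2) / (ν / 2) :=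
      (Real.log_le_log (by positivity) e1).trans
        (Real.log_le_rpow_div (by positivity) (by positivity))
    calc lk ν s t ≤ t ^ (ν - 1) * (((1 + s) / t) ^ (ν / 2) / (ν / 2)) :=
          mul_le_mul_of_nonneg_left e2 (by positivity)
      _ = _ := by
          rw [Real.div_rpow (by positivity) ht0.le,
            show ν / 2 - 1 = (ν - 1) - ν / 2 by ring, Real.rpow_sub ht0 (ν - 1)]
          ring
  · have hi : IntegrableOn (fun t : ℝ => s * t ^ (ν - 2)) (Ioi 1) :=
      (integrableOn_Ioi_rpow_of_lt (by linarith) one_pos).const_mul _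
    refine hi.mono' hm.aestronglyMeasurable ?_
    refine (ae_restrict_iff' measurableSet_Ioi).mpr (ae_of_all _ fun t ht => ?_)
    have ht0 : 0 < t := one_pos.trans ht
    rw [Real.norm_of_nonneg (lk_nonneg hs ht0)]
    have e2 : Real.log (1 + s / t) ≤ s / t := by
      have := Real.log_le_sub_one_of_pos (by positivity : 0 < 1 + s / t); linarith
    calc lk ν s t ≤ t ^ (ν - 1) * (s / t) := mul_le_mul_of_nonneg_left e2 (by positivity)
      _ = _ := by
          rw [show ν - 2 = (ν - 1) - 1 by ring, Real.rpow_sub_one ht0.ne' (ν - 1)]; ring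

lemma lk_integral {ν s : ℝ} (h0 : 0 < ν) (hs : 0 ≤ s) :
    ∫ t in Ioi (0 : ℝ), lk ν s t = Inu ν * s ^ ν := by
  rcases hs.eq_or_lt with rfl | hs
  · simp [lk, Real.zero_rpow h0.ne']
  have := integral_comp_mul_left_Ioi (lk ν s) 0 hs
  rw [mul_zero, smul_eq_mul, eq_inv_mul_iff_mul_eq₀ hs.ne'] at this
  rw [← this, setIntegral_congr_fun measurableSet_Ioi
    (g := fun t => s ^ (ν - 1) * lk ν 1 t), integral_const_mul, Inu,
    Real.rpow_sub_one hs.ne']
  · field_simp
  · intro t ht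
    have ht0 : 0 < t := ht
    simp only [lk]
    rw [Real.mul_rpow hs.le ht0.le, show s / (s * t) = 1 / t by field_simp]; ring

lemma Inu_pos {ν : ℝ} (h0 : 0 < ν) (h1 : ν < 1) : 0 < Inu ν := by
  unfold Inu
  rw [setIntegral_pos_iff_support_of_nonneg_ae
    ((ae_restrict_iff' measurableSet_Ioi).mpr (ae_of_all _ fun t ht => lk_nonneg zero_le_one ht))
    (lk_integrable h0 h1 zero_le_one)]
  have : Function.support (lk ν 1) ∩ Ioi 0 = Ioi 0 := by
    refine inter_eq_right.mpr fun t ht => ?_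
    have ht0 : 0 < t := ht
    refine (mul_pos (by positivity) (Real.log_pos ?_)).ne'
    have : 0 < 1 / t := by positivity
    linarith
  rw [this]; simp

lemma lk_swap {ν c e : ℝ} (h0 : 0 < ν) (h1 : ν < 1) (hce : c ≤ e) {h : ℝ → ℝ}
    (hc : Continuous h) (hn : ∀ u ∈ Icc c e, 0 ≤ h u) :
    IntegrableOn (fun t => ∫ u in c..e, lk ν (h u) t) (Ioi 0) ∧
      ∫ t in Ioi (0 : ℝ), (∫ u in c..e, lk ν (h u) t) = Inu ν * ∫ u in c..e, h u ^ ν := by
  obtain ⟨H, hH⟩ := (isCompact_Icc (a := c) (b := e)).bddAbove_image hc.continuousOn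
  have hH' : ∀ u ∈ Icc c e, h u ≤ H := fun u hu => hH ⟨u, hu, rfl⟩
  have hH0 : 0 ≤ H := (hn c ⟨le_rfl, hce⟩).trans (hH' c ⟨le_rfl, hce⟩)
  have hint : Integrable (Function.uncurry fun t u => lk ν (h u) t)
      ((volume.restrict (Ioi 0)).prod (volume.restrict (Ioc c e))) := by
    refine ((lk_integrable h0 h1 hH0).comp_fst _).mono' ?_ ?_
    · exact ((measurable_lk ν).comp
        ((hc.measurable.comp measurable_snd).prodMk measurable_fst)).aestronglyMeasurable
    · rw [Measure.prod_restrict]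
      refine (ae_restrict_iff' (measurableSet_Ioi.prod measurableSet_Ioc)).mpr
        (ae_of_all _ fun p hp => ?_)
      have := hn _ (Ioc_subset_Icc_self hp.2)
      simp only [Function.uncurry]
      rw [Real.norm_of_nonneg (lk_nonneg this hp.1)]
      exact lk_mono this (hH' _ (Ioc_subset_Icc_self hp.2)) hp.1
  simp only [intervalIntegral.integral_of_le hce]
  refine ⟨hint.integral_prod_left, ?_⟩
  rw [integral_integral_swap hint, ← integral_const_mul]
  exact setIntegral_congr_fun measurableSet_Ioc fun u hu =>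
    lk_integral h0 (hn _ (Ioc_subset_Icc_self hu))

noncomputable def ft (t d : ℝ) : ℝ := (t + d) * Real.log (1 + d / t) - d

lemma ft_eq {t d : ℝ} (ht : 0 < t) (hd : 0 ≤ d) :
    ∫ s in (0 : ℝ)..d, Real.log (1 + s / t) = ft t d := by
  have hder : ∀ s ∈ uIcc 0 d, HasDerivAt (ft t) (Real.log (1 + s / t)) s := by
    intro s hs
    rw [uIcc_of_le hd] at hs
    have hs0 := hs.1
    have d1 := (((hasDerivAt_id s).div_const t).const_add 1).log
      (by simp only [id]; positivity)
    refine HasDerivAt.congr_deriv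
      ((((hasDerivAt_id s).const_add t).mul d1).sub (hasDerivAt_id s)) ?_
    simp only [id]; field_simp; ring
  rw [intervalIntegral.integral_eq_sub_of_hasDerivAt hder]
  · simp [ft]
  · refine ContinuousOn.intervalIntegrable (ContinuousOn.log (by fun_prop) fun s hs => ?_)
    rw [uIcc_of_le hd] at hs
    have hs0 := hs.1
    positivity

lemma ft_bound {ν η M d : ℝ} (h0 : 0 < ν) (h1 : ν < 1) (hη : 0 < η) (hM : η ≤ M) (hd : 0 ≤ d) :
    ∫ t in η..M, t ^ (ν - 1) * ft t d ≤ Inu ν * d ^ (ν + 1) / (ν + 1) := by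
  obtain ⟨i1, i2⟩ := lk_swap h0 h1 hd continuous_id (fun u hu => hu.1)
  simp only [id] at i1 i2
  rw [integral_rpow (Or.inl (by linarith)), Real.zero_rpow (by linarith), sub_zero] at i2
  rw [mul_div_assoc, ← i2, intervalIntegral.integral_of_le hM,
    setIntegral_congr_fun measurableSet_Ioc (g := fun t => ∫ u in (0 : ℝ)..d, lk ν u t)]
  · refine setIntegral_mono_set i1 ?_ (ae_of_all _ fun t ht => hη.trans ht.1)
    refine (ae_restrict_iff' measurableSet_Ioi).mpr (ae_of_all _ fun t ht => ?_)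
    exact intervalIntegral.integral_nonneg hd fun u hu => lk_nonneg hu.1 ht
  · intro t ht
    simp only [lk]
    rw [intervalIntegral.integral_const_mul, ft_eq (hη.trans ht.1) hd]

noncomputable def xlx (x : ℝ) : ℝ := x * Real.log x

noncomputable def gs (t k u : ℝ) : ℝ :=
  xlx (√(t + k ^ 2) + u) - xlx (√(t + k ^ 2) - u) - (2 + Real.log t) * u

lemma lt_sqrt_aux {t k : ℝ} (ht : 0 < t) : k < √(t + k ^ 2) :=
  Real.lt_sqrt_of_sq_lt (by linarith)

lemma gs_eq {t k : ℝ} (ht : 0 < t) (hk : 0 ≤ k) :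
    ∫ u in (-k)..k, Real.log (1 + (k ^ 2 - u ^ 2) / t) = gs t k k - gs t k (-k) := by
  have hl := lt_sqrt_aux (k := k) ht
  have hsq : √(t + k ^ 2) ^ 2 = t + k ^ 2 := Real.sq_sqrt (by positivity)
  have hkk : -k ≤ k := by linarith
  refine intervalIntegral.integral_eq_sub_of_hasDerivAt (fun u hu => ?_) ?_
  · rw [uIcc_of_le hkk] at hu
    have p1 : 0 < √(t + k ^ 2) + u := by linarith [hu.1]
    have p2 : 0 < √(t + k ^ 2) - u := by linarith [hu.2]
    have d1 := (Real.hasDerivAt_mul_log p1.ne').comp u ((hasDerivAt_id u).const_add _)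
    have d2 := (Real.hasDerivAt_mul_log p2.ne').comp u ((hasDerivAt_id u).const_sub _)
    refine HasDerivAt.congr_deriv
      ((d1.sub d2).sub ((hasDerivAt_id u).const_mul (2 + Real.log t))) ?_
    have : 1 + (k ^ 2 - u ^ 2) / t = (√(t + k ^ 2) + u) * (√(t + k ^ 2) - u) / t := by
      field_simp; linarith
    rw [this, Real.log_div (by positivity) ht.ne', Real.log_mul p1.ne' p2.ne']; ring
  · refine ContinuousOn.intervalIntegrable (ContinuousOn.log (by fun_prop) fun s hs => ?_)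
    rw [uIcc_of_le hkk] at hs
    have : 0 ≤ k ^ 2 - s ^ 2 := by nlinarith [hs.1, hs.2]
    positivity

lemma beta_scale {ν k : ℝ} (hk : 0 < k) :
    ∫ u in (-k)..k, (k ^ 2 - u ^ 2) ^ ν = beta ν * k ^ (2 * ν + 1) := by
  have := intervalIntegral.mul_integral_comp_mul_left (a := -1) (b := 1)
    (f := fun u => (k ^ 2 - u ^ 2) ^ ν) k
  rw [mul_neg, mul_one] at this
  rw [← this, intervalIntegral.integral_congr (g := fun u => k ^ (2 * ν) * (1 - u ^ 2) ^ ν),
    intervalIntegral.integral_const_mul, beta, Real.rpow_add_one hk.ne']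
  · ring
  · intro u hu
    rw [uIcc_of_le (by norm_num)] at hu
    have : 0 ≤ 1 - u ^ 2 := by nlinarith [hu.1, hu.2]
    simp only
    rw [show k ^ 2 - (k * u) ^ 2 = k ^ 2 * (1 - u ^ 2) by ring, Real.mul_rpow (by positivity) this,
      Real.rpow_mul hk.le, Real.rpow_two]

lemma gs_tendsto {ν k : ℝ} (h0 : 0 < ν) (h1 : ν < 1) (hk : 0 < k) :
    Tendsto (fun j : ℕ => ∫ t in (1 / (j + 1 : ℝ))..(j + 1), t ^ (ν - 1) * (gs t k k - gs t k (-k)))
      atTop (𝓝 (Inu ν * (beta ν * k ^ (2 * ν + 1)))) := by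
  obtain ⟨i1, i2⟩ := lk_swap (h := fun u => k ^ 2 - u ^ 2) h0 h1 (by linarith : -k ≤ k)
    (by fun_prop) (fun u hu => by nlinarith [hu.1, hu.2])
  rw [beta_scale hk] at i2
  have hU : ⋃ j : ℕ, Ioc (1 / (j + 1 : ℝ)) (j + 1) = Ioi 0 := by
    ext t
    simp only [mem_iUnion, mem_Ioc, mem_Ioi]
    constructor
    · rintro ⟨j, hj, -⟩; exact lt_trans (by positivity) hj
    · intro ht
      obtain ⟨j, hj⟩ := exists_nat_gt (max t (1 / t))
      refine ⟨j, ?_, by linarith [le_max_left t (1 / t)]⟩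
      rw [one_div_lt (by positivity) ht]; linarith [le_max_right t (1 / t)]
  have hmono : Monotone fun j : ℕ => Ioc (1 / (j + 1 : ℝ)) (j + 1) := by
    intro i j hij
    have : (i : ℝ) ≤ j := by exact_mod_cast hij
    exact Ioc_subset_Ioc (by gcongr) (by linarith)
  have := tendsto_setIntegral_of_monotone (fun j => measurableSet_Ioc) hmono (hU ▸ i1)
  rw [hU, i2] at this
  refine this.congr fun j => ?_
  have hj : (1 / (j + 1 : ℝ)) ≤ j + 1 := by
    have : (0 : ℝ) ≤ j := Nat.cast_nonneg j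
    rw [div_le_iff₀ (by positivity)]; nlinarith
  rw [intervalIntegral.integral_of_le hj]
  refine setIntegral_congr_fun measurableSet_Ioc fun t ht => ?_
  simp only [lk]
  rw [intervalIntegral.integral_const_mul, gs_eq (lt_trans (by positivity) ht.1) hk.le]

lemma beta_pos {ν : ℝ} (h0 : 0 < ν) : 0 < beta ν := by
  refine intervalIntegral.intervalIntegral_pos_of_pos_on ?_ (fun u hu => ?_) (by norm_num)
  · exact (Continuous.rpow_const (by fun_prop) fun _ => Or.inr h0.le).intervalIntegrable _ _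
  · have : 0 < 1 - u ^ 2 := by nlinarith [hu.1, hu.2]
    positivity

end Vale.Agent.P371
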