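import Vale.Agent.P371.GT
import Vale.Agent.P371.Scal

open Matrix Filter Topology Set MeasureTheory
open scoped Matrix.Norms.L2Operator MatrixOrder ComplexOrder

set_option linter.unusedSectionVars false

namespace Vale.Agent.P371

variable {n : Type} [Fintype n] [DecidableEq n]

noncomputable def Lam (κ : Matrix n n ℂ) (t : ℝ) : Matrix n n ℂ :=
  cfc (fun s : ℝ => √(t + s ^ 2)) κ

noncomputable def Lt (κ u : Matrix n n ℂ) (t : ℝ) : Matrix n n ℂ :=
  cfc Real.log (Lam κ t + u) + cfc Real.log (Lam κ t - u) - Real.log t • 1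

def Adm (κ u : Matrix n n ℂ) : Prop :=
  ∀ t, 0 < t → (Lam κ t + u).PosDef ∧ (Lam κ t - u).PosDef

noncomputable def om (κ u : Matrix n n ℂ) (t : ℝ) : ℝ :=
  rt (Lt κ u t * (κ * κ - u * u + t • 1)) - rt (κ * κ - u * u)

variable {κ u : Matrix n n ℂ}

lemma Lam_herm (κ : Matrix n n ℂ) (t : ℝ) : (Lam κ t).IsHermitian := cfc_herm _ _

lemma Lam_sq (hκ : κ.IsHermitian) {t : ℝ} (ht : 0 ≤ t) :
    Lam κ t * Lam κ t = κ * κ + t • 1 := by
  conv_rhs => rw [← cfc_const' hκ, show κ * κ = cfc (fun s : ℝ => s) κ * cfc (fun s : ℝ => s) κ by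
    rw [cfc_id'' hκ]]
  rw [Lam, cfc_mul', cfc_mul', cfc_add']
  congr 1; ext s
  rw [Real.mul_self_sqrt (by positivity)]; ring

lemma anticomm (hκ : κ.IsHermitian) {t : ℝ} (ht : 0 ≤ t) :
    (Lam κ t + u) * (Lam κ t - u) + (Lam κ t - u) * (Lam κ t + u)
      = (2 : ℝ) • (κ * κ - u * u + t • 1) := by
  have : (Lam κ t + u) * (Lam κ t - u) + (Lam κ t - u) * (Lam κ t + u)
      = (2 : ℝ) • (Lam κ t * Lam κ t - u * u) := by
    rw [two_smul]; noncomm_ring
  rw [this, Lam_sq hκ ht]; congr 1; abel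

lemma rt_XY (hκ : κ.IsHermitian) {t : ℝ} (ht : 0 ≤ t) :
    rt ((Lam κ t + u) * (Lam κ t - u)) = rt (κ * κ - u * u) + t * Fintype.card n := by
  have := congrArg rt (anticomm (u := u) hκ ht)
  rw [rt_add, rt_comm (Lam κ t - u), rt_smul, rt_add, rt_smul, rt_one] at this
  linarith

lemma hasDerivAt_Lam (hκ : κ.IsHermitian) {t : ℝ} (ht : 0 < t) :
    HasDerivAt (Lam κ) (cfc (fun s : ℝ => 1 / (2 * √(t + s ^ 2))) κ) t :=
  hasDerivAt_cfc_fun hκ (f := fun t s => √(t + s ^ 2)) fun s _ =>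
    ((hasDerivAt_id t).add_const (s ^ 2)).sqrt (by simp only [id]; positivity)

lemma continuousOn_Lam (hκ : κ.IsHermitian) : ContinuousOn (Lam κ) (Ioi 0) := fun _ ht =>
  (hasDerivAt_Lam hκ ht).continuousAt.continuousWithinAt

lemma om_deriv (hκ : κ.IsHermitian) (hu : Adm κ u) {t : ℝ} (ht : 0 < t) :
    ∃ w, HasDerivAt (om κ u) w t ∧ t * w ≤ t * rt (Lt κ u t) - rt (κ * κ - u * u) := by
  set K := cfc (fun s : ℝ => 1 / (2 * √(t + s ^ 2))) κ with hK
  have hKp : K.PosSemidef := cfc_psd fun s _ => by positivity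
  have hZ : (Lam κ t + Lam κ t).IsHermitian := (Lam_herm κ t).add (Lam_herm κ t)
  have hZK : (Lam κ t + Lam κ t) * K = 1 := by
    rw [hK, Lam, cfc_add', cfc_mul', ← one_smul ℝ (1 : Matrix n n ℂ), ← cfc_const' hκ]
    congr 1; ext s
    have : 0 < √(t + s ^ 2) := by positivity
    field_simp; ring
  have hev : ∀ᶠ s in 𝓝 t, 0 < s := Ioi_mem_nhds ht
  obtain ⟨K1, d1, b1⟩ := exists_hasDerivAt_log ((hasDerivAt_Lam hκ ht).add_const u)
    (hev.mono fun s hs => (hu s hs).1) hKp hZ hZK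
  obtain ⟨K2, d2, b2⟩ := exists_hasDerivAt_log ((hasDerivAt_Lam hκ ht).sub_const u)
    (hev.mono fun s hs => (hu s hs).2) hKp hZ hZK
  rw [show Lam κ t + Lam κ t - (Lam κ t + u) = Lam κ t - u by abel, anticomm hκ ht.le] at b1
  rw [show Lam κ t + Lam κ t - (Lam κ t - u) = Lam κ t + u by abel, add_comm (_ * _),
    anticomm hκ ht.le] at b2
  have dL : HasDerivAt (Lt κ u) (K1 + K2 - t⁻¹ • 1) t :=
    (d1.add d2).sub ((Real.hasDerivAt_log ht.ne').smul_const 1)
  have dD : HasDerivAt (fun s : ℝ => κ * κ - u * u + s • (1 : Matrix n n ℂ)) ((1 : ℝ) • 1) t :=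
    ((hasDerivAt_id t).smul_const 1).const_add _
  refine ⟨_, (rtL.hasFDerivAt.comp_hasDerivAt t (dL.mul dD)).sub_const _, ?_⟩
  have e := congrArg rt hZK
  rw [show Lam κ t + Lam κ t = (Lam κ t - u) + (Lam κ t + u) by abel, Matrix.add_mul, rt_add,
    rt_one] at e
  rw [Matrix.smul_mul, rt_smul, rt_comm] at b1 b2
  rw [rtL_apply, one_smul, Matrix.mul_one, rt_add, Matrix.sub_mul, Matrix.add_mul, rt_sub, rt_add,
    Matrix.smul_mul, Matrix.one_mul, rt_smul, rt_add (κ * κ - u * u), rt_smul, rt_one]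
  have : t * (t⁻¹ * (rt (κ * κ - u * u) + t * Fintype.card n))
      = rt (κ * κ - u * u) + t * Fintype.card n := by field_simp
  nlinarith

lemma om_eq (hκ : κ.IsHermitian) (hu : Adm κ u) {t : ℝ} (ht : 0 < t) {U V : Matrix n n ℂ}
    {x y : n → ℝ} (h1 : Spec (Lam κ t + u) U x) (h2 : Spec (Lam κ t - u) V y) :
    om κ u t = ∑ i, ∑ j, (x i * y j * Real.log (x i * y j / t) - x i * y j + t)
      * ‖(Uᴴ * V) i j‖ ^ 2 := by
  have hx := h1.pos (hu t ht).1
  have hy := h2.pos (hu t ht).2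
  set X := Lam κ t + u
  set Y := Lam κ t - u
  have e0 : κ * κ - u * u + t • 1 = (1 / 2 : ℝ) • (X * Y + Y * X) := by
    rw [anticomm hκ ht.le, smul_smul]; norm_num
  have eX : cfc Real.log X * X = cfc (fun s => Real.log s * s) X := by
    rw [← cfc_mul', cfc_id'' h1.herm]
  have eX' : X * cfc Real.log X = cfc (fun s => Real.log s * s) X := by
    conv_lhs => rw [← cfc_id'' h1.herm, cfc_cfc _ _ h1.herm, cfc_mul']
    simp only [mul_comm]
  have eY : cfc Real.log Y * Y = cfc (fun s => Real.log s * s) Y := by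
    rw [← cfc_mul', cfc_id'' h2.herm]
  have eY' : Y * cfc Real.log Y = cfc (fun s => Real.log s * s) Y := by
    conv_lhs => rw [← cfc_id'' h2.herm, cfc_cfc _ _ h2.herm, cfc_mul']
    simp only [mul_comm]
  have a1 := h1.rt_fc_fc h2 (fun s => Real.log s * s) (fun s => s)
  have a2 := h1.rt_fc_fc h2 (fun s => s) (fun s => Real.log s * s)
  have a3 := h1.rt_fc_fc h2 (fun s => s) (fun s => s)
  have a4 := h1.rt_fc_fc h2 (fun _ => 1) (fun _ => 1)
  rw [cfc_id'' h2.herm] at a1 a3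
  rw [cfc_id'' h1.herm] at a2 a3
  rw [cfc_const' h1.herm, cfc_const' h2.herm, one_smul, Matrix.one_mul, rt_one] at a4
  have b1 : rt (cfc Real.log X * (X * Y + Y * X)) = 2 * rt (cfc (fun s => Real.log s * s) X * Y) := by
    rw [Matrix.mul_add, rt_add, ← Matrix.mul_assoc, eX, ← Matrix.mul_assoc, rt_comm _ X,
      ← Matrix.mul_assoc, eX']; ring
  have b2 : rt (cfc Real.log Y * (X * Y + Y * X)) = 2 * rt (X * cfc (fun s => Real.log s * s) Y) := by
    rw [Matrix.mul_add, rt_add, ← Matrix.mul_assoc _ Y, eY, ← Matrix.mul_assoc, rt_comm _ Y,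
      ← Matrix.mul_assoc, eY', rt_comm X]; ring
  have b3 := rt_XY (u := u) hκ ht.le
  have : om κ u t = rt (cfc (fun s => Real.log s * s) X * Y)
      + rt (X * cfc (fun s => Real.log s * s) Y) - Real.log t * rt (X * Y) - rt (X * Y)
      + t * Fintype.card n := by
    rw [om, e0, Lt, Matrix.mul_smul, rt_smul, Matrix.sub_mul, Matrix.add_mul, rt_sub, rt_add, b1, b2,
      Matrix.smul_mul, Matrix.one_mul, rt_smul, rt_add, rt_comm Y X]
    linarith
  rw [this, a1, a2, a3, a4]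
  simp only [Finset.mul_sum, ← Finset.sum_add_distrib, ← Finset.sum_sub_distrib]
  refine Finset.sum_congr rfl fun i _ => Finset.sum_congr rfl fun j _ => ?_
  rw [Real.log_div (mul_pos (hx i) (hy j)).ne' ht.ne', Real.log_mul (hx i).ne' (hy j).ne']; ring

lemma om_nonneg (hκ : κ.IsHermitian) (hu : Adm κ u) {t : ℝ} (ht : 0 < t) : 0 ≤ om κ u t := by
  obtain ⟨U, x, h1⟩ := exists_spec (hu t ht).1.1
  obtain ⟨V, y, h2⟩ := exists_spec (hu t ht).2.1
  rw [om_eq hκ hu ht h1 h2]
  refine Finset.sum_nonneg fun i _ => Finset.sum_nonneg fun j _ => mul_nonneg ?_ (by positivity)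
  have hz := mul_pos (h1.pos (hu t ht).1 i) (h2.pos (hu t ht).2 j)
  set z := x i * y j
  have := mul_le_mul_of_nonneg_left (Real.one_sub_inv_le_log_of_pos (div_pos hz ht)) hz.le
  have e : z * (1 - (z / t)⁻¹) = z - t := by field_simp
  linarith

lemma om_le (hκ : κ.IsHermitian) {ν : ℝ} (h0 : 0 < ν) :
    ∃ K, ∀ u, Adm κ u → ∀ t, 0 < t → t ≤ 1 → t ^ ν * om κ u t ≤ K * t ^ (ν / 2) := by
  set C := 2 * rt (Lam κ 1) with hC
  refine ⟨Fintype.card n * (C ^ 2 * ((C ^ 2) ^ (ν / 2) / (ν / 2)) + 1), fun u hu t ht ht1 => ?_⟩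
  obtain ⟨U, x, h1⟩ := exists_spec (hu t ht).1.1
  obtain ⟨V, y, h2⟩ := exists_spec (hu t ht).2.1
  have hx := h1.pos (hu t ht).1
  have hy := h2.pos (hu t ht).2
  have s1 : rt (Lam κ t + u) = ∑ i, x i := by rw [← h1.rt_fc fun s => s, cfc_id'' h1.herm]
  have s2 : rt (Lam κ t - u) = ∑ i, y i := by rw [← h2.rt_fc fun s => s, cfc_id'' h2.herm]
  have s3 : rt (Lam κ t) ≤ rt (Lam κ 1) := by
    have := rt_mul_mono PosSemidef.one (show Lam κ t ≤ Lam κ 1 from
      cfc_le' fun s _ => Real.sqrt_le_sqrt (by linarith))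
    simpa using this
  rw [rt_add] at s1; rw [rt_sub] at s2
  have p1 : 0 ≤ ∑ i, x i := Finset.sum_nonneg fun i _ => (hx i).le
  have p2 : 0 ≤ ∑ i, y i := Finset.sum_nonneg fun i _ => (hy i).le
  have bx : ∀ i, x i ≤ C := fun i => by
    have := Finset.single_le_sum (fun i _ => (hx i).le) (Finset.mem_univ i); linarith
  have by' : ∀ i, y i ≤ C := fun i => by
    have := Finset.single_le_sum (fun i _ => (hy i).le) (Finset.mem_univ i); linarith
  rw [om_eq hκ hu ht h1 h2]
  set K := C ^ 2 * ((C ^ 2) ^ (ν / 2) / (ν / 2)) + 1 with hK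
  have : Fintype.card n * K * t ^ (ν / 2) = ∑ i, ∑ j, K * t ^ (ν / 2) * ‖(Uᴴ * V) i j‖ ^ 2 := by
    simp only [← Finset.mul_sum, h1.row_sum h2]; simp; ring
  rw [this, Finset.mul_sum]
  refine Finset.sum_le_sum fun i _ => ?_
  rw [Finset.mul_sum]
  refine Finset.sum_le_sum fun j _ => ?_
  rw [← mul_assoc]
  refine mul_le_mul_of_nonneg_right ?_ (by positivity)
  have hz := mul_pos (hx i) (hy j)
  have hzC : x i * y j ≤ C ^ 2 := by
    rw [sq]; exact mul_le_mul (bx i) (by' j) (hy j).le ((hx i).le.trans (bx i))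
  set z := x i * y j
  have e1 : Real.log (z / t) ≤ (C ^ 2 / t) ^ (ν / 2) / (ν / 2) :=
    (Real.log_le_log (by positivity) (by gcongr)).trans
      (Real.log_le_rpow_div (by positivity) (by positivity))
  have e2 : z * Real.log (z / t) ≤ C ^ 2 * ((C ^ 2 / t) ^ (ν / 2) / (ν / 2)) :=
    (mul_le_mul_of_nonneg_left e1 hz.le).trans (mul_le_mul_of_nonneg_right hzC (by positivity))
  have e3 : t ^ ν = t ^ (ν / 2) * t ^ (ν / 2) := by rw [← Real.rpow_add ht]; ring_nf
  have e4 : t ^ (ν / 2) ≤ 1 := Real.rpow_le_one ht.le ht1 (by positivity)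
  have e5 : 0 < t ^ (ν / 2) := by positivity
  rw [Real.div_rpow (by positivity) ht.le] at e2
  have e6 : t ^ (ν / 2) * (z * Real.log (z / t) - z + t) ≤ K := by
    have := mul_le_mul_of_nonneg_left e2 e5.le
    have e : t ^ (ν / 2) * (C ^ 2 * ((C ^ 2) ^ (ν / 2) / t ^ (ν / 2) / (ν / 2)))
        = C ^ 2 * ((C ^ 2) ^ (ν / 2) / (ν / 2)) := by field_simp
    nlinarith
  rw [e3, mul_comm K, mul_assoc]
  exact mul_le_mul_of_nonneg_left e6 e5.le

lemma gibbs_step (hκ : κ.IsHermitian) (hu : Adm κ u) {t : ℝ} (ht : 0 < t) {V : Matrix n n ℂ}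
    (hV : V.PosSemidef) {q : ℝ} (hq : 0 < q) :
    rt (Lt κ u t * V) ≤ q * (rt (cfc (fun s => ft t (s / q)) V) + rt (κ * κ - u * u)
      - t * rt (Lt κ u t)) := by
  have hs : ∀ s ∈ spectrum ℝ V, 0 ≤ s := fun s hs => spectrum_nonneg_of_psd hV hs
  have hR : (cfc (fun s : ℝ => t + s / q) V).PosDef :=
    cfc_posDef hV.1 fun s h => by have := hs s h; positivity
  have eR : cfc (fun s : ℝ => t + s / q) V = t • 1 + q⁻¹ • V := by
    conv_rhs => rw [← cfc_const' hV.1, ← cfc_id'' hV.1, cfc_smul', cfc_id'' hV.1, cfc_add']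
    congr 1; ext s; ring
  have := gibbs_gt hR (hu t ht).1 (hu t ht).2
  have e1 : cfc Real.log (Lam κ t + u) + cfc Real.log (Lam κ t - u)
      - cfc Real.log (cfc (fun s : ℝ => t + s / q) V)
      = Lt κ u t - cfc (fun s => Real.log (1 + s / q / t)) V := by
    rw [cfc_cfc _ _ hV.1, Lt, ← cfc_const' hV.1, sub_sub, cfc_add']
    congr 1
    refine cfc_congr fun s h => ?_
    have := hs s h
    rw [← Real.log_mul ht.ne' (by positivity)]; congr 1; field_simp
  have e2 : cfc (fun s => ft t (s / q)) V = cfc (fun s : ℝ => t + s / q) V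
      * cfc (fun s => Real.log (1 + s / q / t)) V - q⁻¹ • V := by
    conv_rhs => rw [cfc_mul', ← cfc_id'' hV.1, cfc_smul', cfc_id'' hV.1, cfc_sub']
    congr 1; ext s; simp only [ft]; ring
  rw [e1, Matrix.mul_sub, rt_sub, rt_XY hκ ht.le] at this
  rw [e2, rt_sub, rt_smul]
  rw [eR] at this ⊢
  rw [Matrix.add_mul (t • 1) _ (Lt κ u t), rt_add, rt_add (t • 1) (q⁻¹ • V)] at this
  simp only [Matrix.smul_mul, Matrix.one_mul, rt_smul, rt_one] at this
  rw [rt_comm V] at this
  rw [← inv_mul_le_iff₀ hq]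
  linarith

lemma continuousOn_Lt (hκ : κ.IsHermitian) {X : Type*} [TopologicalSpace X] {T : Set X}
    {u : X → Matrix n n ℂ} {t : X → ℝ} (hu : ContinuousOn u T) (ht : ContinuousOn t T)
    (hpos : ∀ x ∈ T, 0 < t x) (ha : ∀ x ∈ T, Adm κ (u x)) :
    ContinuousOn (fun x => Lt κ (u x) (t x)) T := by
  have hL : ContinuousOn (fun x => Lam κ (t x)) T := (continuousOn_Lam hκ).comp ht hpos
  have hlog : ContinuousOn Real.log (Ioi 0) :=
    Real.continuousOn_log.mono fun s hs => (ne_of_gt hs)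
  exact ((continuousOn_cfc_pos hlog (hL.add hu) fun x hx => (ha x hx _ (hpos x hx)).1).add
    (continuousOn_cfc_pos hlog (hL.sub hu) fun x hx => (ha x hx _ (hpos x hx)).2)).sub
    ((ht.log fun x hx => (hpos x hx).ne').smul continuousOn_const)

/-- the pointwise calibration inequality -/
lemma point_ineq (hκ : κ.IsHermitian) (hu : Adm κ u) {V : Matrix n n ℂ} (hV : V.PosSemidef)
    {ν η M : ℝ} (h0 : 0 < ν) (h1 : ν < 1) (hη : 0 < η) (hM : η ≤ M) :
    ∫ t in η..M, t ^ (ν - 1) * rt (Lt κ u t * (V - (κ * κ - u * u)))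
      ≤ Inu ν * ((ν / (ν + 1)) ^ ν / (ν + 1) * rt (cfc (fun s : ℝ => s ^ (ν + 1)) V))
        + η ^ ν * om κ u η / ν := by
  set q := (ν + 1) / ν with hq
  have hq0 : 0 < q := by positivity
  obtain ⟨U, v, h⟩ := exists_spec hV.1
  have hv := h.nonneg hV
  have hpos : ∀ t ∈ Icc η M, 0 < t := fun t ht => hη.trans_le ht.1
  have c0 : ContinuousOn (fun t : ℝ => t ^ (ν - 1)) (Icc η M) :=
    continuousOn_id.rpow_const fun t ht => Or.inl (hpos t ht).ne'
  have c1 : ContinuousOn (fun t => t ^ (ν - 1) * rt (Lt κ u t * (V - (κ * κ - u * u))))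
      (Icc η M) :=
    c0.mul (continuous_rt.comp_continuousOn ((continuousOn_Lt hκ continuousOn_const
      continuousOn_id hpos fun _ _ => hu).mul continuousOn_const))
  have c2 : ∀ i, ContinuousOn (fun t => t ^ (ν - 1) * ft t (v i / q)) (Icc η M) := fun i => by
    refine c0.mul (ContinuousOn.sub (ContinuousOn.mul (by fun_prop) (ContinuousOn.log ?_ ?_))
      continuousOn_const)
    · exact continuousOn_const.add (continuousOn_const.div continuousOn_id
        fun t ht => (hpos t ht).ne')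
    · intro t ht; have := hpos t ht; have := hv i; positivity
  choose! w hw using fun t (ht : 0 < t) => om_deriv hκ hu ht
  have hg : ∀ t, 0 < t → HasDerivAt (fun t => t ^ ν * om κ u t / ν)
      ((ν * t ^ (ν - 1) * om κ u t + t ^ ν * w t) / ν) t := fun t ht =>
    ((Real.hasDerivAt_rpow_const (Or.inl ht.ne')).mul (hw t ht).1).div_const ν
  have i1 := c1.intervalIntegrable_of_Icc (μ := volume) hM
  have i2 := fun i => (c2 i).intervalIntegrable_of_Icc (μ := volume) hM
  have key := intervalIntegral.sub_le_integral_of_hasDeriv_right_of_le hM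
    (fun t ht => (hg t (hpos t ht)).continuousAt.continuousWithinAt)
    (fun t ht => (hg t (hη.trans ht.1)).hasDerivWithinAt)
    (φ := fun t => q * (∑ i, t ^ (ν - 1) * ft t (v i / q))
      - t ^ (ν - 1) * rt (Lt κ u t * (V - (κ * κ - u * u))))
    (((continuousOn_const.mul (continuousOn_finsetSum _ fun i _ => c2 i)).sub
      c1).integrableOn_Icc) (by
      intro t ht
      have ht0 : 0 < t := hη.trans ht.1
      have g1 := gibbs_step hκ hu ht0 hV hq0
      have g2 := (hw t ht0).2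
      have e1 : om κ u t = rt (Lt κ u t * (κ * κ - u * u)) + t * rt (Lt κ u t)
          - rt (κ * κ - u * u) := by
        rw [om, Matrix.mul_add, rt_add, Matrix.mul_smul, Matrix.mul_one, rt_smul]
      have e2 : t ^ ν = t ^ (ν - 1) * t := by rw [Real.rpow_sub_one ht0.ne']; field_simp
      rw [h.rt_fc] at g1
      rw [← Finset.mul_sum, Matrix.mul_sub, rt_sub, e1, e2]
      have e3 : 0 < t ^ (ν - 1) := by positivity
      set F := ∑ i, ft t (v i / q)
      set a := rt (Lt κ u t)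
      set b := rt (Lt κ u t * (κ * κ - u * u))
      set c := rt (Lt κ u t * V)
      set d := rt (κ * κ - u * u)
      have g3 : b + t * a - d + t * w t / ν ≤ q * F - (c - b) := by
        have : t * w t / ν ≤ (t * a - d) / ν := by gcongr
        have e : q * (F + d - t * a) = q * F - (t * a - d) - (t * a - d) / ν := by
          rw [hq]; field_simp; ring
        linarith
      have := mul_le_mul_of_nonneg_left g3 e3.le
      calc _ = t ^ (ν - 1) * (b + t * a - d + t * w t / ν) := by field_simp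
        _ ≤ _ := by linarith)
  have i3 : IntervalIntegrable (fun t => q * (∑ i, t ^ (ν - 1) * ft t (v i / q))) volume η M :=
    (continuousOn_const.mul
      (continuousOn_finsetSum _ fun i _ => c2 i)).intervalIntegrable_of_Icc hM
  rw [intervalIntegral.integral_sub i3 i1, intervalIntegral.integral_const_mul,
    intervalIntegral.integral_finsetSum fun i _ => i2 i] at key
  have b1 : ∑ i, ∫ t in η..M, t ^ (ν - 1) * ft t (v i / q)
      ≤ ∑ i, Inu ν * (v i / q) ^ (ν + 1) / (ν + 1) :=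
    Finset.sum_le_sum fun i _ => ft_bound h0 h1 hη hM (div_nonneg (hv i) hq0.le)
  have b2 : q * ∑ i, Inu ν * (v i / q) ^ (ν + 1) / (ν + 1)
      = Inu ν * ((ν / (ν + 1)) ^ ν / (ν + 1) * rt (cfc (fun s : ℝ => s ^ (ν + 1)) V)) := by
    rw [h.rt_fc, Finset.mul_sum, Finset.mul_sum, Finset.mul_sum]
    refine Finset.sum_congr rfl fun i _ => ?_
    rw [Real.div_rpow (hv i) hq0.le, Real.rpow_add_one hq0.ne',
      show ν / (ν + 1) = q⁻¹ by rw [hq, inv_div], Real.inv_rpow hq0.le]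
    have : 0 < q ^ ν := by positivity
    field_simp
  have b3 : 0 ≤ M ^ ν * om κ u M / ν := by
    have := om_nonneg hκ hu (hη.trans_le hM)
    have := hη.trans_le hM
    positivity
  have := mul_le_mul_of_nonneg_left b1 hq0.le
  linarith

end Vale.Agent.P371
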