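import Vale.Agent.P371.Ode
import Vale.Agent.P371.Brouwer

open Matrix Filter Topology Set MeasureTheory
open scoped Matrix.Norms.L2Operator MatrixOrder ComplexOrder NNReal

set_option linter.unusedSectionVars false

namespace Vale.Agent.P371

variable {n : Type} [Fintype n] [DecidableEq n]

lemma norm_cfc_le' {f : ℝ → ℝ} {A : Matrix n n ℂ} {c : ℝ} (hc : 0 ≤ c)
    (h : ∀ s ∈ spectrum ℝ A, |f s| ≤ c) : ‖cfc f A‖ ≤ c :=
  norm_cfc_le hc fun s hs => h s hs

lemma spec_le_of_le {A : Matrix n n ℂ} (hA : A.IsHermitian) {c : ℝ}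
    (h : A ≤ c • (1 : Matrix n n ℂ)) : ∀ s ∈ spectrum ℝ A, s ≤ c := by
  intro s hs
  obtain ⟨U, l, hU⟩ := exists_spec hA
  obtain ⟨j, rfl⟩ := hU.surj s hs
  have := rt_mul_le (pj_psd U j) (hU.rt_pj j) h
  have e := hU.fc_pj (fun s => s) j
  rwa [rt_comm, ← cfc_id'' hA, hU.fc_pj, rt_smul, hU.rt_pj, mul_one] at this

lemma rt_deriv {P : Matrix n n ℂ} {U : ℝ → Matrix n n ℂ} {U' : Matrix n n ℂ} {s : Set ℝ} {x : ℝ}
    (h : HasDerivWithinAt U U' s x) :
    HasDerivWithinAt (fun y => rt (P * U y)) (rt (P * U')) s x := by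
  have := (rtL (n := n)).hasFDerivAt.comp_hasDerivWithinAt x (h.const_mul P)
  exact this

set_option maxHeartbeats 400000 in
/-- The shooting theorem. -/
theorem shoot {a b : ℝ} (hab : a ≤ b) {Q : ℝ → Matrix n n ℂ} (hQc : Continuous Q)
    (hQ : ∀ x, (Q x).PosSemidef)
    (hQ2 : ∀ P : Matrix n n ℂ, P.PosSemidef → rt P = 1 → 1 / 2 ≤ ∫ x in a..b, rt (P * Q x))
    {E : Matrix n n ℂ} (hE : E.PosDef) {ε : ℝ} (hε : 0 < ε) {r : ℝ} (hr : 1 ≤ r) :
    ∃ (B κ : Matrix n n ℂ) (U : ℝ → Matrix n n ℂ), B.IsHermitian ∧ κ.PosDef ∧ E ≤ κ * κ ∧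
      B * (κ * κ) * B = B * E * B + ε • 1 ∧ U a = κ ∧ U b = -κ ∧
      (∀ x ∈ Icc a b, HasDerivWithinAt U
        (κ * κ - U x * U x - cfc (fun s : ℝ => s ^ r) (B * Q x * B)) (Icc a b) x) ∧
      ∀ x ∈ Icc a b, (U x).IsHermitian ∧ Adm κ (U x) := by
  obtain ⟨M, hM⟩ := (isCompact_Icc (a := a) (b := b)).exists_bound_of_continuousOn hQc.continuousOn
  have hM0 : 0 ≤ M := (norm_nonneg _).trans (hM a ⟨le_rfl, hab⟩)
  obtain ⟨ℓ, hℓ⟩ : ∃ ℓ, ℓ = b - a := ⟨_, rfl⟩
  have hℓ0 : 0 ≤ ℓ := hℓ ▸ sub_nonneg.mpr hab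
  obtain ⟨e, he⟩ : ∃ e, e = ‖E‖ := ⟨_, rfl⟩
  have he0 : 0 ≤ e := he ▸ norm_nonneg _
  obtain ⟨R, hR⟩ : ∃ R, R = 2 * (1 + ℓ) * (1 + (e + ε)) + 1 := ⟨_, rfl⟩
  have hR1 : 1 ≤ R := by rw [hR]; have : 0 ≤ 2 * (1 + ℓ) * (1 + (e + ε)) := by positivity
                         linarith
  obtain ⟨c₁, hc₁⟩ : ∃ c₁, c₁ = (R * M * R) ^ r := ⟨_, rfl⟩
  have hc₁0 : 0 ≤ c₁ := by rw [hc₁]; positivity
  obtain ⟨k, hk⟩ : ∃ k, k = ℓ * (e + 1 + c₁) + (e + 1) + ε + 1 := ⟨_, rfl⟩
  have hk1 : e + 1 + ε + 1 ≤ k := by rw [hk]; have : 0 ≤ ℓ * (e + 1 + c₁) := by positivity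
                                     linarith
  have hk0 : 0 < k := by linarith
  obtain ⟨lam, hlam⟩ : ∃ lam, lam = k ^ 2 - (e + 1) := ⟨_, rfl⟩
  have hlamε : ε ≤ lam := by rw [hlam]; nlinarith
  have hlam0 : 0 < lam := by linarith
  obtain ⟨δ, hδ⟩ : ∃ δ, δ = √(ε / lam) := ⟨_, rfl⟩
  have hδ0 : 0 < δ := by rw [hδ]; positivity
  have hδ2 : ε * δ⁻¹ ^ 2 = lam := by
    rw [inv_pow, hδ, Real.sq_sqrt (by positivity)]; field_simp
  have hδ1 : δ ≤ 1 := hδ ▸ Real.sqrt_le_one.mpr ((div_le_one hlam0).mpr hlamε)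
  obtain ⟨cl, hcl⟩ : ∃ cl : ℝ → ℝ, cl = fun s => max δ (min s R) := ⟨_, rfl⟩
  have cl1 : ∀ s, δ ≤ cl s := fun s => hcl ▸ le_max_left _ _
  have cl0 : ∀ s, 0 < cl s := fun s => hδ0.trans_le (cl1 s)
  have cl2 : ∀ s, cl s ≤ R := fun s => hcl ▸ max_le (by linarith) (min_le_right _ _)
  have clc : Continuous cl := by rw [hcl]; fun_prop
  set B : Matrix n n ℂ → Matrix n n ℂ := fun x => cfc cl (herm x) with hB
  set N : Matrix n n ℂ → Matrix n n ℂ := fun x => cfc (fun s => ε * (cl s)⁻¹ ^ 2) (herm x) with hN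
  set κ : Matrix n n ℂ → Matrix n n ℂ := fun x => cfc (fun s : ℝ => √s) (E + N x) with hκ
  set V : Matrix n n ℂ → ℝ → Matrix n n ℂ :=
    fun x t => cfc (fun s : ℝ => s ^ r) (B x * Q t * B x) with hV
  have hBh : ∀ x, (B x).IsHermitian := fun x => cfc_herm _ _
  have hNp : ∀ x, (N x).PosSemidef := fun x => cfc_psd fun s _ => by positivity
  have hEN : ∀ x, (E + N x).PosDef := fun x => hE.add_posSemidef (hNp x)
  have hP : ∀ x t, (B x * Q t * B x).PosSemidef := fun x t => by
    have := (hQ t).conjTranspose_mul_mul_same (B x)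
    rwa [(hBh x).eq] at this
  have hVp : ∀ x t, (V x t).PosSemidef := fun x t => cfc_psd fun s hs =>
    Real.rpow_nonneg (spectrum_nonneg_of_psd (hP x t) hs) _
  have hκp : ∀ x, (κ x).PosDef := fun x => cfc_posDef (hEN x).1 fun s hs =>
    Real.sqrt_pos.mpr (spectrum_pos_of_posDef (hEN x) hs)
  have hκ2 : ∀ x, κ x * κ x = E + N x := fun x => by
    simp only [hκ]
    rw [cfc_mul']
    conv_rhs => rw [← cfc_id'' (hEN x).1]
    exact cfc_congr fun s hs => Real.mul_self_sqrt (spectrum_pos_of_posDef (hEN x) hs).le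
  have cB : Continuous B := continuousOn_univ.mp
    (continuousOn_cfc_univ clc continuous_herm.continuousOn fun x _ => herm_herm x)
  have cN : Continuous N := continuousOn_univ.mp
    (continuousOn_cfc_univ (continuous_const.mul ((clc.inv₀ fun s => (cl0 s).ne').pow 2))
      continuous_herm.continuousOn fun x _ => herm_herm x)
  have cκ : Continuous κ := continuousOn_univ.mp
    (continuousOn_cfc_univ Real.continuous_sqrt (continuous_const.add cN).continuousOn
      fun x _ => (hEN x).1)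
  have cV : Continuous (Function.uncurry V) := continuousOn_univ.mp
    (continuousOn_cfc_univ (Real.continuous_rpow_const (by linarith))
      (a := fun p : Matrix n n ℂ × ℝ => B p.1 * Q p.2 * B p.1)
      (((cB.comp continuous_fst).mul (hQc.comp continuous_snd)).mul
        (cB.comp continuous_fst)).continuousOn fun p _ => (hP p.1 p.2).1)
  have nB : ∀ x, ‖B x‖ ≤ R := fun x => norm_cfc_le' (by linarith) fun s _ => by
    rw [abs_of_pos (cl0 s)]; exact cl2 s
  have nN : ∀ x, ‖N x‖ ≤ lam := fun x => norm_cfc_le' hlam0.le fun s _ => by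
    rw [abs_of_nonneg (by positivity), ← hδ2]
    have := cl1 s
    have := cl0 s
    gcongr
  have nV : ∀ x, ∀ t ∈ Icc a b, ‖V x t‖ ≤ c₁ := fun x t ht => norm_cfc_le' hc₁0 fun s hs => by
    have h0 := spectrum_nonneg_of_psd (hP x t) hs
    rw [abs_of_nonneg (by positivity), hc₁]
    refine Real.rpow_le_rpow h0 ((le_abs_self s).trans ((spec_abs_le (hP x t).1 hs).trans ?_))
      (by linarith)
    refine (norm_mul_le _ _).trans (mul_le_mul ?_ (nB x) (norm_nonneg _) (by positivity))
    exact (norm_mul_le _ _).trans (mul_le_mul (nB x) (hM t ht) (norm_nonneg _) (by linarith))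
  have nT : ∀ u : Matrix n n ℂ, ‖cfc (tsq k) u‖ ≤ k ^ 2 := fun u =>
    norm_cfc_le' (by positivity) fun s _ => by
      rw [abs_of_nonneg (by unfold tsq; positivity)]; exact tsq_le hk0.le s
  have sE : ∀ x, ∀ s ∈ spectrum ℝ (E + N x), s < k ^ 2 := fun x s hs => by
    have := (le_abs_self s).trans ((spec_abs_le (hEN x).1 hs).trans (norm_add_le _ _))
    have := nN x
    linarith
  have sκ : ∀ x, ∀ s ∈ spectrum ℝ (κ x), s < k := fun x s hs => by
    rw [hκ, cfc_map_spectrum _ _ (hEN x).1.isSelfAdjoint (contOn_spec _ _)] at hs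
    obtain ⟨s, hs, rfl⟩ := hs
    exact (Real.sqrt_lt' hk0).mpr (sE x s hs)
  have nκ : ∀ x, ‖κ x‖ ≤ k := fun x => by
    rw [← cfc_id'' (hκp x).1]
    exact norm_cfc_le' hk0.le fun s hs => by
      rw [abs_of_pos (spectrum_pos_of_posDef (hκp x) hs)]; exact (sκ x s hs).le
  clear_value V κ N B
  obtain ⟨K, hK⟩ := exists_lip_tsq (n := n) hk0.le
  have bd : ∀ x, ∀ t ∈ Icc a b, ∀ u, ‖E + N x - V x t + -cfc (tsq k) (herm u)‖
      ≤ e + lam + c₁ + k ^ 2 := fun x t ht u =>
    (norm_add_le _ _).trans (add_le_add ((norm_sub_le _ _).trans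
      (add_le_add ((norm_add_le _ _).trans (add_le_add he.ge (nN x))) (nV x t ht)))
      (by rw [norm_neg]; exact nT _))
  have cV' : ∀ x, Continuous fun t => E + N x - V x t := fun x =>
    continuous_const.sub (cV.uncurry_left x)
  choose U hU0 hU using fun x => ode_exists hab hK (cV' x) (bd x) (κ x)
  have cU : Continuous fun x => U x b :=
    ode_continuous hab hK (H := fun x t => E + N x - V x t)
      ((continuous_const.add (cN.comp continuous_fst)).sub cV) (by simpa only [hU0] using cκ) hU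
  have hUh : ∀ x, ∀ t ∈ Icc a b, (U x t).IsHermitian := fun x t ht => by
    have := norm_image_sub_le_of_norm_deriv_le_segment' (f := fun t => star (U x t) - U x t)
      (f' := fun _ => 0) (C := 0) (fun t ht => by
        refine ((hU x t ht).star.sub (hU x t ht)).congr_deriv (sub_eq_zero.mpr ?_)
        exact (((hEN x).1.sub (hVp x t).1).add (cfc_herm _ _).neg).eq) (by simp) t ht
    have e0 : star (U x a) - U x a = 0 := by rw [hU0]; exact sub_eq_zero.mpr (hκp x).1.eq
    rw [e0, sub_zero, zero_mul, norm_le_zero_iff, sub_eq_zero] at this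
    exact this
  obtain ⟨x, hx⟩ := exists_fixed_of_bounded (fun x => B x + (κ x + U x b))
    (cB.add (cκ.add cU)) (R + (k + (k + (e + lam + c₁ + k ^ 2) * ℓ))) fun x => by
      refine (norm_add_le _ _).trans (add_le_add (nB x)
        ((norm_add_le _ _).trans (add_le_add (nκ x) ?_)))
      have := norm_image_sub_le_of_norm_deriv_le_segment' (hU x)
        (fun t ht => bd x t (Ico_subset_Icc_self ht) _) b ⟨hab, le_rfl⟩
      have h2 := norm_le_norm_add_norm_sub' (U x b) (U x a)
      rw [hU0] at this h2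
      rw [← hℓ] at this
      have := nκ x
      linarith
  have hxh : x.IsHermitian := hx ▸ (hBh x).add ((hκp x).1.add (hUh x b ⟨hab, le_rfl⟩))
  have hD : ∀ t ∈ Icc a b, HasDerivWithinAt (U x) (κ x * κ x - cfc (tsq k) (U x t) - V x t)
      (Icc a b) t := fun t ht => (hU x t ht).congr_deriv (by
        rw [herm_eq (hUh x t ht), hκ2]; abel)
  have hBx : B x = x := by
    obtain ⟨W, l, h⟩ := exists_spec hxh
    have eB : B x = cfc cl x := by simp only [hB, herm_eq hxh]
    have eN : N x = cfc (fun s => ε * (cl s)⁻¹ ^ 2) x := by simp only [hN, herm_eq hxh]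
    rw [eB]
    conv_rhs => rw [← cfc_id'' hxh]
    refine cfc_congr fun s hs => ?_
    obtain ⟨j, rfl⟩ := h.surj s hs
    set P := pj W j
    have hPp : P.PosSemidef := pj_psd W j
    have hP1 : rt P = 1 := h.rt_pj j
    have st : ∀ f : ℝ → ℝ, rt (P * cfc f x) = f (l j) := fun f => by
      rw [rt_comm, h.fc_pj, rt_smul, hP1, mul_one]
    have e1 : l j = cl (l j) + (2 * rt (P * κ x) + (rt (P * U x b) - rt (P * U x a))) := by
      have := congrArg (fun y => rt (P * y)) hx
      simp only [Matrix.mul_add, rt_add] at this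
      have e2 := st fun s => s
      rw [cfc_id'' hxh] at e2
      rw [eB, st, e2] at this
      rw [hU0]; linarith
    have cφ : ContinuousOn (fun t => rt (P * U x t)) (Icc a b) :=
      fun t ht => (rt_deriv (hD t ht)).continuousWithinAt
    have dφ : ∀ t ∈ Ioo a b, HasDerivWithinAt (fun t => rt (P * U x t))
        (rt (P * (κ x * κ x - cfc (tsq k) (U x t) - V x t))) (Ioi t) t := fun t ht =>
      ((rt_deriv (hD t (Ioo_subset_Icc_self ht))).hasDerivAt
        (Icc_mem_nhds ht.1 ht.2)).hasDerivWithinAt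
    have pE0 := rt_mul_nonneg hPp hE.posSemidef
    have pE1 := rt_mul_le hPp hP1 (he ▸ le_norm_smul hE.1)
    have pEN : rt (P * (E + N x)) = rt (P * E) + ε * (cl (l j))⁻¹ ^ 2 := by
      rw [Matrix.mul_add, rt_add, eN, st]
    by_contra hne
    rcases lt_or_ge (l j) δ with h1 | h1
    · have c1 : cl (l j) = δ := hcl ▸ max_eq_left ((min_le_left _ _).trans h1.le)
      rw [c1, hδ2] at pEN
      have i1 := intervalIntegral.integral_le_sub_of_hasDeriv_right_of_le hab cφ dφ
        (φ := fun _ => -(e + 1 + c₁)) (by simp) (fun t ht => by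
          have q1 := rt_mul_le hPp hP1 ((le_norm_smul (cfc_herm (tsq k) (U x t))).trans
            (smul_le_smul_of_nonneg_right (nT _) zero_le_one))
          have q2 := rt_mul_le hPp hP1 ((le_norm_smul (hVp x t).1).trans
            (smul_le_smul_of_nonneg_right (nV x t (Ioo_subset_Icc_self ht)) zero_le_one))
          rw [hκ2, Matrix.mul_sub, Matrix.mul_sub, rt_sub, rt_sub, pEN]
          linarith)
      have i2 : k⁻¹ • (E + N x) ≤ κ x := by
        conv_lhs => rw [← cfc_id'' (hEN x).1, cfc_smul']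
        rw [hκ]
        refine cfc_le' fun s hs => ?_
        have s0 := (spectrum_pos_of_posDef (hEN x) hs).le
        have s1 := ((Real.sqrt_lt' hk0).mpr (sE x s hs)).le
        rw [inv_mul_le_iff₀ hk0]
        calc s = √s * √s := (Real.mul_self_sqrt s0).symm
          _ ≤ _ := by gcongr
      have i3 := rt_mul_mono hPp i2
      rw [Matrix.mul_smul, rt_smul, pEN, inv_mul_le_iff₀ hk0] at i3
      rw [intervalIntegral.integral_const, smul_eq_mul, ← hℓ] at i1
      have i4 : k - (e + 1) ≤ rt (P * κ x) := by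
        by_contra hlt
        have := mul_lt_mul_of_pos_left (not_le.mp hlt) hk0
        have : e + 1 ≤ k * (e + 1) := le_mul_of_one_le_left (by linarith) (by linarith)
        linarith
      rw [c1] at e1
      linarith
    rcases lt_or_ge R (l j) with h2 | h2
    · have c1 : cl (l j) = R := by
        simp only [hcl]; rw [min_eq_right h2.le, max_eq_right (by linarith)]
      have pN : rt (P * (E + N x)) ≤ e + ε := by
        rw [pEN, c1]
        have : R⁻¹ ^ 2 ≤ 1 := pow_le_one₀ (by positivity) (inv_le_one_of_one_le₀ hR1)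
        nlinarith
      have eBP : B x * P = R • P := by rw [eB, h.fc_pj, c1]
      have ePB : P * B x = R • P := by
        have := congrArg conjTranspose eBP
        rwa [conjTranspose_mul, conjTranspose_smul, hPp.1.eq, (hBh x).eq, star_trivial] at this
      have cQ : Continuous fun t => rt (P * Q t) := continuous_rt.comp (continuous_const.mul hQc)
      have i1 := intervalIntegral.sub_le_integral_of_hasDeriv_right_of_le hab cφ dφ
        (φ := fun t => (e + ε + 1) - R ^ 2 * rt (P * Q t))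
        (continuous_const.sub (continuous_const.mul cQ)).continuousOn.integrableOn_Icc
        (fun t ht => by
          have q1 := rt_mul_nonneg hPp (cfc_psd (f := tsq k) (A := U x t)
            fun s _ => by unfold tsq; positivity)
          have q2 : B x * Q t * B x - 1 ≤ V x t := by
            have : B x * Q t * B x - 1 = cfc (fun s : ℝ => s - 1) (B x * Q t * B x) := by
              rw [← cfc_sub', cfc_id'' (hP x t).1, cfc_const' (hP x t).1, one_smul]
            rw [this, hV]
            refine cfc_le' fun s hs => ?_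
            have s0 := spectrum_nonneg_of_psd (hP x t) hs
            rcases le_total s 1 with s1 | s1
            · have := Real.rpow_nonneg s0 r; linarith
            · have := Real.rpow_le_rpow_of_exponent_le s1 hr
              rw [Real.rpow_one] at this; linarith
          have q3 := rt_mul_mono hPp q2
          have q4 : rt (P * (B x * Q t * B x)) = R ^ 2 * rt (P * Q t) := by
            rw [← Matrix.mul_assoc, rt_comm, ← Matrix.mul_assoc, ← Matrix.mul_assoc,
              eBP, Matrix.smul_mul, ePB, smul_smul, Matrix.smul_mul, rt_smul, sq]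
          rw [Matrix.mul_sub, Matrix.mul_one, rt_sub, q4, hP1] at q3
          rw [hκ2, Matrix.mul_sub, Matrix.mul_sub, rt_sub, rt_sub]
          linarith)
      rw [intervalIntegral.integral_sub (by simp) ((cQ.intervalIntegrable _ _).const_mul _),
        intervalIntegral.integral_const_mul, intervalIntegral.integral_const, smul_eq_mul,
        ← hℓ] at i1
      have i2 : κ x ≤ (1 / 2 : ℝ) • (1 + (E + N x)) := by
        have : (1 / 2 : ℝ) • (1 + (E + N x)) = cfc (fun s : ℝ => 1 / 2 * (1 + s)) (E + N x) := by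
          rw [← cfc_smul', ← cfc_add', cfc_id'' (hEN x).1, cfc_const' (hEN x).1, one_smul]
        rw [this, hκ]
        refine cfc_le' fun s hs => ?_
        have s0 := (spectrum_pos_of_posDef (hEN x) hs).le
        nlinarith [Real.mul_self_sqrt s0, sq_nonneg (√s - 1)]
      have i3 := rt_mul_mono hPp i2
      rw [Matrix.mul_smul, rt_smul, Matrix.mul_add, Matrix.mul_one, rt_add, hP1] at i3
      have i4 := mul_le_mul_of_nonneg_left (hQ2 P hPp hP1) (sq_nonneg R)
      rw [c1] at e1
      have : R ≤ R ^ 2 := le_self_pow₀ hR1 two_ne_zero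
      linarith
    · exact hne (by simp only [hcl]; rw [min_eq_left h2, max_eq_right h1])
  have hUb : U x b = -κ x := by
    rw [hBx, add_eq_left] at hx
    exact eq_neg_of_add_eq_zero_right hx
  have adm := riccati_adm (hκp x) (sκ x) hD (hUh x) (fun t _ => hVp x t) (hU0 x) hUb hk0
  refine ⟨B x, κ x, U x, hBh x, hκp x, ?_, ?_, hU0 x, hUb, fun t ht => ?_,
    fun t ht => ⟨hUh x t ht, (adm t ht).2⟩⟩
  · rw [hκ2]; exact le_add_of_nonneg_right (nonneg_iff_posSemidef.mpr (hNp x))
  · rw [hκ2, Matrix.mul_add, Matrix.add_mul]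
    congr 1
    simp only [hB, hN]
    rw [cfc_mul', cfc_mul', ← cfc_const' (herm_herm x)]
    congr 1; ext s
    have := (cl0 s).ne'
    field_simp
  · have := hD t ht
    rw [(adm t ht).1, hV] at this
    exact this

end Vale.Agent.P371
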