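import Vale.Agent.P371.Core2
import Vale.Agent.P371.Lower

open Matrix Filter Topology Set MeasureTheory
open scoped Matrix.Norms.L2Operator MatrixOrder ComplexOrder NNReal ENNReal

set_option linter.unusedSectionVars false

namespace Vale.Agent.P371

section
variable {n : Type} [Fintype n] [DecidableEq n]

noncomputable def sgl (i j : n) : ℂ →L[ℝ] Matrix n n ℂ :=
  (Matrix.singleLinearMap ℝ i j).toContinuousLinearMap

noncomputable def ent (i j : n) : Matrix n n ℂ →L[ℝ] ℂ :=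
  (Matrix.entryLinearMap ℝ ℂ i j).toContinuousLinearMap

lemma eq_sum_sgl (F : ℝ → Matrix n n ℂ) : F = fun x => ∑ i, ∑ j, sgl i j (F x i j) := by
  ext1 x; exact Matrix.matrix_eq_sum_single (F x)

lemma prim_matrix {F F' : ℝ → Matrix n n ℂ}
    (h : ∀ i j, Prim (fun x => F x i j) (fun x => F' x i j)) : Prim F F' := by
  rw [eq_sum_sgl F, eq_sum_sgl F']
  exact Prim.sum _ fun i => Prim.sum _ fun j => (h i j).clm (sgl i j)

lemma integrable_matrix {F : ℝ → Matrix n n ℂ} (h : ∀ i j, Integrable fun x => F x i j) :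
    Integrable F := by
  rw [eq_sum_sgl F]
  exact integrable_finsetSum _ fun i _ => integrable_finsetSum _ fun j _ =>
    (sgl i j).integrable_comp (h i j)

lemma aesm_matrix {F : ℝ → Matrix n n ℂ} (h : ∀ i j, AEStronglyMeasurable fun x => F x i j) :
    AEStronglyMeasurable F := by
  rw [eq_sum_sgl F]
  exact Finset.aestronglyMeasurable_fun_sum _ fun i _ => Finset.aestronglyMeasurable_fun_sum _
    fun j _ => (sgl i j).continuous.comp_aestronglyMeasurable (h i j)

lemma integral_entry {F : ℝ → Matrix n n ℂ} (h : Integrable F) (i j : n) :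
    (∫ x, F x) i j = ∫ x, F x i j := ((ent i j).integral_comp_comm h).symm

end

variable {m N : ℕ}

lemma H1.prim (ψ : H1 m) : Prim ψ.f ψ.d :=
  ⟨fun _ _ => intervalIntegrable_iff.2 <| ((ψ.d_L2.locallyIntegrable one_le_two).integrableOn_isCompact
    isCompact_uIcc).mono_set uIoc_subset_uIcc, ψ.primitive⟩

lemma H1.prim_apply (ψ : H1 m) (k : Fin m) : Prim (fun x => ψ.f x k) (fun x => ψ.d x k) :=
  ψ.prim.clm (ContinuousLinearMap.proj (R := ℝ) (φ := fun _ : Fin m => ℂ) k)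

lemma H1.prim_star (ψ : H1 m) (k : Fin m) :
    Prim (fun x => star (ψ.f x k)) (fun x => star (ψ.d x k)) :=
  (ψ.prim_apply k).clm Complex.conjCLE.toContinuousLinearMap

/-- the matrix whose columns are the values of the functions -/
def col (u : Fin N → ℝ → Fin m → ℂ) (x : ℝ) : Matrix (Fin m) (Fin N) ℂ :=
  Matrix.of fun k j => u j x k

lemma gram_apply (u v : Fin N → ℝ → Fin m → ℂ) (x : ℝ) (i j : Fin N) :
    ((col u x)ᴴ * col v x) i j = star (u i x) ⬝ᵥ v j x := rfl

lemma gram_apply' (u v : Fin N → ℝ → Fin m → ℂ) (W : Matrix (Fin m) (Fin m) ℂ) (x : ℝ)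
    (i j : Fin N) : ((col u x)ᴴ * W * col v x) i j = star (u i x) ⬝ᵥ W *ᵥ v j x := by
  rw [Matrix.mul_assoc]; rfl

lemma integrable_gram {u v : Fin N → ℝ → Fin m → ℂ} (hu : ∀ i, MemLp (u i) 2)
    (hv : ∀ i, MemLp (v i) 2) : Integrable fun x => (col u x)ᴴ * col v x :=
  integrable_matrix fun i j => by
    simp only [gram_apply, dotProduct]
    exact integrable_finsetSum _ fun k _ =>
      ((memLp_pi_iff.mp (hu i) k).star).integrable_mul (memLp_pi_iff.mp (hv j) k)

theorem upper {γ : ℝ} (h1 : 1 / 2 < γ) (h2 : γ < 3 / 2) {W : ℝ → Matrix (Fin m) (Fin m) ℂ}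
    (hW : IsPotential γ W) {lam : Fin N → ℝ} {ψ : Fin N → H1 m} (hl : ∀ j, lam j < 0)
    (he : ∀ j, IsEigen W (lam j) (ψ j))
    (ho : ∀ i j, ip (ψ i).f (ψ j).f = if i = j then 1 else 0) :
    ∑ j, |lam j| ^ γ ≤ 2 * ((γ - 1 / 2) / (γ + 1 / 2)) ^ (γ - 1 / 2) * Lcl γ
      * ∫ x, trPow (γ + 1 / 2) (W x) := by
  have hb := beta_eq h1
  obtain ⟨ν, rfl⟩ : ∃ ν, γ = ν + 1 / 2 := ⟨γ - 1 / 2, by ring⟩
  have h0 : 0 < ν := by linarith
  have iw := hW.int
  have e1 : ν + 1 / 2 + 1 / 2 = ν + 1 := by ring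
  rw [e1] at iw hb ⊢
  rw [add_sub_cancel_right] at hb ⊢
  set Φ := col fun j => (ψ j).f
  set Φ' := col fun j => (ψ j).d
  have hQ : Prim (fun x => (Φ x)ᴴ * Φ x) (fun x => (Φ' x)ᴴ * Φ x + (Φ x)ᴴ * Φ' x) :=
    prim_matrix fun i j => by
      have := Prim.sum Finset.univ fun k => ((ψ i).prim_star k).mul ((ψ j).prim_apply k)
      simp only [Finset.sum_add_distrib] at this
      exact this
  have iQ : Integrable fun x => (Φ x)ᴴ * Φ x :=
    integrable_gram (fun i => (ψ i).f_L2) fun i => (ψ i).f_L2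
  have iG : Integrable fun x => (Φ' x)ᴴ * Φ' x :=
    integrable_gram (fun i => (ψ i).d_L2) fun i => (ψ i).d_L2
  have iQ' : Integrable fun x => (Φ' x)ᴴ * Φ x + (Φ x)ᴴ * Φ' x :=
    (integrable_gram (fun i => (ψ i).d_L2) fun i => (ψ i).f_L2).add
      (integrable_gram (fun i => (ψ i).f_L2) fun i => (ψ i).d_L2)
  have iq : Integrable fun x => rt ((Φ x)ᴴ * Φ x) := rtL.integrable_comp iQ
  have pQ : ∀ x, ((Φ x)ᴴ * Φ x).PosSemidef := fun x => posSemidef_conjTranspose_mul_self _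
  obtain ⟨M, hM⟩ : ∃ M, ∀ x, rt ((Φ x)ᴴ * Φ x) ≤ M := by
    obtain ⟨y, -, hy⟩ := (exists_far_le iq one_pos 0).1
    have iq' := (rtL (n := Fin N)).integrable_comp iQ'
    refine ⟨1 + ∫ x, ‖rtL ((Φ' x)ᴴ * Φ x + (Φ x)ᴴ * Φ' x)‖, fun x => ?_⟩
    have := (hQ.clm rtL).eq y x
    have b := (le_abs_self _).trans (intervalIntegral.norm_integral_le_integral_norm_uIoc
      (f := fun x => rtL ((Φ' x)ᴴ * Φ x + (Φ x)ᴴ * Φ' x)) (a := y) (b := x) (μ := volume))
    have b2 := setIntegral_le_integral (s := uIoc y x) iq'.norm (ae_of_all _ fun _ => norm_nonneg _)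
    simp only [rtL_apply] at this b b2 ⊢
    linarith
  have iW : Integrable fun x => (Φ x)ᴴ * W x * Φ x := by
    refine Integrable.mono' ((iw.div_const (ν + 1)).add
      (iq.const_mul (ν / (ν + 1) * (Fintype.card (Fin N) * M ^ (1 / ν))))) ?_
      (ae_of_all _ fun x => ?_)
    · refine aesm_matrix fun i j => ?_
      simp only [Φ, gram_apply', dotProduct, mulVec]
      refine Finset.aestronglyMeasurable_fun_sum _ fun k _ => AEStronglyMeasurable.mul
        ((ψ i).prim_star k).continuous.aestronglyMeasurable ?_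
      exact Finset.aestronglyMeasurable_fun_sum _ fun l _ => AEStronglyMeasurable.mul
        (hW.meas k l).aestronglyMeasurable ((ψ j).prim_apply l).continuous.aestronglyMeasurable
    · have pW := (hW.psd x).conjTranspose_mul_mul_same (Φ x)
      have b1 : ‖(Φ x)ᴴ * W x * Φ x‖ ≤ rt ((Φ x)ᴴ * W x * Φ x) := by
        rw [CStarAlgebra.norm_le_iff_le_algebraMap _ (rt_nonneg pW) (nonneg_iff_posSemidef.mpr pW),
          Algebra.algebraMap_eq_smul_one]
        exact le_rt_smul pW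
      have b2 := young (hW.psd x) (Φ x) h0
      have pc : (cfc (fun s : ℝ => s ^ (1 / ν)) ((Φ x)ᴴ * Φ x)).PosSemidef := cfc_psd fun s hs =>
        Real.rpow_nonneg (spectrum_nonneg_of_psd (pQ x) hs) _
      have b3 := rt_mul_le_mul pc (pQ x)
      have b4 : rt (cfc (fun s : ℝ => s ^ (1 / ν)) ((Φ x)ᴴ * Φ x))
          ≤ Fintype.card (Fin N) * M ^ (1 / ν) := by
        have := rt_mul_mono PosSemidef.one (cfc_le' (A := (Φ x)ᴴ * Φ x)
          (f := fun s : ℝ => s ^ (1 / ν)) (g := fun _ => M ^ (1 / ν)) fun s hs =>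
            Real.rpow_le_rpow (spectrum_nonneg_of_psd (pQ x) hs)
              ((spec_le_of_le (pQ x).1 (le_rt_smul (pQ x)) s hs).trans (hM x)) (by positivity))
        rw [Matrix.one_mul, Matrix.one_mul, cfc_const' (pQ x).1, rt_smul, rt_one] at this
        linarith
      have b5 := mul_le_mul_of_nonneg_left (b3.trans (mul_le_mul_of_nonneg_right b4
        (rt_nonneg (pQ x)))) (by positivity : 0 ≤ ν / (ν + 1))
      change _ ≤ rt _ / _ + _
      linarith
  have eQ : ∫ x, (Φ x)ᴴ * Φ x = 1 := by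
    ext i j; rw [integral_entry iQ, one_apply]; exact ho i j
  have eG : (∫ x, (Φ' x)ᴴ * Φ' x) - ∫ x, (Φ x)ᴴ * W x * Φ x = -dg fun j => |lam j| := by
    ext i j
    rw [Matrix.sub_apply, integral_entry iG, integral_entry iW]
    simp only [Φ, Φ', gram_apply, gram_apply']
    have := he j (ψ i)
    rw [ho] at this
    refine Eq.trans this ?_
    by_cases h : i = j
    · subst h; simp [dg, abs_of_neg (hl i)]
    · simp [dg, h]
  have := core hW.psd hQ iQ iG iW eQ (fun j => abs_pos.mpr (hl j).ne) eG h0 (by linarith) iw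
  have hβ := beta_pos h0
  rw [← le_div_iff₀' hβ] at this
  refine this.trans (le_of_eq ?_)
  have g1 := Real.Gamma_pos_of_pos (by linarith : 0 < ν + 1)
  have g2 := Real.Gamma_pos_of_pos (by linarith : 0 < ν + 1 / 2 + 1)
  have g3 : 0 < √Real.pi := Real.sqrt_pos.mpr Real.pi_pos
  rw [beta, hb, Lcl, show ν + 1 / 2 + 3 / 2 = (ν + 1) + 1 by ring,
    Real.Gamma_add_one (by linarith : ν + 1 ≠ 0)]
  change _ * (∫ x, trPow (ν + 1) (W x)) / _ = _
  field_simp

end Vale.Agent.P371
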